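import Vale.Agent.P045.Basic

/-! Elementary facts about abstract affine planes. -/

namespace Vale.Agent.P045

open Finset
open scoped Classical

variable {P D X : Type} [Fintype P] [Fintype D] [Fintype X] (G : Pl P D X)

@[simp] theorem Pl.mem_pts (l : D × X) (w : P) : w ∈ G.pts l ↔ G.On l w := by
  simp [Pl.pts]

theorem Pl.on_mk (d : D) (c : X) (w : P) : G.On (d, c) w ↔ G.π d w = c := Iff.rfl

/-- two parallel lines with a common point are equal -/
theorem Pl.eq_of_dir {l l' : D × X} {w : P} (h : l.1 = l'.1) (hw : G.On l w) (hw' : G.On l' w) :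
    l = l' := by
  refine Prod.ext h ?_
  unfold Pl.On at hw hw'
  rw [← hw, ← hw', h]

/-- two points with the same offsets in two directions are equal -/
theorem Pl.eq_of_two {d d' : D} (h : d ≠ d') {w w' : P} (h1 : G.π d w = G.π d w')
    (h2 : G.π d' w = G.π d' w') : w = w' :=
  (G.bij d d' h).1 (Prod.ext h1 h2)

/-- two different lines have at most one common point -/
theorem Pl.eq_of_lines {l l' : D × X} (h : l ≠ l') {w w' : P} (h1 : G.On l w) (h2 : G.On l' w)
    (h3 : G.On l w') (h4 : G.On l' w') : w = w' := by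
  have hd : l.1 ≠ l'.1 := fun e => h (G.eq_of_dir e h1 h2)
  exact G.eq_of_two hd (h1.trans h3.symm) (h2.trans h4.symm)

/-- two different lines through the extended point `x` have no other common point -/
theorem Pl.eq_of_inc {l l' : D × X} (h : l ≠ l') {x : P ⊕ D} (h1 : G.Inc l x) (h2 : G.Inc l' x)
    {w : P} (h3 : G.On l w) (h4 : G.On l' w) : x = Sum.inl w := by
  cases x with
  | inl v => rw [G.eq_of_lines h h1 h2 h3 h4]
  | inr d =>
    exact absurd (G.eq_of_dir ((show l.1 = d from h1).trans (show l'.1 = d from h2).symm) h3 h4) h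

theorem Pl.card_inter_le {l l' : D × X} (h : l ≠ l') : (G.pts l ∩ G.pts l').card ≤ 1 := by
  refine card_le_one.2 fun w hw w' hw' => ?_
  simp only [mem_inter, Pl.mem_pts] at hw hw'
  exact G.eq_of_lines h hw.1 hw.2 hw'.1 hw'.2

/-- lines of different directions meet -/
theorem Pl.exists_meet {l l' : D × X} (h : l.1 ≠ l'.1) : ∃ w, G.On l w ∧ G.On l' w := by
  obtain ⟨w, hw⟩ := (G.bij _ _ h).2 (l.2, l'.2)
  exact ⟨w, congrArg Prod.fst hw, congrArg Prod.snd hw⟩

include G in
theorem Pl.exists_ne (c : X) (d : D) : ∃ d', d' ≠ d := by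
  have h : 1 < Fintype.card D := by
    have : 0 < Fintype.card X := Fintype.card_pos_iff.2 ⟨c⟩
    have := G.cardD
    omega
  exact Fintype.exists_ne_of_one_lt_card h d

theorem Pl.card_pts (l : D × X) : (G.pts l).card = Fintype.card X := by
  obtain ⟨d', hd⟩ := G.exists_ne l.2 l.1
  rw [← card_univ]
  refine card_bij (fun w _ => G.π d' w) (fun _ _ => mem_univ _) ?_ ?_
  · intro w hw w' hw' e
    rw [Pl.mem_pts] at hw hw'
    exact G.eq_of_two hd e (hw.trans hw'.symm)
  · intro c _
    obtain ⟨w, h1, h2⟩ := G.exists_meet (l := (d', c)) (l' := l) hd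
    exact ⟨w, (G.mem_pts _ _).2 h2, h1⟩

include G in
theorem Pl.card_P (hX : 0 < Fintype.card X) : Fintype.card P = Fintype.card X ^ 2 := by
  obtain ⟨c⟩ := Fintype.card_pos_iff.1 hX
  have hD : 0 < Fintype.card D := by have := G.cardD; omega
  obtain ⟨d⟩ := Fintype.card_pos_iff.1 hD
  obtain ⟨d', hd⟩ := G.exists_ne c d
  rw [Fintype.card_of_bijective (G.bij d' d hd), Fintype.card_prod, sq]

include G in
theorem Pl.card_lines : Fintype.card (D × X) = Fintype.card X ^ 2 + Fintype.card X := by
  rw [Fintype.card_prod, G.cardD]; ring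

/-- the lines through a point -/
theorem Pl.card_through (w : P) :
    (univ.filter fun l : D × X => G.On l w).card = Fintype.card X + 1 := by
  rw [← G.cardD, ← card_univ]
  refine card_bij (fun l _ => l.1) (fun _ _ => mem_univ _) ?_ ?_
  · intro l hl l' hl' e
    simp only [mem_filter, mem_univ, true_and] at hl hl'
    exact G.eq_of_dir e hl hl'
  · intro d _
    exact ⟨(d, G.π d w), mem_filter.2 ⟨mem_univ _, rfl⟩, rfl⟩

/-- a set of points is split by the lines of a direction -/
theorem Pl.card_eq_sum (d : D) (S : Finset P) : S.card = ∑ c, (G.pts (d, c) ∩ S).card := by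
  rw [card_eq_sum_card_fiberwise (f := G.π d) (t := univ) (fun _ _ => mem_coe.2 (mem_univ _))]
  refine sum_congr rfl fun c _ => congrArg _ ?_
  ext w
  simp [Pl.On, and_comm]

end Vale.Agent.P045
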