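import Vale.Agent.P045.Circ
import Vale.Agent.P045.Geo

/-! Denniston arcs.  `K = {w | ∀ c ∈ Cs, tr (nm w / c ^ 2) = 0}`; `tr_of_on` gives the second claim.
The points of the line `det u w = c₀` are `u * ⟨y, c₀⟩` (`det_un_im`), with norm
`y ^ 2 - y c₀ + c₀ ^ 2`.  With `ψ x = (-1) ^ tr x` and `a S = ∑ c ∈ S, 1 / c ^ 2`,
`2 ^ card Cs * card (line ∩ K) = ∑ S ⊆ Cs, ∑ y, ψ (a S * (y ^ 2 + y c₀ + c₀ ^ 2))`, and as
`tr (a c₀ y) = tr (a ^ 2 c₀ ^ 2 y ^ 2)` the inner sum is `q` if `a S = 0`, `-q` if `c₀ ≠ 0` and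
`a S = 1 / c₀ ^ 2`, and `0` otherwise.  If `1 / c₀ ^ 2 = a S₁` the line misses `K` directly (sum
the conditions over `S₁`, `tr_of_on`); this happens for at most `2 ^ card Cs` values `c₀`.
Otherwise `2 ^ card Cs * card (line ∩ K) = q N₀` with `N₀ = card {S | a S = 0} ≥ 1`;
take `n = q N₀ / 2 ^ card Cs` (or the value on the line `c₀ = 0`). -/

namespace Vale.Agent.P045

open Finset
open scoped Classical

section

variable {F : Type} [Field F] (tr : F →+ ZMod 2)

/-- the additive character -/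
def arcPsi (x : F) : ℤ := if tr x = 0 then 1 else -1

theorem arc_add (x y : F) : arcPsi tr (x + y) = arcPsi tr x * arcPsi tr y := by
  unfold arcPsi
  rw [map_add]
  generalize tr x = a
  generalize tr y = b
  revert a b
  decide

theorem arc_zero : arcPsi tr 0 = 1 := by simp [arcPsi]

theorem arc_prod (Cs : Finset F) (x : F) :
    (if ∀ c ∈ Cs, tr (x / c ^ 2) = 0 then (2 : ℤ) ^ Cs.card else 0) =
      ∑ S ∈ Cs.powerset, arcPsi tr ((∑ c ∈ S, 1 / c ^ 2) * x) := by
  have h1 : ∀ S : Finset F, arcPsi tr ((∑ c ∈ S, 1 / c ^ 2) * x) =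
      ∏ c ∈ S, arcPsi tr (x / c ^ 2) := by
    intro S
    induction S using Finset.induction_on with
    | empty => simp [arc_zero]
    | insert c S hc ih =>
      rw [sum_insert hc, prod_insert hc, add_mul, arc_add, ih, one_div_mul_eq_div]
  simp only [h1]
  rw [← prod_one_add]
  split_ifs with h
  · rw [← prod_const]
    exact prod_congr rfl fun c hc => by simp [arcPsi, h c hc]
  · push Not at h
    obtain ⟨c, hc, h⟩ := h
    exact (prod_eq_zero hc (by simp [arcPsi, h])).symm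

variable {tr} [Fintype F] [CharP F 2]

omit [CharP F 2] in
theorem arc_lin (htr : IsTr tr) {b : F} (hb : b ≠ 0) : ∑ y, arcPsi tr (b * y) = 0 := by
  have h1 : ∑ y, arcPsi tr (b * y) = ∑ y, arcPsi tr (b * (y + b⁻¹)) :=
    (Equiv.sum_comp (Equiv.addRight b⁻¹) fun y => arcPsi tr (b * y)).symm
  have h2 : arcPsi tr 1 = -1 := by simp [arcPsi, htr.one]
  simp only [mul_add, mul_inv_cancel₀ hb, arc_add, h2, mul_neg, mul_one, sum_neg_distrib] at h1
  omega

theorem arc_quad (htr : IsTr tr) (a c : F) (h : a * c ^ 2 ≠ 1) :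
    ∑ y, arcPsi tr (a * (y ^ 2 - y * c + c ^ 2)) = if a = 0 then (Fintype.card F : ℤ) else 0 := by
  split_ifs with ha
  · simp [ha, arc_zero]
  · have h1 : ∀ y, arcPsi tr (a * (y ^ 2 - y * c + c ^ 2)) =
        arcPsi tr (a * (1 - a * c ^ 2) * y ^ 2) * arcPsi tr (a * c ^ 2) := by
      intro y
      rw [← arc_add]
      unfold arcPsi
      rw [show a * (y ^ 2 - y * c + c ^ 2) = a * y ^ 2 + a * c ^ 2 - a * y * c by ring,
        show a * (1 - a * c ^ 2) * y ^ 2 + a * c ^ 2 = a * y ^ 2 + a * c ^ 2 - (a * y * c) ^ 2 by ring,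
        map_sub, map_sub, htr.sq]
    have h2 : Function.Bijective fun y : F => y ^ 2 := ⟨fun _ _ e => sq_inj2 e, exists_sq⟩
    simp only [h1]
    rw [← sum_mul, h2.sum_comp fun y => arcPsi tr (a * (1 - a * c ^ 2) * y),
      arc_lin htr (mul_ne_zero ha (sub_ne_zero.2 h.symm)), zero_mul]

theorem arc_line (htr : IsTr tr) {D : Type} [Fintype D] (vec : D ≃ Un F) (l : D × F) (g : F → ℤ) :
    ∑ w ∈ (plane htr vec).pts l, g (nm w) = ∑ y, g (y ^ 2 - y * l.2 + l.2 ^ 2) := by
  have hon : ∀ w, w ∈ (plane htr vec).pts l ↔ (((vec l.1)⁻¹).1 * w).im = l.2 := fun w => by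
    rw [Pl.mem_pts, ← det_un_im]
    rfl
  refine sum_nbij' (fun w => (((vec l.1)⁻¹).1 * w).re) (fun y => (vec l.1).1 * ⟨y, l.2⟩)
    (fun _ _ => mem_univ _) (fun y _ => ?_) (fun w hw => ?_) (fun y _ => ?_) fun w hw => ?_
  · rw [hon, un_inv_mul]
  · rw [← (hon w).1 hw]
    exact un_mul_inv _ w
  · simp only [un_inv_mul]
  · rw [← (hon w).1 hw, show nm w = nm (((vec l.1)⁻¹).1 * w) by rw [nm_mul, nm_un, one_mul]]
    rfl

end

theorem arc {F : Type} [Field F] [Fintype F] [CharP F 2] {tr : F →+ ZMod 2} (htr : IsTr tr)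
    {D : Type} [Fintype D] (vec : D ≃ Un F) (Cs : Finset F) (hC : ∀ c ∈ Cs, c ≠ 0) (R : ℕ)
    (hR : 2 ^ Cs.card ≤ R) :
    ∃ K n, IsArc (plane htr vec) R K n ∧ ∀ w ∈ K, ∀ d, (plane htr vec).π d w ∉ Cs := by
  let K : Finset (Pt F) := univ.filter fun w => ∀ c ∈ Cs, tr (nm w / c ^ 2) = 0
  let a : Finset F → F := fun S => ∑ c ∈ S, 1 / c ^ 2
  have hbad : ∀ l : D × F, (∃ S ∈ Cs.powerset, a S * l.2 ^ 2 = 1) →
      ((plane htr vec).pts l ∩ K).card = 0 := by
    rintro l ⟨S, hS, h⟩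
    rw [card_eq_zero, eq_empty_iff_forall_notMem]
    intro w hw
    obtain ⟨h1, h2⟩ := mem_inter.1 hw
    have h0 : l.2 ≠ 0 := fun e => by simp [e] at h
    have h3 := htr.tr_of_on (vec l.1) (((plane htr vec).mem_pts _ _).1 h1) h0
    have h4 : nm w / l.2 ^ 2 = ∑ c ∈ S, nm w / c ^ 2 := by
      rw [div_eq_iff (pow_ne_zero 2 h0), sum_congr rfl fun c _ => div_eq_mul_one_div (nm w) (c ^ 2),
        ← mul_sum, mul_assoc, h, mul_one]
    rw [h4, map_sum, sum_eq_zero fun c hc => (mem_filter.1 h2).2 c (mem_powerset.1 hS hc)] at h3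
    exact zero_ne_one h3
  have hgood : ∀ l : D × F, (¬∃ S ∈ Cs.powerset, a S * l.2 ^ 2 = 1) →
      2 ^ Cs.card * ((plane htr vec).pts l ∩ K).card =
        Fintype.card F * (Cs.powerset.filter fun S => a S = 0).card := by
    intro l hl
    have h1 : ((2 ^ Cs.card * ((plane htr vec).pts l ∩ K).card : ℕ) : ℤ) =
        ∑ w ∈ (plane htr vec).pts l, ∑ S ∈ Cs.powerset, arcPsi tr (a S * nm w) := by
      simp only [← arc_prod tr Cs, a]
      rw [← filter_mem_eq_inter, card_filter]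
      push_cast
      rw [mul_sum]
      refine sum_congr rfl fun w _ => ?_
      simp [K]
    rw [arc_line htr vec l fun x => ∑ S ∈ Cs.powerset, arcPsi tr (a S * x), sum_comm] at h1
    rw [← Nat.cast_inj (R := ℤ), h1, card_filter]
    push_cast
    rw [mul_sum]
    refine sum_congr rfl fun S hS => ?_
    rw [arc_quad htr _ _ fun h => hl ⟨S, hS, h⟩]
    split_ifs <;> simp
  have hins : ∀ (l : D × F) (i j : DecidableEq (Pt F)),
      (@Inter.inter _ (@Finset.instInter _ i) ((plane htr vec).pts l) K).card =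
        (@Inter.inter _ (@Finset.instInter _ j) ((plane htr vec).pts l) K).card := fun l i j => by
    rw [Subsingleton.elim i j]
  have hN : 0 < (Cs.powerset.filter fun S => a S = 0).card :=
    card_pos.2 ⟨∅, mem_filter.2 ⟨empty_mem_powerset _, rfl⟩⟩
  have h0 := hgood (vec.symm 1, 0) (by simp)
  set n := ((plane htr vec).pts (vec.symm 1, 0) ∩ K).card with hn
  have hbig : Fintype.card F ≤ 2 ^ Cs.card * n := h0 ▸ Nat.le_mul_of_pos_right _ hN
  have hreg : ∀ l : D × F, (¬∃ S ∈ Cs.powerset, a S * l.2 ^ 2 = 1) →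
      ((plane htr vec).pts l ∩ K).card = n := fun l hl =>
    Nat.eq_of_mul_eq_mul_left (by positivity) ((hgood l hl).trans h0.symm)
  refine ⟨K, n, ⟨hbig.trans (Nat.mul_le_mul_right _ hR), fun l => ?_, fun d => ?_⟩,
    fun w hw d hd => ?_⟩
  · by_cases h : ∃ S ∈ Cs.powerset, a S * l.2 ^ 2 = 1
    · exact Or.inl ((hins l _ _).trans (hbad l h))
    · exact Or.inr ((hins l _ _).trans (hreg l h))
  · refine le_trans (card_le_card (t := Cs.powerset.biUnion fun S =>
      univ.filter fun c : F => a S * c ^ 2 = 1) fun c hc => ?_) ?_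
    · by_contra h
      have h1 := hreg (d, c) fun ⟨S, hS, e⟩ => h (mem_biUnion.2 ⟨S, hS, by simpa using e⟩)
      have h2 : n = 0 := by
        rw [← h1]
        exact (hins _ _ _).trans (mem_filter.1 hc).2
      rw [h2] at hbig
      exact absurd hbig (by simp)
    · refine (card_biUnion_le_card_mul _ _ 1 fun S _ => card_le_one.2 fun c hc c' hc' => ?_).trans ?_
      · have e1 := (mem_filter.1 hc).2
        have e2 := (mem_filter.1 hc').2
        have e3 : a S ≠ 0 := fun e => by simp [e] at e1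
        exact sq_inj2 (mul_left_cancel₀ e3 (e1.trans e2.symm))
      · rwa [card_powerset, mul_one]
  · have h1 := htr.tr_of_on (vec d) rfl (hC _ hd)
    exact zero_ne_one (((mem_filter.1 hw).2 _ hd).symm.trans h1)

end Vale.Agent.P045
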