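import Mathlib

/-! The numerical inequalities for the union bounds.  Take `z = sqrt (sqrt q)`,
`g = sqrt q / (32 R ^ 2)`, `g' = q / (2 (R ^ 2 + 1))`. -/

namespace Vale.Agent.P045

theorem asym_aux (C : ℝ) (k : ℕ) {M : ℕ} (hM : 0 < M) {b : ℝ} (hb0 : 0 ≤ b) (hb1 : b < 1) :
    ∃ t0 : ℕ, ∀ t ≥ t0, C * (t : ℝ) ^ k * b ^ (t / M) < 1 / 2 := by
  have h1 := (tendsto_pow_const_mul_const_pow_of_abs_lt_one k
    (show |b| < 1 by rwa [abs_of_nonneg hb0])).const_mul (|C| * (2 * M) ^ k)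
  rw [mul_zero] at h1
  obtain ⟨u0, hu0⟩ := Filter.eventually_atTop.1 (h1.eventually (gt_mem_nhds one_half_pos))
  refine ⟨(u0 + 1) * M, fun t ht => ?_⟩
  have h2 : u0 + 1 ≤ t / M := (Nat.le_div_iff_mul_le hM).2 ht
  have h3 : t ≤ 2 * M * (t / M) := by
    have := Nat.lt_mul_div_succ t hM
    nlinarith
  refine lt_of_le_of_lt ?_ (hu0 (t / M) (by omega))
  rw [← mul_assoc, mul_assoc |C|, ← mul_pow]
  have h4 : (t : ℝ) ≤ 2 * M * (t / M : ℕ) := by exact_mod_cast h3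
  gcongr
  exact le_abs_self C

theorem asym_a {R q s t u : ℕ} (hR : 0 < R) (hq : 0 < q) (f3 : 16 * R ≤ s) (e2 : t * t ≤ s)
    (e7 : u * (32 * R ^ 2) ≤ t) : 8 * (u * t * (R * (R * q) + 1) + R * q) ≤ q * s := by
  have f1 : u * (32 * R ^ 2) * t ≤ s := (Nat.mul_le_mul_right t e7).trans e2
  have f2 : 1 ≤ R * (R * q) := Nat.succ_le_of_lt (by positivity)
  have f4 := Nat.mul_le_mul_left q f1
  have f5 := Nat.mul_le_mul_left q f3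
  have f6 := Nat.mul_le_mul_left (u * t) f2
  nlinarith

theorem asym_b {R q s v : ℕ} (f1 : 16 ≤ s) (f2 : R ≤ s) (e1 : s * s ≤ q)
    (e8 : v * (8 * (R * R + 1)) ≤ s) : v * (3 * s + 2) * (R * R + 1) + 2 * R + (3 * s + 1) ≤ q := by
  have f3 := Nat.mul_le_mul_right (3 * s + 2) e8
  have f4 := Nat.mul_le_mul_right s f1
  nlinarith

theorem asym (R : ℕ) (hR : 0 < R) : ∃ q0 : ℕ, ∀ q ≥ q0, ∃ z g g' : ℕ, 16 ≤ q ∧ 0 < z ∧
    64 * z * R ^ 3 ≤ q ∧ 2 * (q : ℝ) ^ 2 * (1 - 1 / (4 * R : ℕ)) ^ z < 1 ∧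
    8 * (g * (R * (R * q) + 1) + R * q) ≤ q * Nat.sqrt q ∧
    g' * (R * R + 1) + 2 * R + (3 * Nat.sqrt q + 1) ≤ q ∧
    (((4 * q ^ 2) ^ (38 * R ^ 2 * z) : ℕ) : ℝ) * (1 - 1 / 2 ^ R) ^ g < 1 / 2 ∧
    (((q ^ 2 + q) * (q ^ 2 + 1) ^ (3 * Nat.sqrt q + 1) : ℕ) : ℝ) * (1 - 1 / 2 ^ R) ^ g' < 1 / 2 := by
  have hR' : (1 : ℝ) ≤ R := by exact_mod_cast hR
  have ha0 : (0 : ℝ) ≤ 1 - 1 / (4 * R : ℕ) := by
    push_cast
    rw [sub_nonneg, div_le_one (by positivity)]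
    linarith
  have ha1 : (1 : ℝ) - 1 / (4 * R : ℕ) < 1 := by
    have : (0 : ℝ) < 1 / (4 * R : ℕ) := by positivity
    linarith
  have hb0 : (0 : ℝ) ≤ 1 - 1 / 2 ^ R := by
    rw [sub_nonneg, div_le_one (by positivity)]
    exact one_le_pow₀ one_le_two
  have hb1 : (1 : ℝ) - 1 / 2 ^ R < 1 := by
    have : (0 : ℝ) < 1 / 2 ^ R := by positivity
    linarith
  obtain ⟨t1, h1⟩ := asym_aux 256 8 one_pos ha0 ha1
  obtain ⟨t2, h2⟩ := asym_aux (1024 ^ (38 * R ^ 2)) (8 * (38 * R ^ 2))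
    (M := 32 * R ^ 2) (by positivity) hb0 hb1
  obtain ⟨t3, h3⟩ := asym_aux 32 4 (M := 8 * (R * R + 1)) (by positivity) hb0 hb1
  obtain ⟨T, hT⟩ : ∃ T, T = t1 + t2 + t3 + 64 * R ^ 3 + 16 * R + 16 := ⟨_, rfl⟩
  refine ⟨(T * T) * (T * T), fun q hq => ?_⟩
  obtain ⟨s, hs⟩ : ∃ s, s = Nat.sqrt q := ⟨_, rfl⟩
  obtain ⟨t, ht⟩ : ∃ t, t = Nat.sqrt s := ⟨_, rfl⟩
  rw [← hs]
  have hTt : T ≤ t := by
    rw [ht, hs]
    exact Nat.le_sqrt.2 (Nat.le_sqrt.2 hq)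
  have e1 : s * s ≤ q := hs ▸ Nat.sqrt_le q
  have e2 : t * t ≤ s := ht ▸ Nat.sqrt_le s
  have e3 : q < (s + 1) * (s + 1) := hs ▸ Nat.lt_succ_sqrt q
  have e4 : s < (t + 1) * (t + 1) := ht ▸ Nat.lt_succ_sqrt s
  have hts : t ≤ s := ht ▸ Nat.sqrt_le_self s
  have hsq : s ≤ q := hs ▸ Nat.sqrt_le_self q
  have e0 : ∀ x : ℕ, 1 ≤ x → (x + 1) * (x + 1) ≤ 4 * x ^ 2 := fun x hx =>
    (Nat.mul_le_mul (by omega : x + 1 ≤ 2 * x) (by omega : x + 1 ≤ 2 * x)).trans_eq (by ring)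
  have e5 : q ≤ 4 * s ^ 2 := e3.le.trans (e0 s (by omega))
  have e6 : q ≤ 16 * t ^ 4 := by
    have : s + 1 ≤ 4 * t ^ 2 := (Nat.succ_le_of_lt e4).trans (e0 t (by omega))
    calc q ≤ (s + 1) * (s + 1) := e3.le
      _ ≤ (4 * t ^ 2) * (4 * t ^ 2) := Nat.mul_le_mul this this
      _ = 16 * t ^ 4 := by ring
  obtain ⟨u, hu⟩ : ∃ u, u = t / (32 * R ^ 2) := ⟨_, rfl⟩
  obtain ⟨v, hv⟩ : ∃ v, v = s / (8 * (R * R + 1)) := ⟨_, rfl⟩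
  have e7 : u * (32 * R ^ 2) ≤ t := hu ▸ Nat.div_mul_le_self _ _
  have e8 : v * (8 * (R * R + 1)) ≤ s := hv ▸ Nat.div_mul_le_self _ _
  have hpow : ∀ (x : ℝ) (n : ℕ), 0 ≤ x → x < 1 / 2 → n ≠ 0 → x ^ n < 1 / 2 := fun x n h0 h hn =>
    (pow_le_of_le_one h0 (by linarith) hn).trans_lt h
  refine ⟨t, u * t, v * (3 * s + 2), by omega, by omega, ?_, ?_, ?_, ?_, ?_, ?_⟩
  · have : 64 * R ^ 3 ≤ t := by omega
    calc 64 * t * R ^ 3 = t * (64 * R ^ 3) := by ring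
      _ ≤ t * t := Nat.mul_le_mul_left t this
      _ ≤ q := e2.trans hsq
  · have h := h1 t (by omega)
    rw [Nat.div_one] at h
    have e : (q : ℝ) ^ 2 ≤ 256 * t ^ 8 := by
      have : q ^ 2 ≤ (16 * t ^ 4) ^ 2 := Nat.pow_le_pow_left e6 2
      have : (q : ℝ) ^ 2 ≤ (16 * t ^ 4) ^ 2 := by exact_mod_cast this
      linarith [show ((16 : ℝ) * t ^ 4) ^ 2 = 256 * t ^ 8 by ring]
    have := mul_le_mul_of_nonneg_right e (pow_nonneg ha0 t)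
    linarith
  · exact asym_a hR (by omega) (by omega) e2 e7
  · exact asym_b (by omega) (by omega) e1 e8
  · have h := h2 t (by omega)
    rw [← hu] at h
    have e : (((4 * q ^ 2) ^ (38 * R ^ 2) : ℕ) : ℝ) ≤ 1024 ^ (38 * R ^ 2) * t ^ (8 * (38 * R ^ 2)) := by
      have : 4 * q ^ 2 ≤ 1024 * t ^ 8 := by
        calc 4 * q ^ 2 ≤ 4 * (16 * t ^ 4) ^ 2 := by gcongr
          _ = _ := by ring
      rw [pow_mul (t : ℝ), ← mul_pow]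
      exact_mod_cast Nat.pow_le_pow_left this _
    rw [pow_mul _ _ t, pow_mul _ u t, Nat.cast_pow, ← mul_pow]
    refine hpow _ _ (by positivity) ?_ (by omega)
    exact (mul_le_mul_of_nonneg_right e (pow_nonneg hb0 u)).trans_lt h
  · have h := h3 s (by omega)
    rw [← hv] at h
    have e : (q ^ 2 + q) * (q ^ 2 + 1) ^ (3 * s + 1) ≤ (32 * s ^ 4) ^ (3 * s + 2) := by
      have f1 : q ^ 2 + q ≤ 32 * s ^ 4 := by
        have : q ^ 2 ≤ (4 * s ^ 2) ^ 2 := Nat.pow_le_pow_left e5 2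
        have : q ≤ q ^ 2 := Nat.le_self_pow two_ne_zero q
        have : (4 * s ^ 2) ^ 2 = 16 * s ^ 4 := by ring
        omega
      have f2 : q ^ 2 + 1 ≤ 32 * s ^ 4 := by omega
      rw [show 3 * s + 2 = 3 * s + 1 + 1 from rfl, pow_succ' (32 * s ^ 4)]
      exact Nat.mul_le_mul f1 (Nat.pow_le_pow_left f2 _)
    have e' : (((q ^ 2 + q) * (q ^ 2 + 1) ^ (3 * s + 1) : ℕ) : ℝ) ≤ (32 * s ^ 4) ^ (3 * s + 2) := by
      exact_mod_cast e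
    refine (mul_le_mul_of_nonneg_right e' (pow_nonneg hb0 _)).trans_lt ?_
    rw [pow_mul, ← mul_pow]
    exact hpow _ _ (by positivity) h (by omega)

end Vale.Agent.P045
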