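import Mathlib

/-! Shared definitions for the disproof of Ryser's conjecture.  See `notes/P045.md`. -/

namespace Vale.Agent.P045

open Finset
open scoped Classical

/-! ## Abstract affine planes -/

/-- An affine plane with points `P`, directions `D` and offsets `X`: the line `(d, c)` is the set
of points `w` with `π d w = c`. -/
structure Pl (P D X : Type) [Fintype P] [Fintype D] [Fintype X] where
  π : D → P → X
  bij : ∀ d d', d ≠ d' → Function.Bijective fun w => (π d w, π d' w)
  join : ∀ w w', ∃ d, π d w = π d w'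
  cardD : Fintype.card D = Fintype.card X + 1

section

variable {P D X : Type} [Fintype P] [Fintype D] [Fintype X]

/-- incidence -/
def Pl.On (G : Pl P D X) (l : D × X) (w : P) : Prop := G.π l.1 w = l.2

/-- the points of a line -/
noncomputable def Pl.pts (G : Pl P D X) (l : D × X) : Finset P := univ.filter fun w => G.On l w

/-- incidence with points and points at infinity -/
def Pl.Inc (G : Pl P D X) (l : D × X) : P ⊕ D → Prop
  | .inl w => G.On l w
  | .inr d => l.1 = d

/-- a set `K` meeting every line in `0` or `n` points -/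
structure IsArc (G : Pl P D X) (R : ℕ) (K : Finset P) (n : ℕ) : Prop where
  big : Fintype.card X ≤ R * n
  reg : ∀ l, (G.pts l ∩ K).card = 0 ∨ (G.pts l ∩ K).card = n
  ext : ∀ d, (univ.filter fun c => (G.pts (d, c) ∩ K).card = 0).card ≤ R

/-- The lines of `pot β` whose direction is in the class `C` are deleted when `C` has the bit `β`.
`Dead` points are deleted for both values of one bit. -/
def Dead (G : Pl P D X) {𝒞 : Type} (cls : D → 𝒞) (pot : Bool → Finset (D × X)) (w : P) : Prop :=
  ∃ l ∈ pot true, ∃ l' ∈ pot false, cls l.1 = cls l'.1 ∧ G.On l w ∧ G.On l' w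

structure PotOK (G : Pl P D X) {𝒞 : Type} (cls : D → 𝒞) (pot : Bool → Finset (D × X)) (R : ℕ) :
    Prop where
  h1 : ∀ C, ((pot true ∪ pot false).filter fun l => cls l.1 = C).card ≤ R
  h2 : ∀ w, ((pot true ∪ pot false).filter fun l => G.On l w).card ≤ R
  h3 : ∀ l, ((G.pts l).filter (Dead G cls pot)).card ≤ R
  arc : ∃ K n, IsArc G R K n ∧ ∀ w ∈ K, ∀ l ∈ pot true ∪ pot false, ¬G.On l w

/-- Every set of at most `q` lines covering the points outside the deleted lines `ch` contains all
undeleted lines through some point or point at infinity. -/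
def Stable (G : Pl P D X) (ch : D × X → Prop) : Prop :=
  ∀ L : Finset (D × X), L.card ≤ Fintype.card X →
    (∀ w, (∀ l, ch l → ¬G.On l w) → ∃ l ∈ L, G.On l w) →
    ∃ x : P ⊕ D, ∀ l, G.Inc l x → ¬ch l → l ∈ L

end

/-- the deleted lines: those through a location of the class of their direction -/
def ChL {P X 𝒞 I J : Type} [Fintype P] [Fintype X] [Fintype 𝒞] [Fintype I]
    (G : Pl P (𝒞 × I) X) (loc : 𝒞 → J → P) (l : (𝒞 × I) × X) : Prop :=
  ∃ p, G.On l (loc l.1.1 p)

/-- For each class `C` the locations `loc C p` form a subplane of order 8 with directions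
`(C, i)`; different subplanes avoid each other. -/
structure SurgOK {P X 𝒞 I J : Type} [Fintype P] [Fintype X] [Fintype 𝒞] [Fintype I] [Fintype J]
    (G : Pl P (𝒞 × I) X) (loc : 𝒞 → J → P) : Prop where
  cardI : Fintype.card I = 9
  cardJ : Fintype.card J = 64
  two : 2 ≤ Fintype.card 𝒞
  inj : ∀ C, Function.Injective (loc C)
  sub : ∀ C p p', ∃ i, G.π (C, i) (loc C p) = G.π (C, i) (loc C p')
  few : ∀ C i, (univ.image fun p => G.π (C, i) (loc C p)).card ≤ 8
  avoid : ∀ C C' i p p', C ≠ C' → G.π (C, i) (loc C' p') ≠ G.π (C, i) (loc C p)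
  rich : ∀ (x : P) (s : (𝒞 × I) × X), ¬G.On s x → (univ.filter fun C => ∃ p i,
    G.On s (loc C p) ∧ G.π (C, i) (loc C p) = G.π (C, i) x).card ≤ 8

/-- An intersecting family of transversals with covering number the number of parts. -/
def Ctr {D Y : Type} [Fintype D] (E : Set (D → Y)) : Prop :=
  E.Nonempty ∧ (∀ e ∈ E, ∀ f ∈ E, ∃ d, e d = f d) ∧
    ∀ T : Finset (D × Y), (∀ e ∈ E, ∃ d, (d, e d) ∈ T) → Fintype.card D ≤ T.card

/-! ## The plane `F[ω]` -/

/-- `re + im * ω` with `ω ^ 2 = -1 - ω` -/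
abbrev Pt (F : Type) [Field F] : Type := QuadraticAlgebra F (-1) (-1)

noncomputable instance (F : Type) [Field F] [Fintype F] : Fintype (Pt F) :=
  Fintype.ofEquiv (F × F) (QuadraticAlgebra.equivProd (-1) (-1)).symm

def det {F : Type} [Field F] (v w : Pt F) : F := v.re * w.im - v.im * w.re
def nm {F : Type} [Field F] (w : Pt F) : F := w.re ^ 2 - w.re * w.im + w.im ^ 2

/-- the unit circle, as a group -/
abbrev Un (F : Type) [Field F] : Type := unitary (Pt F)

noncomputable instance (F : Type) [Field F] [Fintype F] : Fintype (Un F) := Fintype.ofFinite _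

/-- An absolute trace in odd degree over `ZMod 2`. -/
structure IsTr {F : Type} [Field F] (tr : F →+ ZMod 2) : Prop where
  sq : ∀ x, tr (x ^ 2) = tr x
  one : tr 1 = 1

/-- the map induced on planes -/
def mapPt {K F : Type} [Field K] [Field F] (ι : K →+* F) (w : Pt K) : Pt F := ⟨ι w.re, ι w.im⟩

/-- ratios of rotations which occur in a collinear triple of points of three rotated copies of the
subplane `t + K[ω]` lying on three concurrent lines of these copies -/
noncomputable def Phi3 {K F : Type} [Field K] [Field F] [Fintype F] (ι : K →+* F) (t : Pt F) :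
    Finset (Un F) :=
  univ.filter fun ρ₂ => ∃ (ρ₃ : Un F) (θ₁ θ₂ θ₃ : Un K) (p₁ p₂ p₃ : Pt K) (x g : Pt F) (c : F),
    ρ₂ ≠ 1 ∧ ρ₃ ≠ 1 ∧ ρ₂ ≠ ρ₃ ∧ ρ₂.1 * mapPt ι θ₂.1 ≠ mapPt ι θ₁.1 ∧ g ≠ 0 ∧
    det g (t + mapPt ι p₁) = c ∧ det g (ρ₂.1 * (t + mapPt ι p₂)) = c ∧
    det g (ρ₃.1 * (t + mapPt ι p₃)) = c ∧
    det (mapPt ι θ₁.1) x = det (mapPt ι θ₁.1) (t + mapPt ι p₁) ∧
    det (ρ₂.1 * mapPt ι θ₂.1) x = det (mapPt ι θ₂.1) (t + mapPt ι p₂) ∧
    det (ρ₃.1 * mapPt ι θ₃.1) x = det (mapPt ι θ₃.1) (t + mapPt ι p₃)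

/-- scales `a` for which a rotated copy of `a (t + K[ω])` has a point on the line `im = c` lying on
a line of the copy through `x` -/
noncomputable def Lam {K F : Type} [Field K] [Field F] [Fintype F] (ι : K →+* F) (t x : Pt F)
    (c : F) : Finset F :=
  univ.filter fun a => ∃ (u : Un F) (θ : Un K) (p : Pt K),
    (a • (u.1 * (t + mapPt ι p))).im = c ∧
    det (u.1 * mapPt ι θ.1) x = a * det (mapPt ι θ.1) (t + mapPt ι p)

end Vale.Agent.P045
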