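import Vale.Agent.P045.Geo

/-! Few lines either almost form a pencil or leave many points uncovered.

Let `q = card X`, `s = sqrt q`, `m = L.card`, `f w` the number of lines of `L` through `w`,
`E = ∑ w, (f w - 1)` (truncated), `d` the maximal number of lines of `L` through an extended point.
Uncovered `u` satisfies `u + m q = q ^ 2 + E`.  (a) `(m - d) (d - 1) ≤ E`: every line outside a
maximal pencil meets at least `d - 1` lines of it, in different points.  (b) `m (m - d) ≤ d E`, by
counting ordered pairs of nonparallel lines, `∑ f (f - 1) ≤ d E`.  If `d + 3 s < q` and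
`8 (q - m) < s` then `m - d > 2 s`; use (b) for `d ≤ s` and (a) otherwise. -/

namespace Vale.Agent.P045

open Finset
open scoped Classical

section

variable {P D X : Type} [Fintype P] [Fintype D] [Fintype X] (G : Pl P D X)

theorem bruen_dc (L : Finset (D × X)) (g : P → ℕ) :
    ∑ w, (L.filter fun l => G.On l w).card * g w = ∑ l ∈ L, ∑ w ∈ G.pts l, g w := by
  simp only [card_filter, sum_mul, Pl.pts, sum_filter]
  rw [sum_comm]
  refine sum_congr rfl fun l _ => sum_congr rfl fun w _ => ?_
  split_ifs <;> simp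

theorem bruen_meet (l : D × X) (A : Finset (D × X)) (hA : ∀ l' ∈ A, l'.1 ≠ l.1) :
    A.card ≤ ∑ w ∈ G.pts l, (A.filter fun l' => G.On l' w).card := by
  have h := bruen_dc G A fun w => if G.On l w then 1 else 0
  simp only [mul_ite, mul_one, mul_zero] at h
  rw [Pl.pts, sum_filter, h, card_eq_sum_ones]
  refine sum_le_sum fun l' hl' => ?_
  obtain ⟨w, h1, h2⟩ := G.exists_meet (hA l' hl')
  refine le_trans ?_ (single_le_sum (f := fun w => if G.On l w then 1 else 0)
    (fun _ _ => Nat.zero_le _) ((G.mem_pts _ _).2 h1))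
  simp [h2]

theorem bruen_u (hX : 0 < Fintype.card X) (L : Finset (D × X)) :
    (univ.filter fun w => ∀ l ∈ L, ¬G.On l w).card + L.card * Fintype.card X =
      Fintype.card X ^ 2 + ∑ w, ((L.filter fun l => G.On l w).card - 1) := by
  have h := bruen_dc G L fun _ => 1
  simp only [mul_one, sum_const, Pl.card_pts, smul_eq_mul] at h
  rw [← h, ← G.card_P hX, ← card_univ, card_eq_sum_ones univ, card_filter, ← sum_add_distrib,
    ← sum_add_distrib]
  refine sum_congr rfl fun w _ => ?_
  split_ifs with hw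
  · rw [filter_eq_empty_iff.2 hw]
    simp
  · push Not at hw
    obtain ⟨l, hl, hlw⟩ := hw
    have : 0 < (L.filter fun l => G.On l w).card := card_pos.2 ⟨l, mem_filter.2 ⟨hl, hlw⟩⟩
    omega

theorem bruen_lt {L A : Finset (D × X)} {l : D × X} {w : P} (hA : A ⊆ L) (hl : l ∈ L) (hlA : l ∉ A)
    (hw : G.On l w) :
    (A.filter fun l' => G.On l' w).card ≤ (L.filter fun l' => G.On l' w).card - 1 := by
  have : (A.filter fun l' => G.On l' w).card < (L.filter fun l' => G.On l' w).card :=
    card_lt_card ⟨filter_subset_filter _ hA, fun h =>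
      hlA (mem_filter.1 (h (mem_filter.2 ⟨hl, hw⟩))).1⟩
  omega

theorem bruen_b (L : Finset (D × X)) {d : ℕ}
    (hd : ∀ x : P ⊕ D, (L.filter fun l => G.Inc l x).card ≤ d) :
    L.card * (L.card - d) ≤ d * ∑ w, ((L.filter fun l => G.On l w).card - 1) := by
  rw [mul_sum]
  refine le_trans ?_ (sum_le_sum fun w _ => Nat.mul_le_mul_right _ (hd (Sum.inl w)))
  refine le_trans ?_ (bruen_dc G L _).ge
  rw [← smul_eq_mul, ← sum_const]
  refine sum_le_sum fun l hl => ?_
  have h1 := bruen_meet G l (L.filter fun l' => ¬l'.1 = l.1) fun l' h => (mem_filter.1 h).2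
  have h2 := card_filter_add_card_filter_not (s := L) fun l' => l'.1 = l.1
  have h3 : (L.filter fun l' => l'.1 = l.1).card ≤ d := by
    refine le_trans (card_le_card fun l' h => ?_) (hd (Sum.inr l.1))
    exact mem_filter.2 (mem_filter.1 h)
  refine le_trans (by omega) (h1.trans (sum_le_sum fun w hw => ?_))
  exact bruen_lt G (filter_subset _ _) hl (by simp) ((G.mem_pts _ _).1 hw)

theorem bruen_a (L : Finset (D × X)) (x : P ⊕ D) :
    (L.card - (L.filter fun l => G.Inc l x).card) * ((L.filter fun l => G.Inc l x).card - 1) ≤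
      ∑ w, ((L.filter fun l => G.On l w).card - 1) := by
  have h0 : L.card - (L.filter fun l => G.Inc l x).card = (L.filter fun l => ¬G.Inc l x).card :=
    Nat.sub_eq_of_eq_add (by
      rw [add_comm]; exact (card_filter_add_card_filter_not (s := L) fun l => G.Inc l x).symm)
  set Pe := L.filter fun l => G.Inc l x with hPe
  have h := bruen_dc G (L.filter fun l => ¬G.Inc l x) fun w => if ∃ l ∈ Pe, G.On l w then 1 else 0
  refine le_trans ?_ (h.ge.trans (sum_le_sum fun w _ => ?_))
  · rw [h0, ← smul_eq_mul, ← sum_const]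
    refine sum_le_sum fun l hl => ?_
    have hl' := (mem_filter.1 hl).2
    have h1 := bruen_meet G l (Pe.filter fun l' => ¬l'.1 = l.1) fun l' h => (mem_filter.1 h).2
    have h2 := card_filter_add_card_filter_not (s := Pe) fun l' => l'.1 = l.1
    have h3 : (Pe.filter fun l' => l'.1 = l.1).card ≤ 1 := by
      refine card_le_one.2 fun a ha b hb => ?_
      simp only [hPe, mem_filter] at ha hb
      cases x with
      | inl v => exact G.eq_of_dir (ha.2.trans hb.2.symm) ha.1.2 hb.1.2
      | inr d => exact absurd (ha.2.symm.trans ha.1.2) hl'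
    refine le_trans (by omega) (h1.trans (sum_le_sum fun w hw => ?_))
    split_ifs with hex
    · refine card_le_one.2 fun a ha b hb => ?_
      simp only [hPe, mem_filter] at ha hb
      by_contra hab
      have := G.eq_of_inc hab ha.1.1.2 hb.1.1.2 ha.2 hb.2
      rw [this] at hl'
      exact hl' ((G.mem_pts _ _).1 hw)
    · rw [Nat.le_zero, card_eq_zero, filter_eq_empty_iff]
      exact fun a ha hw => hex ⟨a, (mem_filter.1 ha).1, hw⟩
  · split_ifs with hex
    · obtain ⟨l, hl, hw⟩ := hex
      rw [mul_one]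
      exact bruen_lt G (filter_subset _ _) (mem_filter.1 hl).1
        (fun h => (mem_filter.1 h).2 (mem_filter.1 hl).2) hw
    · simp

end

theorem bruen_num {q s m d u E : ℕ} (hq : 16 ≤ q) (hs : s * s ≤ q) (hs4 : 4 ≤ s) (hm : m ≤ q)
    (hd : d ≤ m) (h : d + 3 * s < q) (h1 : u + m * q = q ^ 2 + E) (h2 : (m - d) * (d - 1) ≤ E)
    (h3 : m * (m - d) ≤ d * E) : q * s ≤ 8 * u := by
  obtain ⟨k, rfl⟩ := Nat.exists_eq_add_of_le hm
  obtain ⟨a, rfl⟩ := Nat.exists_eq_add_of_le hd
  rw [Nat.add_sub_cancel_left] at h2 h3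
  have hu : u = k * (d + a + k) + E := by nlinarith
  have h4 : 4 * s ≤ d + a + k := (Nat.mul_le_mul_right s hs4).trans hs
  by_cases hk : s ≤ 8 * k
  · have := Nat.mul_le_mul_left (d + a + k) hk
    nlinarith
  have h5 : (d + a + k) * s ≤ 8 * E := by
    by_cases hds : d ≤ s
    · have e1 : d + a + k ≤ 2 * a := by omega
      have e2 : d + a + k ≤ 2 * (d + a) := by omega
      have e3 := Nat.mul_le_mul e1 e2
      have e4 := Nat.mul_le_mul_right E hds
      have e5 := Nat.mul_le_mul_left (d + a + k) hs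
      refine Nat.le_of_mul_le_mul_left ?_ (show 0 < s by omega)
      nlinarith
    · obtain ⟨b, rfl⟩ : ∃ b, d = b + 1 := ⟨d - 1, by omega⟩
      rw [Nat.add_sub_cancel] at h2
      have e1 : s ≤ a := by omega
      have e2 : s ≤ b := by omega
      have e3 := Nat.mul_le_mul_left b e1
      have e4 := Nat.mul_le_mul_left a e2
      have e5 : b + 1 + a + k ≤ 4 * (a + b) := by omega
      have e6 := Nat.mul_le_mul_right s e5
      nlinarith
  nlinarith [Nat.zero_le (k * (d + a + k))]

theorem bruen {P D X : Type} [Fintype P] [Fintype D] [Fintype X] (G : Pl P D X)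
    (hq : 16 ≤ Fintype.card X) (L : Finset (D × X)) (hL : L.card ≤ Fintype.card X) :
    (∃ x : P ⊕ D, Fintype.card X ≤
        (L.filter fun l => G.Inc l x).card + 3 * Nat.sqrt (Fintype.card X)) ∨
      Fintype.card X * Nat.sqrt (Fintype.card X) ≤
        8 * (univ.filter fun w => ∀ l ∈ L, ¬G.On l w).card := by
  have hD : Nonempty (P ⊕ D) := by
    have : 0 < Fintype.card D := by have := G.cardD; omega
    obtain ⟨d⟩ := Fintype.card_pos_iff.1 this
    exact ⟨Sum.inr d⟩
  obtain ⟨x, -, hx⟩ := exists_max_image (univ : Finset (P ⊕ D))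
    (fun x => (L.filter fun l => G.Inc l x).card) univ_nonempty
  have h1 := bruen_u G (by omega) L
  have h2 := bruen_a G L x
  have h3 := bruen_b G L fun y => hx y (mem_univ _)
  have h4 : (L.filter fun l => G.Inc l x).card ≤ L.card := card_filter_le _ _
  by_cases h : Fintype.card X ≤ (L.filter fun l => G.Inc l x).card + 3 * Nat.sqrt (Fintype.card X)
  · exact Or.inl ⟨x, h⟩
  · exact Or.inr (bruen_num hq (Nat.sqrt_le _) (Nat.le_sqrt.2 hq) hL h4 (not_le.1 h) h1 h2 h3)

end Vale.Agent.P045
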