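import Vale.Agent.P045.CandA

/-! The number of covers of an arc: the set is contained in the image of a product of three sets
counted by `card_small`; use `card_P`, `card_lines`. -/

namespace Vale.Agent.P045

open Finset
open scoped Classical

theorem cand {P D X : Type} [Fintype P] [Fintype D] [Fintype X] (G : Pl P D X) {R n : ℕ}
    {K : Finset P} (hK : IsArc G R K n) (z : ℕ) (hR : 0 < R)
    (hz : 0 < z) (hq : 64 * z * R ^ 3 ≤ Fintype.card X)
    (hz2 : 2 * (Fintype.card X : ℝ) ^ 2 * (1 - 1 / (4 * R : ℕ)) ^ z < 1) :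
    (univ.filter fun L : Finset (D × X) => L.card ≤ Fintype.card X ∧
      ∀ w ∈ K, ∃ l ∈ L, G.On l w).card ≤ (4 * Fintype.card X ^ 2) ^ (38 * R ^ 2 * z) := by
  have hq0 : 0 < Fintype.card X := lt_of_lt_of_le (by positivity) hq
  have h1 : Fintype.card (D × X) + 1 ≤ 4 * Fintype.card X ^ 2 := by
    rw [G.card_lines]
    nlinarith
  have h2 : Fintype.card P + 1 ≤ 4 * Fintype.card X ^ 2 := by
    rw [G.card_P hq0]
    nlinarith
  have hsub : (univ.filter fun L : Finset (D × X) => L.card ≤ Fintype.card X ∧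
      ∀ w ∈ K, ∃ l ∈ L, G.On l w) ⊆
      ((univ.filter fun S : Finset (D × X) => S.card ≤ z) ×ˢ
        (univ.filter fun Hv : Finset P => Hv.card ≤ 32 * z * R ^ 2) ×ˢ
        (univ.filter fun Ex : Finset (D × X) => Ex.card ≤ 5 * R)).image
        fun t => dec2 G K n (dec1 G K t.1 t.2.1) ∪ t.2.2 := by
    intro L hL
    obtain ⟨hL1, hL2⟩ := (mem_filter.1 hL).2
    obtain ⟨S, Hv, Ex, a, b, c, e⟩ := candA G hK z hR hz hq hz2 L hL1 hL2
    refine mem_image.2 ⟨(S, Hv, Ex), ?_, e.symm⟩
    simp only [mem_product, mem_filter, mem_univ, true_and]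
    exact ⟨a, b, c⟩
  refine (card_le_card hsub).trans (card_image_le.trans ?_)
  rw [card_product, card_product]
  have a := (card_small (α := D × X) z).trans (Nat.pow_le_pow_left h1 _)
  have b := (card_small (α := P) (32 * z * R ^ 2)).trans (Nat.pow_le_pow_left h2 _)
  have c := (card_small (α := D × X) (5 * R)).trans (Nat.pow_le_pow_left h1 _)
  refine (Nat.mul_le_mul a (Nat.mul_le_mul b c)).trans ?_
  rw [← pow_add, ← pow_add]
  refine Nat.pow_le_pow_right (by positivity) ?_
  have h3 : z ≤ R ^ 2 * z := Nat.le_mul_of_pos_left _ (by positivity)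
  have h4 : R ≤ R ^ 2 * z := (Nat.le_self_pow two_ne_zero R).trans (Nat.le_mul_of_pos_right _ hz)
  nlinarith

end Vale.Agent.P045
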