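import Mathlib

/-! Independent events.  `lemP`: greedily pick `W ⊆ U` with pairwise disjoint `Dp w` and
`U.card ≤ W.card * (R * ρ + 1)` (so `g ≤ W.card`); then induct on `W`: for `A` the set for `W` and
`w` new, the map overriding `b` by `good w` on `Dp w` sends `A` to `{b ∈ A | b = good w on Dp w}`
with fibres of size at most `2 ^ R`.
`hit`: induct on `z`, by averaging some `a ∈ A` is related to a fraction `1 / M` of the unhit `b`.
`card_small`: the number of subsets of size at most `h`. -/

namespace Vale.Agent.P045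

open Finset
open scoped Classical

theorem prob_greedy {α 𝒞 : Type} (Dp : α → Finset 𝒞) (R ρ : ℕ) (U : Finset α) :
    (∀ w ∈ U, (Dp w).card ≤ R) → (∀ C, (U.filter fun w => C ∈ Dp w).card ≤ ρ) →
    ∃ W ⊆ U, (∀ w ∈ W, ∀ w' ∈ W, w ≠ w' → Disjoint (Dp w) (Dp w')) ∧
      U.card ≤ W.card * (R * ρ + 1) := by
  induction U using Finset.strongInduction with
  | H U ih =>
    intro hR hρ
    rcases U.eq_empty_or_nonempty with rfl | ⟨w, hw⟩
    · exact ⟨∅, Subset.refl _, by simp, by simp⟩
    have hsub : (U.filter fun w' => w' ≠ w ∧ Disjoint (Dp w) (Dp w')) ⊂ U :=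
      filter_ssubset.2 ⟨w, hw, by simp⟩
    obtain ⟨W, hWU, hWd, hWc⟩ := ih _ hsub (fun w' hw' => hR w' (hsub.1 hw'))
      (fun C => (card_le_card (filter_subset_filter _ hsub.1)).trans (hρ C))
    have hwW : w ∉ W := fun h => (mem_filter.1 (hWU h)).2.1 rfl
    refine ⟨insert w W, insert_subset hw (hWU.trans hsub.1), ?_, ?_⟩
    · intro a ha b hb hab
      rcases mem_insert.1 ha with rfl | ha' <;> rcases mem_insert.1 hb with rfl | hb'
      · exact absurd rfl hab
      · exact (mem_filter.1 (hWU hb')).2.2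
      · exact (mem_filter.1 (hWU ha')).2.2.symm
      · exact hWd a ha' b hb' hab
    · have h1 : U ⊆ (U.filter fun w' => w' ≠ w ∧ Disjoint (Dp w) (Dp w')) ∪
          insert w ((Dp w).biUnion fun C => U.filter fun w' => C ∈ Dp w') := by
        intro x hx
        simp only [mem_union, mem_filter, mem_insert, mem_biUnion]
        by_cases h1 : x = w
        · exact Or.inr (Or.inl h1)
        by_cases h2 : Disjoint (Dp w) (Dp x)
        · exact Or.inl ⟨hx, h1, h2⟩
        · obtain ⟨C, hC, hC'⟩ := not_disjoint_iff.1 h2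
          exact Or.inr (Or.inr ⟨C, hC, hx, hC'⟩)
      have h2 : ((Dp w).biUnion fun C => U.filter fun w' => C ∈ Dp w').card ≤ R * ρ :=
        (card_biUnion_le_card_mul _ _ _ fun C _ => hρ C).trans
          (Nat.mul_le_mul_right _ (hR w hw))
      have h3 := (card_le_card h1).trans (card_union_le _ _)
      have h4 := card_insert_le w ((Dp w).biUnion fun C => U.filter fun w' => C ∈ Dp w')
      rw [card_insert_of_notMem hwW, add_mul, one_mul]
      omega

theorem prob_indep {α 𝒞 : Type} [Fintype 𝒞] (Dp : α → Finset 𝒞) (good : α → 𝒞 → Bool) (R : ℕ)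
    (W : Finset α) : (∀ w ∈ W, (Dp w).card ≤ R) →
    (∀ w ∈ W, ∀ w' ∈ W, w ≠ w' → Disjoint (Dp w) (Dp w')) →
    ((univ.filter fun b : 𝒞 → Bool => ∀ w ∈ W, ∃ C ∈ Dp w, b C ≠ good w C).card : ℝ) ≤
      2 ^ Fintype.card 𝒞 * (1 - 1 / 2 ^ R) ^ W.card := by
  induction W using Finset.induction_on with
  | empty => intro _ _; simp
  | insert w W hw ih =>
    intro hR hd
    have ih' := ih (fun x hx => hR x (mem_insert_of_mem hx))
      (fun x hx y hy => hd x (mem_insert_of_mem hx) y (mem_insert_of_mem hy))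
    set A := univ.filter fun b : 𝒞 → Bool => ∀ w ∈ W, ∃ C ∈ Dp w, b C ≠ good w C with hA
    have h1 : (univ.filter fun b : 𝒞 → Bool => ∀ x ∈ insert w W, ∃ C ∈ Dp x, b C ≠ good x C) =
        A.filter fun b => ¬∀ C ∈ Dp w, b C = good w C := by
      ext b
      simp only [hA, mem_filter, mem_univ, true_and, forall_mem_insert, not_forall]
      constructor
      · rintro ⟨⟨C, hC, hb⟩, h2⟩; exact ⟨h2, C, hC, hb⟩
      · rintro ⟨h2, C, hC, hb⟩; exact ⟨⟨C, hC, hb⟩, h2⟩
    have h2 : A.card ≤ 2 ^ R * (A.filter fun b => ∀ C ∈ Dp w, b C = good w C).card := by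
      refine card_le_mul_card_image_of_maps_to
        (f := fun b C => if C ∈ Dp w then good w C else b C) (fun b hb => ?_) _ fun c _ => ?_
      · simp only [hA, mem_filter, mem_univ, true_and] at hb ⊢
        refine ⟨fun x hx => ?_, fun C hC => if_pos hC⟩
        obtain ⟨C, hC, hb'⟩ := hb x hx
        have hne : x ≠ w := fun e => hw (e ▸ hx)
        have : C ∉ Dp w := disjoint_left.1
          (hd x (mem_insert_of_mem hx) w (mem_insert_self _ _) hne) hC
        exact ⟨C, hC, by rwa [if_neg this]⟩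
      · refine le_trans ?_ (Nat.pow_le_pow_right (by norm_num) (hR w (mem_insert_self _ _)))
        rw [← card_powerset]
        refine card_le_card_of_injOn (fun b => (Dp w).filter fun C => b C = true)
          (fun b _ => mem_coe.2 (mem_powerset.2 (filter_subset _ _))) fun b hb b' hb' e => ?_
        have e1 := (mem_filter.1 (mem_coe.1 hb)).2
        have e2 := (mem_filter.1 (mem_coe.1 hb')).2
        funext C
        by_cases hC : C ∈ Dp w
        · have := Finset.ext_iff.1 e C
          simp only [mem_filter, hC, true_and] at this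
          exact Bool.eq_iff_iff.2 this
        · have := congrFun (e1.trans e2.symm) C
          simpa only [if_neg hC] using this
    have h3 := card_filter_add_card_filter_not (s := A) fun b => ∀ C ∈ Dp w, b C = good w C
    rw [h1, card_insert_of_notMem hw, pow_succ, ← mul_assoc]
    have h4 : (0 : ℝ) < 2 ^ R := by positivity
    have h5 : (0 : ℝ) ≤ 1 - 1 / 2 ^ R := by
      rw [sub_nonneg, div_le_one h4]
      exact one_le_pow₀ (by norm_num)
    refine le_trans ?_ (mul_le_mul_of_nonneg_right ih' h5)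
    have h2' : (A.card : ℝ) ≤ 2 ^ R * (A.filter fun b => ∀ C ∈ Dp w, b C = good w C).card := by
      exact_mod_cast h2
    have h3' : ((A.filter fun b => ∀ C ∈ Dp w, b C = good w C).card : ℝ) +
        (A.filter fun b => ¬∀ C ∈ Dp w, b C = good w C).card = A.card := by exact_mod_cast h3
    have h6 : (A.card : ℝ) * (1 / 2 ^ R) ≤
        (A.filter fun b => ∀ C ∈ Dp w, b C = good w C).card := by
      rw [mul_one_div, div_le_iff₀ h4, mul_comm]
      exact h2'
    linarith

theorem lemP {α 𝒞 : Type} [Fintype 𝒞] (U : Finset α) (Dp : α → Finset 𝒞) (good : α → 𝒞 → Bool)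
    (R ρ g : ℕ) (hR : ∀ w ∈ U, (Dp w).card ≤ R)
    (hρ : ∀ C, (U.filter fun w => C ∈ Dp w).card ≤ ρ) (hg : g * (R * ρ + 1) ≤ U.card) :
    ((univ.filter fun b : 𝒞 → Bool => ∀ w ∈ U, ∃ C ∈ Dp w, b C ≠ good w C).card : ℝ) ≤
      2 ^ Fintype.card 𝒞 * (1 - 1 / 2 ^ R) ^ g := by
  obtain ⟨W, hWU, hWd, hWc⟩ := prob_greedy Dp R ρ U hR hρ
  have hgW : g ≤ W.card := Nat.le_of_mul_le_mul_right (hg.trans hWc) (Nat.succ_pos _)
  have h1 := prob_indep Dp good R W (fun w hw => hR w (hWU hw)) hWd
  have h4 : (0 : ℝ) < 2 ^ R := by positivity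
  have h5 : (0 : ℝ) ≤ 1 - 1 / 2 ^ R := by
    rw [sub_nonneg, div_le_one h4]
    exact one_le_pow₀ (by norm_num)
  have h6 : (1 - 1 / 2 ^ R : ℝ) ≤ 1 := by
    have : (0 : ℝ) ≤ 1 / 2 ^ R := by positivity
    linarith
  refine le_trans ?_ (h1.trans (mul_le_mul_of_nonneg_left (pow_le_pow_of_le_one h5 h6 hgW)
    (by positivity)))
  refine Nat.cast_le.2 (card_le_card fun b hb => ?_)
  simp only [mem_filter, mem_univ, true_and] at hb ⊢
  exact fun w hw => hb w (hWU hw)

theorem hit {α β : Type} (A : Finset α) (B : Finset β) (rel : α → β → Prop) (M : ℕ) (hM : 0 < M)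
    (h : ∀ b ∈ B, 0 < (A.filter fun a => rel a b).card ∧
      A.card ≤ M * (A.filter fun a => rel a b).card) (z : ℕ) :
    ∃ S ⊆ A, S.card ≤ z ∧
      ((B.filter fun b => ∀ a ∈ S, ¬rel a b).card : ℝ) ≤ B.card * (1 - 1 / M) ^ z := by
  induction z with
  | zero => exact ⟨∅, empty_subset _, by simp, by simp⟩
  | succ z ih =>
    obtain ⟨S, hSA, hSz, hS⟩ := ih
    have hM' : (0 : ℝ) < M := by exact_mod_cast hM
    have h5 : (0 : ℝ) ≤ 1 - 1 / M := by
      rw [sub_nonneg, div_le_one hM']
      exact_mod_cast hM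
    set B' := B.filter fun b => ∀ a ∈ S, ¬rel a b with hB'
    rcases B'.eq_empty_or_nonempty with h0 | ⟨b0, hb0⟩
    · refine ⟨S, hSA, by omega, ?_⟩
      rw [← hB', h0, card_empty, Nat.cast_zero]
      positivity
    have hA : A.Nonempty := by
      obtain ⟨a, ha⟩ := card_pos.1 (h b0 (mem_filter.1 hb0).1).1
      exact ⟨a, (mem_filter.1 ha).1⟩
    obtain ⟨a, ha, hle⟩ : ∃ a ∈ A, B'.card ≤ M * (B'.filter fun b => rel a b).card := by
      refine exists_le_of_sum_le hA ?_
      have e : ∑ a ∈ A, (B'.filter fun b => rel a b).card =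
          ∑ b ∈ B', (A.filter fun a => rel a b).card :=
        sum_card_bipartiteAbove_eq_sum_card_bipartiteBelow rel
      rw [← mul_sum, e, mul_sum, sum_const, smul_eq_mul, mul_comm, ← smul_eq_mul, ← sum_const]
      exact sum_le_sum fun b hb => (h b (mem_filter.1 hb).1).2
    refine ⟨insert a S, insert_subset ha hSA, (card_insert_le _ _).trans (by omega), ?_⟩
    have h1 : (B.filter fun b => ∀ x ∈ insert a S, ¬rel x b) = B'.filter fun b => ¬rel a b := by
      ext b
      simp only [hB', mem_filter, forall_mem_insert]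
      tauto
    have h3 := card_filter_add_card_filter_not (s := B') fun b => rel a b
    have h3' : ((B'.filter fun b => rel a b).card : ℝ) +
        (B'.filter fun b => ¬rel a b).card = B'.card := by exact_mod_cast h3
    have h6 : (B'.card : ℝ) * (1 / M) ≤ (B'.filter fun b => rel a b).card := by
      rw [mul_one_div, div_le_iff₀ hM', mul_comm]
      exact_mod_cast hle
    rw [h1, pow_succ, ← mul_assoc]
    refine le_trans ?_ (mul_le_mul_of_nonneg_right hS h5)
    linarith

theorem card_small {α : Type} [Fintype α] (h : ℕ) :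
    (univ.filter fun S : Finset α => S.card ≤ h).card ≤ (Fintype.card α + 1) ^ h := by
  have h1 : (Fintype.card α + 1) ^ h = (univ : Finset (Fin h → Option α)).card := by simp
  rw [h1]
  refine card_le_card_of_surjOn (fun f => univ.filter fun a => ∃ i, f i = some a) fun S hS => ?_
  have hS' : S.toList.length ≤ h := by simpa using hS
  refine ⟨fun i => S.toList[i.1]?, mem_coe.2 (mem_univ _), ?_⟩
  ext a
  simp only [mem_filter, mem_univ, true_and]
  rw [← mem_toList, List.mem_iff_getElem?]
  constructor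
  · rintro ⟨i, hi⟩; exact ⟨i.1, hi⟩
  · rintro ⟨n, hn⟩
    have : n < S.toList.length := (List.getElem?_eq_some_iff.1 hn).1
    exact ⟨⟨n, by omega⟩, hn⟩

end Vale.Agent.P045
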