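import Vale.Agent.P045.Geo
import Vale.Agent.P045.Prob

/-! A cover of an arc by at most `q` lines is determined by little data.
See `notes/P045.md`, section Candidates. -/

namespace Vale.Agent.P045

open Finset
open scoped Classical

variable {P D X : Type} [Fintype P] [Fintype D] [Fintype X]

/-- the secants which no other line of `S` meets in a point of `K` outside `Hv` -/
noncomputable def dec1 (G : Pl P D X) (K : Finset P) (S : Finset (D × X)) (Hv : Finset P) :
    Finset (D × X) :=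
  univ.filter fun g => (G.pts g ∩ K).card ≠ 0 ∧
    ∀ σ ∈ S, ¬(σ ≠ g ∧ ∃ w ∈ K, w ∉ Hv ∧ G.On σ w ∧ G.On g w)

/-- the secants with less than half of their points in `K` on other lines of `C` -/
noncomputable def dec2 (G : Pl P D X) (K : Finset P) (n : ℕ) (C : Finset (D × X)) :
    Finset (D × X) :=
  univ.filter fun g => (G.pts g ∩ K).card ≠ 0 ∧
    2 * ((G.pts g ∩ K).filter fun w => ∃ σ ∈ C, σ ≠ g ∧ G.On σ w).card < n

theorem dc_candA (G : Pl P D X) (L : Finset (D × X)) (T : Finset P) (h : P → ℕ) :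
    ∑ g ∈ L, ∑ w ∈ G.pts g ∩ T, h w = ∑ w ∈ T, (L.filter fun g => G.On g w).card * h w := by
  have e : ∀ g, ∑ w ∈ G.pts g ∩ T, h w = ∑ w ∈ T, if G.On g w then h w else 0 := by
    intro g
    rw [← sum_filter]
    refine sum_congr ?_ fun _ _ => rfl
    ext w
    simp [and_comm]
  simp only [e]
  rw [sum_comm]
  refine sum_congr rfl fun w _ => ?_
  rw [← sum_filter, sum_const, smul_eq_mul]

theorem cover_le_candA (G : Pl P D X) (g : D × X) (T : Finset P) (M : Finset (D × X))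
    (hM : ∀ w ∈ T, G.On g w ∧ ∃ σ ∈ M, σ ≠ g ∧ G.On σ w) : T.card ≤ M.card := by
  have h1 : T ⊆ (M.erase g).biUnion fun σ => G.pts σ ∩ G.pts g := by
    intro w hw
    obtain ⟨h1, σ, h2, h3, h4⟩ := hM w hw
    exact mem_biUnion.2 ⟨σ, mem_erase.2 ⟨h3, h2⟩, by simp [h1, h4]⟩
  refine (card_le_card h1).trans (card_biUnion_le.trans ?_)
  refine (sum_le_card_nsmul _ _ 1 fun σ hσ => G.card_inter_le (mem_erase.1 hσ).1).trans ?_
  rw [smul_eq_mul, mul_one]
  exact card_erase_le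

/-- Markov inequality -/
theorem markov_candA {α : Type} (A B : Finset α) (hB : B ⊆ A) (a : α → ℕ) (n c : ℕ)
    (h : ∀ x ∈ B, n ≤ c * a x) : B.card * n ≤ c * ∑ x ∈ A, a x := by
  calc B.card * n ≤ ∑ x ∈ B, c * a x := by
        rw [← smul_eq_mul]
        exact card_nsmul_le_sum _ _ _ h
    _ = c * ∑ x ∈ B, a x := by rw [mul_sum]
    _ ≤ _ := Nat.mul_le_mul_left _ (sum_le_sum_of_subset hB)

theorem hit_candA {α β : Type} (A : Finset α) (B : Finset β) (rel : α → β → Prop) (M : ℕ)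
    (hM : 0 < M) (h : ∀ b ∈ B, ∃ N ⊆ A, (∀ a ∈ N, rel a b) ∧ 0 < N.card ∧ A.card ≤ M * N.card)
    (z : ℕ) (hz : (B.card : ℝ) * (1 - 1 / M) ^ z < 1) :
    ∃ S ⊆ A, S.card ≤ z ∧ ∀ b ∈ B, ∃ a ∈ S, rel a b := by
  obtain ⟨S, h1, h2, h3⟩ := hit A B rel M hM (by
    intro b hb
    obtain ⟨N, h1, h2, h3, h4⟩ := h b hb
    have : N.card ≤ (A.filter fun a => rel a b).card :=
      card_le_card fun a ha => mem_filter.2 ⟨h1 ha, h2 a ha⟩
    exact ⟨by omega, h4.trans (Nat.mul_le_mul_left _ this)⟩) z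
  refine ⟨S, h1, h2, fun b hb => ?_⟩
  have h7 := Nat.cast_lt_one.1 (lt_of_le_of_lt h3 hz)
  rw [card_eq_zero, filter_eq_empty_iff] at h7
  simpa using h7 hb

theorem arc_card_candA (G : Pl P D X) {R n : ℕ} {K : Finset P} (hK : IsArc G R K n) :
    Fintype.card X * n ≤ K.card + R * n := by
  have hD : 0 < Fintype.card D := by have := G.cardD; omega
  obtain ⟨d⟩ := Fintype.card_pos_iff.1 hD
  have h1 : ∑ c : X, n ≤ ∑ c : X, ((G.pts (d, c) ∩ K).card +
      if (G.pts (d, c) ∩ K).card = 0 then n else 0) := by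
    refine sum_le_sum fun c _ => ?_
    rcases hK.reg (d, c) with h | h
    · simp [h]
    · omega
  rw [sum_add_distrib, ← G.card_eq_sum, ← sum_filter, sum_const, sum_const, smul_eq_mul,
    smul_eq_mul, card_univ] at h1
  exact h1.trans (Nat.add_le_add_left (Nat.mul_le_mul_right _ (hK.ext d)) _)

theorem candA (G : Pl P D X) {R n : ℕ} {K : Finset P} (hK : IsArc G R K n) (z : ℕ) (hR : 0 < R)
    (hz : 0 < z) (hq : 64 * z * R ^ 3 ≤ Fintype.card X)
    (hz2 : 2 * (Fintype.card X : ℝ) ^ 2 * (1 - 1 / (4 * R : ℕ)) ^ z < 1)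
    (L : Finset (D × X)) (hL : L.card ≤ Fintype.card X) (hc : ∀ w ∈ K, ∃ l ∈ L, G.On l w) :
    ∃ (S : Finset (D × X)) (Hv : Finset P) (Ex : Finset (D × X)), S.card ≤ z ∧
      Hv.card ≤ 32 * z * R ^ 2 ∧ Ex.card ≤ 5 * R ∧ L = dec2 G K n (dec1 G K S Hv) ∪ Ex := by
  set q := Fintype.card X with hqd
  have hbig : q ≤ R * n := hK.big
  have hn : 64 * z * R ^ 2 ≤ n := by
    refine Nat.le_of_mul_le_mul_left (c := R) ?_ hR
    calc R * (64 * z * R ^ 2) = 64 * z * R ^ 3 := by ring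
      _ ≤ _ := hq.trans hbig
  have hn0 : 0 < n := lt_of_lt_of_le (by positivity) hn
  set L0 := L.filter fun g => (G.pts g ∩ K).card ≠ 0 with hL0
  have hsec : ∀ g w, w ∈ K → G.On g w → (G.pts g ∩ K).card ≠ 0 := fun g w hw hg =>
    card_ne_zero_of_mem (mem_inter.2 ⟨(G.mem_pts _ _).2 hg, hw⟩)
  have hsn : ∀ g, (G.pts g ∩ K).card ≠ 0 → (G.pts g ∩ K).card = n := fun g hg =>
    (hK.reg g).resolve_left hg
  have hc0 : ∀ w ∈ K, ∃ l ∈ L0, G.On l w := by
    intro w hw
    obtain ⟨l, hl, h⟩ := hc w hw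
    exact ⟨l, mem_filter.2 ⟨hl, hsec l w hw h⟩, h⟩
  set e : P → ℕ := fun w => (L0.filter fun g => G.On g w).card - 1 with he
  have hf : ∀ w ∈ K, (L0.filter fun g => G.On g w).card = e w + 1 := by
    intro w hw
    obtain ⟨l, hl, h⟩ := hc0 w hw
    have : 0 < (L0.filter fun g => G.On g w).card := card_pos.2 ⟨l, mem_filter.2 ⟨hl, h⟩⟩
    simp only [he]
    omega
  have hL0L : L0 ⊆ L := filter_subset _ _
  have hL0q : L0.card ≤ q := (card_le_card hL0L).trans hL
  have hsum : ∑ w ∈ K, e w + K.card = L0.card * n := by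
    have h1 := dc_candA G L0 K fun _ => 1
    simp only [sum_const, smul_eq_mul, mul_one] at h1
    rw [sum_congr rfl fun g hg => hsn g (mem_filter.1 hg).2, sum_congr rfl hf, sum_add_distrib,
      sum_const, sum_const, smul_eq_mul, smul_eq_mul, mul_one] at h1
    exact h1.symm
  have hKc : q * n ≤ K.card + R * n := arc_card_candA G hK
  have hEx : ∑ w ∈ K, e w ≤ R * n := by
    have : L0.card * n ≤ q * n := Nat.mul_le_mul_right _ hL0q
    omega
  have hLL0 : (L \ L0).card ≤ R := by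
    rw [card_sdiff_of_subset hL0L]
    have : q * n ≤ (L0.card + R) * n := by
      rw [add_mul]
      omega
    have := Nat.le_of_mul_le_mul_right this hn0
    omega
  set Hv := K.filter fun w => n ≤ 32 * z * R * e w with hHv
  have hHvc : Hv.card ≤ 32 * z * R ^ 2 := by
    have h1 := markov_candA K Hv (filter_subset _ _) e n (32 * z * R)
      fun w hw => (mem_filter.1 hw).2
    refine Nat.le_of_mul_le_mul_right (h1.trans ?_) hn0
    calc 32 * z * R * ∑ w ∈ K, e w ≤ 32 * z * R * (R * n) := Nat.mul_le_mul_left _ hEx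
      _ = _ := by ring
  have hHv2 : 2 * Hv.card ≤ n := by
    have : 64 * z * R ^ 2 = 2 * (32 * z * R ^ 2) := by ring
    omega
  set a : D × X → ℕ := fun g => ∑ w ∈ G.pts g ∩ (K \ Hv), e w with ha
  have hsa : 16 * z * ∑ g ∈ L0, a g ≤ n * n := by
    refine Nat.le_of_mul_le_mul_left (c := R) ?_ hR
    simp only [ha]
    rw [dc_candA, ← mul_assoc, mul_sum]
    calc ∑ w ∈ K \ Hv, R * (16 * z) * ((L0.filter fun g => G.On g w).card * e w)
        ≤ ∑ w ∈ K \ Hv, n * e w := by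
          refine sum_le_sum fun w hw => ?_
          obtain ⟨h1, h2⟩ := mem_sdiff.1 hw
          have h3 : 32 * z * R * e w ≤ n := by
            by_contra h
            exact h2 (mem_filter.2 ⟨h1, by omega⟩)
          rw [hf w h1]
          have h4 : (e w + 1) * e w ≤ 2 * e w * e w := by
            rcases Nat.eq_zero_or_pos (e w) with h | h
            · simp [h]
            · exact Nat.mul_le_mul_right _ (by omega)
          calc R * (16 * z) * ((e w + 1) * e w) ≤ R * (16 * z) * (2 * e w * e w) :=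
                Nat.mul_le_mul_left _ h4
            _ = 32 * z * R * e w * e w := by ring
            _ ≤ _ := Nat.mul_le_mul_right _ h3
      _ ≤ ∑ w ∈ K, n * e w := sum_le_sum_of_subset sdiff_subset
      _ = n * ∑ w ∈ K, e w := by rw [mul_sum]
      _ ≤ n * (R * n) := Nat.mul_le_mul_left _ hEx
      _ = _ := by ring
  set High := L0.filter fun g => n < 4 * z * a g with hHigh
  have hHc : 4 * High.card ≤ n := by
    have h1 := markov_candA L0 High (filter_subset _ _) a n (4 * z)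
      fun g hg => (mem_filter.1 hg).2.le
    refine Nat.le_of_mul_le_mul_right ?_ hn0
    calc 4 * High.card * n = 4 * (High.card * n) := by ring
      _ ≤ 4 * (4 * z * ∑ g ∈ L0, a g) := Nat.mul_le_mul_left _ h1
      _ = 16 * z * ∑ g ∈ L0, a g := by ring
      _ ≤ _ := hsa
  set B : Finset (D × X) := univ.filter fun g => (G.pts g ∩ K).card ≠ 0 ∧ g ∉ L with hB
  obtain ⟨S, hSA, hSz, hSB⟩ := hit_candA (L0 \ High) B
    (fun σ g => σ ≠ g ∧ ∃ w ∈ K, w ∉ Hv ∧ G.On σ w ∧ G.On g w) (4 * R) (by omega) (by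
      intro g hg
      obtain ⟨-, h1, h2⟩ := mem_filter.1 hg
      set N := (L0 \ High).filter fun σ => σ ≠ g ∧ ∃ w ∈ K, w ∉ Hv ∧ G.On σ w ∧ G.On g w
        with hN
      have h3 : ((G.pts g ∩ K) \ Hv).card ≤ (N ∪ High).card := by
        refine cover_le_candA G g _ _ fun w hw => ?_
        obtain ⟨h4, h5⟩ := mem_sdiff.1 hw
        obtain ⟨h6, h7⟩ := mem_inter.1 h4
        rw [G.mem_pts] at h6
        obtain ⟨σ, h8, h9⟩ := hc0 w h7
        have hne : σ ≠ g := fun h => h2 (h ▸ hL0L h8)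
        refine ⟨h6, σ, ?_, hne, h9⟩
        by_cases hh : σ ∈ High
        · exact mem_union_right _ hh
        · exact mem_union_left _ (mem_filter.2 ⟨mem_sdiff.2 ⟨h8, hh⟩, hne, w, h7, h5, h9, h6⟩)
      have h4 := card_union_le N High
      have h5 := le_card_sdiff Hv (G.pts g ∩ K)
      rw [hsn g h1] at h5
      have h6 : n ≤ 4 * N.card := by omega
      refine ⟨N, filter_subset _ _, fun σ hσ => (mem_filter.1 hσ).2, by omega, ?_⟩
      calc (L0 \ High).card ≤ q := (card_le_card sdiff_subset).trans hL0q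
        _ ≤ R * n := hbig
        _ ≤ R * (4 * N.card) := Nat.mul_le_mul_left _ h6
        _ = _ := by ring) z (by
      have hBc : (B.card : ℝ) ≤ 2 * (q : ℝ) ^ 2 := by
        have h4 : B.card ≤ q ^ 2 + q := G.card_lines ▸ card_le_univ B
        have h5 : q ≤ q ^ 2 := Nat.le_self_pow (by norm_num) q
        have : B.card ≤ 2 * q ^ 2 := by omega
        exact_mod_cast this
      have h0 : (0 : ℝ) ≤ (1 - 1 / (4 * R : ℕ)) ^ z := by
        apply pow_nonneg
        have : (1 : ℝ) ≤ (4 * R : ℕ) := by exact_mod_cast (by omega : 1 ≤ 4 * R)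
        rw [sub_nonneg, div_le_one (by linarith)]
        exact this
      exact lt_of_le_of_lt (mul_le_mul_of_nonneg_right hBc h0) hz2)
  set C := dec1 G K S Hv with hC
  have hCL : C ⊆ L0 := by
    intro g hg
    obtain ⟨-, h1, h2⟩ := mem_filter.1 hg
    refine mem_filter.2 ⟨?_, h1⟩
    by_contra h3
    obtain ⟨σ, h4, h5⟩ := hSB g (mem_filter.2 ⟨mem_univ g, h1, h3⟩)
    exact h2 σ h4 h5
  have hLC : 4 * (L0 \ C).card ≤ n := by
    have h1 : L0 \ C ⊆ S.biUnion fun σ => (G.pts σ ∩ (K \ Hv)).biUnion fun w =>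
        (L0.filter fun g => G.On g w).erase σ := by
      intro g hg
      obtain ⟨h1, h2⟩ := mem_sdiff.1 hg
      have h3 : ¬∀ σ ∈ S, ¬(σ ≠ g ∧ ∃ w ∈ K, w ∉ Hv ∧ G.On σ w ∧ G.On g w) := fun h =>
        h2 (mem_filter.2 ⟨mem_univ _, (mem_filter.1 h1).2, h⟩)
      simp only [not_forall, not_not] at h3
      obtain ⟨σ, hσ, hne, w, hw, hw', h4, h5⟩ := h3
      exact mem_biUnion.2 ⟨σ, hσ, mem_biUnion.2 ⟨w,
        mem_inter.2 ⟨(G.mem_pts _ _).2 h4, mem_sdiff.2 ⟨hw, hw'⟩⟩,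
        mem_erase.2 ⟨hne.symm, mem_filter.2 ⟨h1, h5⟩⟩⟩⟩
    have h2 : (L0 \ C).card ≤ ∑ σ ∈ S, a σ := by
      refine (card_le_card h1).trans (card_biUnion_le.trans (sum_le_sum fun σ hσ => ?_))
      refine card_biUnion_le.trans (sum_le_sum fun w hw => le_of_eq ?_)
      rw [card_erase_of_mem (mem_filter.2 ⟨(mem_sdiff.1 (hSA hσ)).1,
        (G.mem_pts _ _).1 (mem_inter.1 hw).1⟩)]
    refine Nat.le_of_mul_le_mul_left (c := z) ?_ hz
    calc z * (4 * (L0 \ C).card) = 4 * z * (L0 \ C).card := by ring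
      _ ≤ 4 * z * ∑ σ ∈ S, a σ := Nat.mul_le_mul_left _ h2
      _ = ∑ σ ∈ S, 4 * z * a σ := by rw [mul_sum]
      _ ≤ S.card • n := by
          refine sum_le_card_nsmul _ _ _ fun σ hσ => ?_
          obtain ⟨h3, h4⟩ := mem_sdiff.1 (hSA hσ)
          by_contra h
          exact h4 (mem_filter.2 ⟨h3, by omega⟩)
      _ ≤ z * n := Nat.mul_le_mul_right _ hSz
  have hdL : dec2 G K n C ⊆ L := by
    intro g hg
    obtain ⟨-, h1, h2⟩ := mem_filter.1 hg
    by_contra h3
    have h4 := card_filter_add_card_filter_not (s := G.pts g ∩ K)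
      (fun w => ∃ σ ∈ C, σ ≠ g ∧ G.On σ w)
    have h5 : ((G.pts g ∩ K).filter fun w => ¬∃ σ ∈ C, σ ≠ g ∧ G.On σ w).card
        ≤ (L0 \ C).card := by
      refine cover_le_candA G g _ _ fun w hw => ?_
      obtain ⟨h5, h6⟩ := mem_filter.1 hw
      obtain ⟨h7, h8⟩ := mem_inter.1 h5
      obtain ⟨σ, h9, h10⟩ := hc0 w h8
      have hne : σ ≠ g := fun h => h3 (h ▸ hL0L h9)
      exact ⟨(G.mem_pts _ _).1 h7, σ, mem_sdiff.2 ⟨h9, fun h => h6 ⟨σ, h, hne, h10⟩⟩, hne, h10⟩
    rw [hsn g h1] at h4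
    omega
  have hLd : (L0 \ dec2 G K n C).card ≤ 4 * R := by
    have h1 := markov_candA L0 (L0 \ dec2 G K n C) sdiff_subset
      (fun g => ∑ w ∈ G.pts g ∩ K.filter fun w => 1 ≤ e w, 1) n 2 (by
        intro g hg
        obtain ⟨h1, h2⟩ := mem_sdiff.1 hg
        have h3 : n ≤ 2 * ((G.pts g ∩ K).filter fun w => ∃ σ ∈ C, σ ≠ g ∧ G.On σ w).card := by
          by_contra h
          exact h2 (mem_filter.2 ⟨mem_univ _, (mem_filter.1 h1).2, by omega⟩)
        refine h3.trans (Nat.mul_le_mul_left _ ?_)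
        rw [sum_const, smul_eq_mul, mul_one]
        refine card_le_card fun w hw => ?_
        obtain ⟨h4, σ, h5, h6, h7⟩ := mem_filter.1 hw
        obtain ⟨h8, h9⟩ := mem_inter.1 h4
        refine mem_inter.2 ⟨h8, mem_filter.2 ⟨h9, ?_⟩⟩
        have : 1 < (L0.filter fun g => G.On g w).card :=
          one_lt_card.2 ⟨σ, mem_filter.2 ⟨hCL h5, h7⟩, g,
            mem_filter.2 ⟨h1, (G.mem_pts _ _).1 h8⟩, h6⟩
        rw [hf w h9] at this
        omega)
    rw [dc_candA] at h1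
    have h2 : ∑ w ∈ K.filter fun w => 1 ≤ e w, (L0.filter fun g => G.On g w).card * 1
        ≤ 2 * ∑ w ∈ K, e w := by
      rw [mul_sum]
      refine le_trans (sum_le_sum fun w hw => ?_) (sum_le_sum_of_subset (filter_subset _ _))
      obtain ⟨h2, h3⟩ := mem_filter.1 hw
      rw [hf w h2]
      omega
    refine Nat.le_of_mul_le_mul_right ?_ hn0
    have : 4 * R * n = 4 * (R * n) := by ring
    omega
  refine ⟨S, Hv, L \ dec2 G K n C, hSz, hHvc, ?_, (union_sdiff_of_subset hdL).symm⟩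
  have h1 : L \ dec2 G K n C ⊆ (L \ L0) ∪ (L0 \ dec2 G K n C) := by
    intro g hg
    obtain ⟨h1, h2⟩ := mem_sdiff.1 hg
    by_cases h : g ∈ L0
    · exact mem_union_right _ (mem_sdiff.2 ⟨h, h2⟩)
    · exact mem_union_left _ (mem_sdiff.2 ⟨h1, h⟩)
  have := (card_le_card h1).trans (card_union_le _ _)
  omega

end Vale.Agent.P045
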