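import Vale.Agent.P045.Circ

/-! The data of the construction. -/

namespace Vale.Agent.P045

open Finset
open scoped Classical

variable {K F : Type} [Field K] [Field F] [Fintype F]

/-- classes of directions -/
abbrev Cl (ι : K →+* F) : Type := Un F ⧸ (mapUn ι).range

noncomputable instance (ι : K →+* F) : Fintype (Cl ι) := Fintype.ofFinite _

omit [Fintype F] in
theorem cl_out_mul (ι : K →+* F) (C : Cl ι) (θ : Un K) :
    (QuotientGroup.mk (C.out * mapUn ι θ) : Cl ι) = C := by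
  rw [QuotientGroup.mk_mul_of_mem _ (MonoidHom.mem_range.2 ⟨θ, rfl⟩), QuotientGroup.out_eq']

/-- the direction vectors -/
noncomputable def vec (ι : K →+* F) : Cl ι × Un K ≃ Un F :=
  Equiv.ofBijective (fun d => d.1.out * mapUn ι d.2) (by
    constructor
    · rintro ⟨C, θ⟩ ⟨C', θ'⟩ h
      have e : C = C' := by rw [← cl_out_mul ι C θ, ← cl_out_mul ι C' θ']; exact congrArg _ h
      subst e
      exact Prod.ext rfl (mapUn_inj ι (mul_left_cancel h))
    · intro u
      obtain ⟨⟨h, θ, rfl⟩, e⟩ := QuotientGroup.mk_out_eq_mul (mapUn ι).range u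
      refine ⟨(QuotientGroup.mk u, θ⁻¹), ?_⟩
      simp only [e, map_inv, mul_inv_cancel_right])

omit [Fintype F] in
theorem vec_val (ι : K →+* F) (C : Cl ι) (θ : Un K) :
    (vec ι (C, θ)).1 = C.out.1 * mapPt ι θ.1 := rfl

/-- ratios of rotations for which a point of one copy of the subplane is on a line of the other -/
noncomputable def Phi1 (ι : K →+* F) (t : Pt F) : Finset (Un F) :=
  univ.filter fun ρ => ∃ (θ : Un K) (p p' : Pt K),
    det (mapPt ι θ.1) (ρ.1 * (t + mapPt ι p')) = det (mapPt ι θ.1) (t + mapPt ι p)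

/-- translation, scales of the types and colouring of the classes -/
structure Cfg (tr : F →+ ZMod 2) (ι : K →+* F) (N : ℕ) where
  t : Pt F
  lam : Fin N × Bool → F
  χ : Cl ι → Fin N
  ht : ∀ (θ : Un K) (k : K), det (mapPt ι θ.1) t ≠ ι k
  lam0 : ∀ τ, lam τ ≠ 0
  tr0 : ∀ τ τ', τ ≠ τ' → ∀ (θ : Un K) (p p' : Pt K),
    tr (nm (t + mapPt ι p') / det (mapPt ι θ.1) (t + mapPt ι p) ^ 2 * (lam τ' / lam τ) ^ 2) = 0
  prop : ∀ C C' : Cl ι, C ≠ C' → χ C = χ C' → C.out⁻¹ * C'.out ∉ Phi1 ι t ∪ Phi3 ι t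
  few : ∀ (x : Pt F) (c : F), x.im ≠ c → (univ.filter fun τ => lam τ ∈ Lam ι t x c).card ≤ 3

variable {tr : F →+ ZMod 2} {ι : K →+* F} {N : ℕ}

/-- the locations of the class `C` when its bit is `β` -/
noncomputable def Cfg.loc (g : Cfg tr ι N) (β : Bool) (C : Cl ι) (p : Pt K) : Pt F :=
  g.lam (g.χ C, β) • (C.out.1 * (g.t + mapPt ι p))

theorem det_shift_ne {t : Pt F} (ht : ∀ (θ : Un K) (k : K), det (mapPt ι θ.1) t ≠ ι k)
    (θ : Un K) (p : Pt K) : det (mapPt ι θ.1) (t + mapPt ι p) ≠ 0 := fun h => by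
  rw [det_add, det_mapPt] at h
  exact ht θ (-det θ.1 p) (by rw [map_neg]; linear_combination h)

theorem shift_ne {t : Pt F} (ht : ∀ (θ : Un K) (k : K), det (mapPt ι θ.1) t ≠ ι k)
    (p : Pt K) : t + mapPt ι p ≠ 0 := fun h => det_shift_ne ht 1 p (by rw [h, det_zero])

variable [CharP F 2] [Fintype K]

/-- the lines which are deleted for the bit `β` -/
noncomputable def Cfg.pot (g : Cfg tr ι N) (htr : IsTr tr) (β : Bool) :
    Finset ((Cl ι × Un K) × F) :=
  univ.filter fun l => ∃ p, (plane htr (vec ι)).On l (g.loc β l.1.1 p)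

/-- the offset of a line of the class `C` through a location of `C` -/
theorem Cfg.π_loc (g : Cfg tr ι N) (htr : IsTr tr) (β : Bool) (C : Cl ι) (θ : Un K) (p : Pt K) :
    (plane htr (vec ι)).π (C, θ) (g.loc β C p) =
      g.lam (g.χ C, β) * det (mapPt ι θ.1) (g.t + mapPt ι p) := by
  rw [plane_π, vec_val, Cfg.loc, det_smul, det_un]

/-- locations are not on lines of another type -/
theorem Cfg.not_on (g : Cfg tr ι N) (htr : IsTr tr) (u : Un F) {τ : Fin N × Bool} {β : Bool}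
    {C : Cl ι} (h : τ ≠ (g.χ C, β)) (θ : Un K) (p p' : Pt K) :
    det u.1 (g.loc β C p') ≠ g.lam τ * det (mapPt ι θ.1) (g.t + mapPt ι p) := fun e => by
  have h1 := htr.tr_of_on u e (mul_ne_zero (g.lam0 _) (det_shift_ne g.ht θ p))
  have h2 := g.tr0 τ _ h θ p p'
  rw [Cfg.loc, nm_smul, nm_mul, nm_un, one_mul] at h1
  have h3 := g.lam0 τ
  have h4 := det_shift_ne g.ht θ p
  rw [show nm (g.t + mapPt ι p') / det (mapPt ι θ.1) (g.t + mapPt ι p) ^ 2 *
    (g.lam (g.χ C, β) / g.lam τ) ^ 2 = g.lam (g.χ C, β) ^ 2 * nm (g.t + mapPt ι p') /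
      (g.lam τ * det (mapPt ι θ.1) (g.t + mapPt ι p)) ^ 2 by field_simp, h1] at h2
  exact one_ne_zero h2

end Vale.Agent.P045
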