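import Vale.Agent.P045.Basic

/-! The plane `F[ω]`: determinant, norm, the unit circle. -/

namespace Vale.Agent.P045

open Finset
open scoped Classical

section
variable {F : Type} [Field F]

theorem Pt.ext' {v w : Pt F} (h1 : v.re = w.re) (h2 : v.im = w.im) : v = w :=
  QuadraticAlgebra.ext h1 h2

@[simp] theorem Pt.re_one : (1 : Pt F).re = 1 := rfl
@[simp] theorem Pt.im_one : (1 : Pt F).im = 0 := rfl

theorem det_add (v w w' : Pt F) : det v (w + w') = det v w + det v w' := by simp [det]; ring
theorem det_sub (v w w' : Pt F) : det v (w - w') = det v w - det v w' := by simp [det]; ring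
theorem det_smul (a : F) (v w : Pt F) : det v (a • w) = a * det v w := by simp [det]; ring
theorem smul_det (a : F) (v w : Pt F) : det (a • v) w = a * det v w := by simp [det]; ring
theorem add_det (v v' w : Pt F) : det (v + v') w = det v w + det v' w := by simp [det]; ring
theorem sub_det (v v' w : Pt F) : det (v - v') w = det v w - det v' w := by simp [det]; ring
theorem det_self (v : Pt F) : det v v = 0 := by simp [det]; ring
theorem det_comm (v w : Pt F) : det v w = -det w v := by simp [det]; ring
@[simp] theorem det_zero (v : Pt F) : det v 0 = 0 := by simp [det]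
@[simp] theorem zero_det (v : Pt F) : det 0 v = 0 := by simp [det]
theorem one_det (w : Pt F) : det 1 w = w.im := by simp [det]
theorem det_mul_mul (u v w : Pt F) : det (u * v) (u * w) = nm u * det v w := by
  simp [det, nm]; ring
theorem det_mul_right (u v w : Pt F) : det u (v * w) = det (u * star w) v := by
  simp [det]; ring
theorem lin_eq_det (a b : F) (t : Pt F) : a * t.re + b * t.im = det ⟨b, -a⟩ t := by
  simp [det]; ring
theorem nm_mul (v w : Pt F) : nm (v * w) = nm v * nm w := by simp [nm]; ring
theorem nm_smul (a : F) (w : Pt F) : nm (a • w) = a ^ 2 * nm w := by simp [nm]; ring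
theorem nm_star (w : Pt F) : nm (star w) = nm w := by simp [nm]; ring
theorem det_mul_self (ρ σ t : Pt F) : det (ρ * t) (σ * t) = nm t * det ρ σ := by
  rw [mul_comm ρ, mul_comm σ, det_mul_mul]

/-- the relation between three vectors of the plane -/
theorem det_three (a b c x : Pt F) :
    det b c * det a x + det c a * det b x + det a b * det c x = 0 := by simp [det]; ring

/-- two vectors killed by the same nonzero functional are parallel -/
theorem det_eq_zero_of {g v w : Pt F} (hg : g ≠ 0) (h1 : det g v = 0) (h2 : det g w = 0) :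
    det v w = 0 := by
  by_contra h
  apply hg
  simp only [det] at h h1 h2
  apply Pt.ext'
  · apply mul_left_cancel₀ h
    simp only [QuadraticAlgebra.re_zero, mul_zero]
    linear_combination v.re * h2 - w.re * h1
  · apply mul_left_cancel₀ h
    simp only [QuadraticAlgebra.im_zero, mul_zero]
    linear_combination v.im * h2 - w.im * h1

/-- a vector is determined by two independent functionals -/
theorem eq_of_det {u v w w' : Pt F} (h : det u v ≠ 0) (h1 : det u w = det u w')
    (h2 : det v w = det v w') : w = w' := by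
  by_contra e
  refine h (det_eq_zero_of (g := w - w') (sub_ne_zero.2 e) ?_ ?_)
  · rw [det_comm, det_sub, h1]; simp
  · rw [det_comm, det_sub, h2]; simp

theorem mem_Un {w : Pt F} : w ∈ unitary (Pt F) ↔ nm w = 1 := by
  rw [← QuadraticAlgebra.norm_eq_one_iff_mem_unitary, QuadraticAlgebra.norm_def, nm]
  constructor <;> intro h <;> linear_combination h

theorem nm_un (u : Un F) : nm u.1 = 1 := mem_Un.1 u.2

theorem un_ne_zero (u : Un F) : u.1 ≠ 0 := fun h => by
  have := nm_un u
  rw [h] at this
  simp [nm] at this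

theorem det_un (u : Un F) (v w : Pt F) : det (u.1 * v) (u.1 * w) = det v w := by
  rw [det_mul_mul, nm_un, one_mul]

theorem un_inv_mul (u : Un F) (w : Pt F) : (u⁻¹).1 * (u.1 * w) = w := by
  rw [← mul_assoc, ← Submonoid.coe_mul, inv_mul_cancel]; simp

theorem un_mul_inv (u : Un F) (w : Pt F) : u.1 * ((u⁻¹).1 * w) = w := by
  rw [← mul_assoc, ← Submonoid.coe_mul, mul_inv_cancel]; simp

theorem det_un_left (u : Un F) (v w : Pt F) : det (u.1 * v) w = det v ((u⁻¹).1 * w) := by
  rw [← det_un u v, un_mul_inv]

theorem det_un_right (u : Un F) (v w : Pt F) : det v (u.1 * w) = det ((u⁻¹).1 * v) w := by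
  rw [← det_un u _ w, un_mul_inv]

theorem det_un_im (u : Un F) (w : Pt F) : det u.1 w = ((u⁻¹).1 * w).im := by
  rw [← one_det, ← det_un_left, mul_one]

theorem un_mul_eq_zero (u : Un F) {w : Pt F} (h : u.1 * w = 0) : w = 0 := by
  rw [← un_inv_mul u w, h, mul_zero]

variable {K : Type} [Field K] (ι : K →+* F)

@[simp] theorem mapPt_re (w : Pt K) : (mapPt ι w).re = ι w.re := rfl
@[simp] theorem mapPt_im (w : Pt K) : (mapPt ι w).im = ι w.im := rfl
theorem mapPt_mul (v w : Pt K) : mapPt ι (v * w) = mapPt ι v * mapPt ι w := by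
  apply Pt.ext' <;> simp
theorem mapPt_sub (v w : Pt K) : mapPt ι (v - w) = mapPt ι v - mapPt ι w := by
  apply Pt.ext' <;> simp
theorem mapPt_one : mapPt ι 1 = 1 := by apply Pt.ext' <;> simp
theorem mapPt_inj : Function.Injective (mapPt ι) := fun _ _ h =>
  Pt.ext' (ι.injective (congrArg QuadraticAlgebra.re h))
    (ι.injective (congrArg QuadraticAlgebra.im h))
theorem det_mapPt (v w : Pt K) : det (mapPt ι v) (mapPt ι w) = ι (det v w) := by simp [det]
theorem nm_mapPt (w : Pt K) : nm (mapPt ι w) = ι (nm w) := by simp [nm]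

/-- the map induced on unit circles -/
def mapUn : Un K →* Un F where
  toFun u := ⟨mapPt ι u.1, mem_Un.2 (by rw [nm_mapPt, nm_un, map_one])⟩
  map_one' := Subtype.ext (mapPt_one ι)
  map_mul' u v := Subtype.ext (mapPt_mul ι u.1 v.1)

@[simp] theorem mapUn_val (u : Un K) : (mapUn ι u).1 = mapPt ι u.1 := rfl

theorem mapUn_inj : Function.Injective (mapUn ι) := fun _ _ h =>
  Subtype.ext (mapPt_inj ι (congrArg Subtype.val h))

theorem IsTr.comp {tr : F →+ ZMod 2} (h : IsTr tr) : IsTr (tr.comp ι.toAddMonoidHom) :=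
  ⟨fun x => by simpa using h.sq (ι x), by simpa using h.one⟩

theorem card_Pt [Fintype F] : Fintype.card (Pt F) = Fintype.card F ^ 2 := by
  rw [Fintype.card_congr (QuadraticAlgebra.equivProd (-1 : F) (-1)), Fintype.card_prod, sq]

end

section
variable {F : Type} [Field F] [CharP F 2] {tr : F →+ ZMod 2}

omit [CharP F 2] in
theorem IsTr.tr_quad (htr : IsTr tr) (y : F) : tr (y ^ 2 - y + 1) = 1 := by
  rw [map_add, map_sub, htr.sq, htr.one]; simp

omit [CharP F 2] in
/-- the norm form is anisotropic -/
theorem IsTr.nm_eq_zero (htr : IsTr tr) {w : Pt F} (h : nm w = 0) : w = 0 := by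
  by_cases hi : w.im = 0
  · simp only [nm, hi] at h
    exact Pt.ext' (by simpa using h) hi
  · have := htr.tr_quad (w.re / w.im)
    have e : (w.re / w.im) ^ 2 - w.re / w.im + 1 = 0 := by
      field_simp
      simp only [nm] at h
      linear_combination h
    rw [e] at this
    simp at this

omit [CharP F 2] in
/-- the key fact about incidences -/
theorem IsTr.tr_of_on (htr : IsTr tr) (u : Un F) {w : Pt F} {c : F} (h : det u.1 w = c)
    (hc : c ≠ 0) : tr (nm w / c ^ 2) = 1 := by
  rw [det_un_im] at h
  have e : nm w = nm ((u⁻¹).1 * w) := by rw [nm_mul, nm_un, one_mul]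
  rw [e, ← htr.tr_quad (((u⁻¹).1 * w).re / c)]
  congr 1
  simp only [nm, h]
  field_simp

theorem sq_inj2 {a b : F} (h : a ^ 2 = b ^ 2) : a = b := by
  have : (a - b) ^ 2 = 0 := by rw [sub_pow_char, h, sub_self]
  exact sub_eq_zero.1 (pow_eq_zero_iff (by norm_num) |>.1 this)

theorem exists_sq [Fintype F] (a : F) : ∃ b : F, b ^ 2 = a :=
  (Finite.injective_iff_surjective.1 fun _ _ h => sq_inj2 h : Function.Surjective fun b : F => b ^ 2) a

/-- parallel unit vectors are equal -/
theorem un_eq_of_det {u v : Un F} (h : det u.1 v.1 = 0) : u = v := by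
  rw [det_un_im] at h
  have h1 := nm_un (u⁻¹ * v)
  simp only [nm, Submonoid.coe_mul, h] at h1
  have h2 : ((u⁻¹).1 * v.1).re = 1 := sq_inj2 (by linear_combination h1)
  have h3 : u⁻¹ * v = 1 := Subtype.ext (Pt.ext' h2 h)
  exact (inv_mul_eq_one.1 h3)

variable [Fintype F]

/-- every nonzero vector is a multiple of a unit vector -/
theorem IsTr.exists_smul (htr : IsTr tr) {w : Pt F} (hw : w ≠ 0) :
    ∃ (a : F) (u : Un F), a ≠ 0 ∧ w = a • u.1 := by
  obtain ⟨a, ha⟩ := exists_sq (nm w)
  have h0 : a ≠ 0 := fun e => hw (htr.nm_eq_zero (by rw [← ha, e]; simp))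
  refine ⟨a, ⟨a⁻¹ • w, mem_Un.2 ?_⟩, h0, ?_⟩
  · rw [nm_smul, ← ha]; field_simp
  · simp [smul_smul, h0]

theorem IsTr.exists_un (htr : IsTr tr) (w : Pt F) : ∃ u : Un F, det u.1 w = 0 := by
  by_cases hw : w = 0
  · exact ⟨1, by simp [hw]⟩
  · obtain ⟨a, u, -, rfl⟩ := htr.exists_smul hw
    exact ⟨u, by rw [det_smul, det_self, mul_zero]⟩

theorem IsTr.card_Un (htr : IsTr tr) : Fintype.card (Un F) = Fintype.card F + 1 := by
  have hb : Function.Bijective fun x : Fˣ × Un F => (⟨x.1.1 • x.2.1, fun h => un_ne_zero x.2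
      ((smul_eq_zero.1 h).resolve_left x.1.ne_zero)⟩ : {w : Pt F // w ≠ 0}) := by
    constructor
    · rintro ⟨a, u⟩ ⟨b, v⟩ h
      simp only [Subtype.mk.injEq] at h
      have h1 := congrArg nm h
      rw [nm_smul, nm_smul, nm_un, nm_un, mul_one, mul_one] at h1
      have h2 : a = b := Units.ext (sq_inj2 h1)
      subst h2
      exact Prod.ext rfl (Subtype.ext (smul_right_injective _ a.ne_zero h))
    · rintro ⟨w, hw⟩
      obtain ⟨a, u, ha, rfl⟩ := htr.exists_smul hw
      exact ⟨(Units.mk0 a ha, u), rfl⟩
  have h := Fintype.card_of_bijective hb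
  rw [Fintype.card_prod, Fintype.card_units, Fintype.card_subtype_compl, card_Pt,
    Fintype.card_subtype_eq] at h
  have h2 : 1 < Fintype.card F := Fintype.one_lt_card
  obtain ⟨m, hm⟩ : ∃ m, Fintype.card F = m + 2 := ⟨Fintype.card F - 2, by omega⟩
  rw [hm] at h ⊢
  have e : (m + 2) ^ 2 - 1 = (m + 2 - 1) * (m + 2 + 1) := by
    rw [show m + 2 - 1 = m + 1 from rfl]
    apply Nat.sub_eq_of_eq_add
    ring
  rw [e] at h
  exact Nat.eq_of_mul_eq_mul_left (by omega) h

omit [CharP F 2] in
theorem card_quad_le (a b c : F) (h : ¬(a = 0 ∧ b = 0 ∧ c = 0)) :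
    (univ.filter fun y : F => a * y ^ 2 + b * y + c = 0).card ≤ 2 := by
  have hp : (Polynomial.C a * Polynomial.X ^ 2 + Polynomial.C b * Polynomial.X + Polynomial.C c :
      Polynomial F) ≠ 0 := fun e => h
    ⟨by simpa using congrArg (Polynomial.coeff · 2) e,
     by simpa using congrArg (Polynomial.coeff · 1) e,
     by simpa using congrArg (Polynomial.coeff · 0) e⟩
  refine le_trans (card_le_card (t := (Polynomial.C a * Polynomial.X ^ 2 + Polynomial.C b *
    Polynomial.X + Polynomial.C c).roots.toFinset) fun y hy => ?_) ?_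
  · simp only [mem_filter, mem_univ, true_and] at hy
    rw [Multiset.mem_toFinset, Polynomial.mem_roots hp]
    simpa using hy
  · exact (Multiset.toFinset_card_le _).trans ((Polynomial.card_roots' _).trans
      Polynomial.natDegree_quadratic_le)

/-- a line meets a circle in at most two points -/
theorem IsTr.line_circle (htr : IsTr tr) {a : F} (ha : a ≠ 0) (g : Pt F) (h : F) {v : Pt F}
    (hv : v ≠ 0) (c : F) :
    (univ.filter fun t : Pt F => a * nm t + det g t + h = 0 ∧ det v t = c).card ≤ 2 := by
  obtain ⟨b, u, hb, rfl⟩ := htr.exists_smul hv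
  refine le_trans (card_le_card_of_injOn (fun t => ((u⁻¹).1 * t).re) (fun t ht => ?_) ?_)
    (card_quad_le a (-a * (c / b) - ((u⁻¹).1 * g).im)
      (a * (c / b) ^ 2 + ((u⁻¹).1 * g).re * (c / b) + h) fun e => ha e.1)
  · simp only [coe_filter, mem_univ, true_and, Set.mem_ofPred_eq] at ht ⊢
    obtain ⟨h1, h2⟩ := ht
    rw [smul_det, det_un_im] at h2
    have e : nm t = nm ((u⁻¹).1 * t) := by rw [nm_mul, nm_un, one_mul]
    have e2 : ((u⁻¹).1 * t).im = c / b := by rw [← h2]; field_simp
    rw [e, ← det_un u⁻¹, nm, det, e2] at h1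
    linear_combination h1
  · intro t ht t' ht' e
    simp only [coe_filter, mem_univ, true_and, Set.mem_ofPred_eq] at ht ht'
    have h2 := ht.2.trans ht'.2.symm
    rw [smul_det, smul_det, det_un_im, det_un_im] at h2
    have h3 : (u⁻¹).1 * t = (u⁻¹).1 * t' := Pt.ext' e (mul_left_cancel₀ hb h2)
    rw [← un_mul_inv u t, h3, un_mul_inv]

/-- a line contains at most two unit vectors -/
theorem IsTr.line_un (htr : IsTr tr) {v : Pt F} (hv : v ≠ 0) (c : F) :
    (univ.filter fun u : Un F => det v u.1 = c).card ≤ 2 := by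
  refine le_trans (card_le_card_of_injOn (fun u => u.1) (fun u hu => ?_)
    fun _ _ _ _ e => Subtype.ext e) (htr.line_circle one_ne_zero 0 (-1) hv c)
  simp only [coe_filter, mem_univ, true_and, Set.mem_ofPred_eq] at hu ⊢
  exact ⟨by simp [nm_un], hu⟩

/-- a circle has at most `2 q` points -/
theorem IsTr.card_circle (htr : IsTr tr) {a : F} (ha : a ≠ 0) (g : Pt F) (h : F) :
    (univ.filter fun t : Pt F => a * nm t + det g t + h = 0).card ≤ 2 * Fintype.card F := by
  rw [card_eq_sum_card_fiberwise (f := fun t : Pt F => det 1 t) (t := univ)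
    (fun _ _ => mem_coe.2 (mem_univ _)), mul_comm, ← smul_eq_mul, ← card_univ, ← sum_const]
  refine sum_le_sum fun c _ => ?_
  rw [filter_filter]
  exact htr.line_circle ha g h one_ne_zero c

/-- a nonzero binary quadratic form vanishes at at most three unit vectors -/
theorem quad_un (a b c : F) (h : ¬(a = 0 ∧ b = 0 ∧ c = 0)) :
    (univ.filter fun u : Un F =>
      a * u.1.re ^ 2 + b * (u.1.re * u.1.im) + c * u.1.im ^ 2 = 0).card ≤ 3 := by
  refine le_trans (card_le_card_of_injOn (t := insertNone
    (univ.filter fun y : F => a * y ^ 2 + b * y + c = 0))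
    (fun u => if u.1.im = 0 then none else some (u.1.re / u.1.im)) (fun u hu => ?_) ?_) ?_
  · simp only [coe_filter, mem_univ, true_and, Set.mem_ofPred_eq] at hu
    simp only [mem_coe, mem_insertNone, mem_filter, mem_univ, true_and]
    split_ifs with hi
    · simp
    · intro y hy
      obtain rfl : u.1.re / u.1.im = y := by simpa using hy
      field_simp
      linear_combination hu
  · intro u _ v _ e
    apply un_eq_of_det
    dsimp only at e
    split_ifs at e with h1 h2 h2
    · simp [det, h1, h2]
    · have := Option.some.inj e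
      field_simp at this
      simp only [det]
      linear_combination this
  · rw [card_insertNone]
    exact Nat.succ_le_succ (card_quad_le a b c h)

/-- the affine plane with directions the unit vectors -/
noncomputable def plane (htr : IsTr tr) {D : Type} [Fintype D] (vec : D ≃ Un F) :
    Pl (Pt F) D F where
  π d w := det (vec d).1 w
  bij d d' h := by
    rw [Fintype.bijective_iff_injective_and_card]
    refine ⟨fun w w' e => eq_of_det (fun e0 => h (vec.injective (un_eq_of_det e0)))
      (congrArg Prod.fst e) (congrArg Prod.snd e), ?_⟩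
    rw [card_Pt, Fintype.card_prod, sq]
  join w w' := by
    obtain ⟨u, hu⟩ := htr.exists_un (w - w')
    refine ⟨vec.symm u, ?_⟩
    rw [det_sub] at hu
    simpa using sub_eq_zero.1 hu
  cardD := by rw [Fintype.card_congr vec, htr.card_Un]

theorem plane_π (htr : IsTr tr) {D : Type} [Fintype D] (vec : D ≃ Un F) (d : D) (w : Pt F) :
    (plane htr vec).π d w = det (vec d).1 w := rfl

end

end Vale.Agent.P045
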