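import Mathlib

/-! `clique`: the maps `f : T → F` with `ok` values, pairwise related, number at least
`(q / c) ^ card T` (extend one index at a time); those with four indices mapped into one `Λ j`
number at most `q ^ 3 * N ^ 4 * A ^ 4 * q ^ (card T - 4)`.
`colour`: greedy colouring (induct on a finset of coloured vertices). -/

namespace Vale.Agent.P045

open Finset
open scoped Classical

theorem clique (N A c : ℕ) : ∃ q0 : ℕ, ∀ {F T J : Type} [Fintype F] [Fintype T] [Fintype J]
    (ok : F → Prop) (rel : F → F → Prop) (Λ : J → Finset F), q0 ≤ Fintype.card F →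
    Fintype.card T ≤ N → Fintype.card J ≤ Fintype.card F ^ 3 → (∀ j, (Λ j).card ≤ A) →
    (∀ B : Finset F, B.card ≤ N → (∀ y ∈ B, ok y) → Fintype.card F ≤
      c * (univ.filter fun x => ok x ∧ ∀ y ∈ B, rel x y ∧ rel y x).card) →
    ∃ f : T → F, (∀ i, ok (f i)) ∧ (∀ i i', i ≠ i' → rel (f i) (f i')) ∧
      ∀ j, (univ.filter fun i => f i ∈ Λ j).card ≤ 3 := by
  refine ⟨(1 + A * c) ^ N + 1, fun {F T J} _ _ _ ok rel Λ hq hT hJ hΛ hc => ?_⟩
  obtain ⟨q, hqdef⟩ : ∃ q, Fintype.card F = q := ⟨_, rfl⟩
  rw [hqdef] at hq hJ hc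
  have hq0 : 0 < q := by omega
  obtain ⟨x0⟩ : Nonempty F := Fintype.card_pos_iff.1 (by omega)
  have key : ∀ s : Finset T, ∃ f : T → F, (∀ i ∈ s, ok (f i)) ∧
      (∀ i ∈ s, ∀ i' ∈ s, i ≠ i' → rel (f i) (f i')) ∧
      ∑ j, q ^ (s.filter fun i => f i ∈ Λ j).card ≤ (1 + A * c) ^ s.card * q ^ 3 := by
    intro s
    induction s using Finset.induction_on with
    | empty => exact ⟨fun _ => x0, by simp, by simp, by simpa using hJ⟩
    | insert i0 s hi0 ih =>
      obtain ⟨f, h1, h2, h3⟩ := ih
      have hB := hc (s.image f) (card_image_le.trans ((card_le_univ s).trans hT))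
        (fun y hy => by obtain ⟨i, hi, rfl⟩ := mem_image.1 hy; exact h1 i hi)
      obtain ⟨X, hX⟩ : ∃ X, X = univ.filter fun x => ok x ∧ ∀ y ∈ s.image f, rel x y ∧ rel y x :=
        ⟨_, rfl⟩
      rw [← hX] at hB
      have hXne : X.Nonempty := by
        rw [← card_pos]
        by_contra h0
        rw [show X.card = 0 by omega] at hB
        omega
      obtain ⟨w, hw⟩ : ∃ w : J → ℕ, ∀ j, q ^ (s.filter fun i => f i ∈ Λ j).card = w j :=
        ⟨_, fun _ => rfl⟩
      simp only [hw] at h3
      obtain ⟨x, hx, hle⟩ : ∃ x ∈ X, ∑ j, (w j + if x ∈ Λ j then q * w j else 0) ≤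
          (1 + A * c) * ∑ j, w j := by
        refine exists_le_of_sum_le hXne ?_
        rw [sum_comm, sum_const, smul_eq_mul, mul_sum, mul_sum]
        refine sum_le_sum fun j _ => ?_
        rw [sum_add_distrib, sum_const, ← sum_filter, sum_const, smul_eq_mul, smul_eq_mul]
        have h4 : (X.filter fun x => x ∈ Λ j).card ≤ A :=
          (card_le_card fun x hx => (mem_filter.1 hx).2).trans (hΛ j)
        calc X.card * w j + (X.filter fun x => x ∈ Λ j).card * (q * w j)
            ≤ X.card * w j + A * (c * X.card * w j) :=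
              Nat.add_le_add_left (Nat.mul_le_mul h4 (Nat.mul_le_mul_right _ hB)) _
          _ = X.card * ((1 + A * c) * w j) := by ring
      rw [hX] at hx
      obtain ⟨hx1, hx2⟩ := (mem_filter.1 hx).2
      have hup : ∀ i ∈ s, Function.update f i0 x i = f i := fun i hi =>
        Function.update_of_ne (ne_of_mem_of_not_mem hi hi0) _ _
      refine ⟨Function.update f i0 x, fun i hi => ?_, fun i hi i' hi' hne => ?_, ?_⟩
      · rcases mem_insert.1 hi with rfl | hi
        · rwa [Function.update_self]
        · rw [hup i hi]; exact h1 i hi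
      · rcases mem_insert.1 hi with rfl | hj <;> rcases mem_insert.1 hi' with rfl | hj'
        · exact absurd rfl hne
        · rw [Function.update_self, hup i' hj']
          exact (hx2 _ (mem_image_of_mem f hj')).1
        · rw [Function.update_self, hup i hj]
          exact (hx2 _ (mem_image_of_mem f hj)).2
        · rw [hup i hj, hup i' hj']
          exact h2 i hj i' hj' hne
      · rw [card_insert_of_notMem hi0, pow_succ, mul_comm _ (1 + A * c), mul_assoc]
        refine le_trans (sum_le_sum fun j _ => ?_) (hle.trans (Nat.mul_le_mul_left _ h3))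
        have h5 : (s.filter fun i => Function.update f i0 x i ∈ Λ j) =
            s.filter fun i => f i ∈ Λ j := filter_congr fun i hi => by rw [hup i hi]
        rw [filter_insert, Function.update_self, h5]
        split_ifs
        · rw [card_insert_of_notMem fun hm => hi0 (mem_filter.1 hm).1, pow_succ, hw, mul_comm]
          omega
        · rw [hw]
          omega
  obtain ⟨f, h1, h2, h3⟩ := key univ
  refine ⟨f, fun i => h1 i (mem_univ i), fun i i' => h2 i (mem_univ i) i' (mem_univ i'),
    fun j => ?_⟩
  by_contra hlt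
  have h4 : q ^ 4 ≤ q ^ (univ.filter fun i => f i ∈ Λ j).card :=
    Nat.pow_le_pow_right hq0 (by omega)
  have h5 := single_le_sum (f := fun j => q ^ (univ.filter fun i => f i ∈ Λ j).card)
    (fun _ _ => Nat.zero_le _) (mem_univ j)
  have h6 : (1 + A * c) ^ (univ : Finset T).card ≤ (1 + A * c) ^ N :=
    Nat.pow_le_pow_right (by omega) (by rwa [card_univ])
  have h7 : (1 + A * c) ^ (univ : Finset T).card * q ^ 3 < q * q ^ 3 :=
    Nat.mul_lt_mul_of_pos_right (by omega) (by positivity)
  have h8 : q * q ^ 3 = q ^ 4 := by ring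
  omega

theorem colour {𝒞 : Type} [Fintype 𝒞] (rel : 𝒞 → 𝒞 → Prop) (Dg : ℕ)
    (h1 : ∀ C, (univ.filter fun C' => rel C C').card ≤ Dg)
    (h2 : ∀ C, (univ.filter fun C' => rel C' C).card ≤ Dg) :
    ∃ χ : 𝒞 → Fin (2 * Dg + 1), ∀ C C', C ≠ C' → χ C = χ C' → ¬rel C C' := by
  have key : ∀ s : Finset 𝒞, ∃ χ : 𝒞 → Fin (2 * Dg + 1),
      ∀ C ∈ s, ∀ C' ∈ s, C ≠ C' → χ C = χ C' → ¬rel C C' := by
    intro s
    induction s using Finset.induction_on with
    | empty => exact ⟨fun _ => 0, by simp⟩
    | insert v s hv ih =>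
      obtain ⟨χ, hχ⟩ := ih
      have h3 : (((univ.filter fun C' => rel v C') ∪ univ.filter fun C' => rel C' v).image χ).card <
          (univ : Finset (Fin (2 * Dg + 1))).card := by
        have h4 := card_union_le (univ.filter fun C' => rel v C') (univ.filter fun C' => rel C' v)
        have h5 := card_image_le (f := χ)
          (s := (univ.filter fun C' => rel v C') ∪ univ.filter fun C' => rel C' v)
        have h6 := h1 v
        have h7 := h2 v
        rw [card_univ, Fintype.card_fin]
        omega
      obtain ⟨c, _, hc⟩ := exists_mem_notMem_of_card_lt_card h3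
      simp only [mem_image, mem_union, mem_filter, mem_univ, true_and, not_exists, not_and] at hc
      have hup : ∀ C ∈ s, Function.update χ v c C = χ C := fun C hC =>
        Function.update_of_ne (ne_of_mem_of_not_mem hC hv) _ _
      refine ⟨Function.update χ v c, fun C hC C' hC' hne => ?_⟩
      rcases mem_insert.1 hC with rfl | hD <;> rcases mem_insert.1 hC' with rfl | hD'
      · exact absurd rfl hne
      · rw [Function.update_self, hup C' hD']
        exact fun e hr => hc C' (Or.inl hr) e.symm
      · rw [Function.update_self, hup C hD]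
        exact fun e hr => hc C (Or.inr hr) e
      · rw [hup C hD, hup C' hD']
        exact hχ C hD C' hD' hne
  obtain ⟨χ, hχ⟩ := key univ
  exact ⟨χ, fun C C' => hχ C (mem_univ C) C' (mem_univ C')⟩

end Vale.Agent.P045
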