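import Mathlib

/-! Hypergraphs: partite structure, covering number, matching number. -/

namespace Vale.Agent.P045

/-- `H` is `r`-partite `r`-uniform for the partition of the vertices given by `part`:
every edge contains exactly one vertex of each part. -/
def IsPartite {V : Type} {r : ℕ} (part : V → Fin r) (H : Finset (Finset V)) : Prop :=
  ∀ e ∈ H, ∀ i : Fin r, ∃! v, v ∈ e ∧ part v = i

/-- `C` meets every edge of `H`. -/
def IsCover {V : Type} (H : Finset (Finset V)) (C : Finset V) : Prop :=
  ∀ e ∈ H, ∃ v ∈ C, v ∈ e

/-- `M` is a set of pairwise disjoint edges of `H`. -/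
def IsMatching {V : Type} (H M : Finset (Finset V)) : Prop :=
  M ⊆ H ∧ ∀ e ∈ M, ∀ f ∈ M, e ≠ f → Disjoint e f

/-- The covering number. -/
noncomputable def tau {V : Type} (H : Finset (Finset V)) : ℕ :=
  sInf {k | ∃ C, IsCover H C ∧ C.card = k}

/-- The matching number. -/
noncomputable def nu {V : Type} (H : Finset (Finset V)) : ℕ :=
  sSup {k | ∃ M, IsMatching H M ∧ M.card = k}

end Vale.Agent.P045
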