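import Vale.Agent.P045.Main
import Vale.Agent.P045.Defs

/-! Translation to hypergraphs and the choice of the fields. -/

namespace Vale.Agent.P045

open Finset
open scoped Classical

theorem hyper_of_ctr {D Y : Type} [Fintype D] [Fintype Y] {E : Set (D → Y)} (h : Ctr E) {r : ℕ}
    (hr : Fintype.card D = r) : ∃ (V : Type) (_ : Fintype V) (part : V → Fin r)
      (H : Finset (Finset V)), IsPartite part H ∧ nu H = 1 ∧ tau H = r := by
  obtain ⟨⟨e0, he0⟩, h2, h3⟩ := h
  let gr : (D → Y) → Finset (D × Y) := fun e => univ.image fun d => (d, e d)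
  have hgr : ∀ e v, v ∈ gr e ↔ e v.1 = v.2 := by
    intro e v
    simp only [gr, mem_image, mem_univ, true_and]
    constructor
    · rintro ⟨d, rfl⟩; rfl
    · intro h; exact ⟨v.1, Prod.ext rfl h⟩
  have hH : ∀ f, f ∈ (univ.filter (· ∈ E)).image gr ↔ ∃ e ∈ E, gr e = f := by simp
  refine ⟨D × Y, inferInstance, fun v => Fintype.equivFinOfCardEq hr v.1,
    (univ.filter (· ∈ E)).image gr, ?_, ?_, ?_⟩
  · intro f hf i
    obtain ⟨e, -, rfl⟩ := (hH f).1 hf
    refine ⟨((Fintype.equivFinOfCardEq hr).symm i, e ((Fintype.equivFinOfCardEq hr).symm i)),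
      ⟨(hgr _ _).2 rfl, by simp⟩, ?_⟩
    rintro ⟨d, y⟩ ⟨h4, rfl⟩
    rw [hgr] at h4
    simp only [Equiv.symm_apply_apply]
    exact Prod.ext rfl h4.symm
  · refine IsGreatest.csSup_eq ⟨⟨{gr e0}, ⟨?_, ?_⟩, card_singleton _⟩, ?_⟩
    · exact singleton_subset_iff.2 ((hH _).2 ⟨e0, he0, rfl⟩)
    · intro e he f hf hne
      exact absurd ((mem_singleton.1 he).trans (mem_singleton.1 hf).symm) hne
    · rintro k ⟨M, ⟨hM, hd⟩, rfl⟩
      refine card_le_one.2 fun a ha b hb => ?_
      by_contra hne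
      obtain ⟨e, he, rfl⟩ := (hH a).1 (hM ha)
      obtain ⟨f, hf, rfl⟩ := (hH b).1 (hM hb)
      obtain ⟨d, hd'⟩ := h2 e he f hf
      exact disjoint_left.1 (hd _ ha _ hb hne) ((hgr e (d, e d)).2 rfl) ((hgr f _).2 hd'.symm)
  · refine IsLeast.csInf_eq ⟨⟨gr e0, ?_, ?_⟩, ?_⟩
    · intro f hf
      obtain ⟨e, he, rfl⟩ := (hH f).1 hf
      obtain ⟨d, hd⟩ := h2 e0 he0 e he
      exact ⟨(d, e0 d), (hgr _ _).2 rfl, (hgr _ _).2 hd.symm⟩
    · rw [card_image_of_injective _ fun _ _ h => congrArg Prod.fst h, card_univ, hr]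
    · rintro k ⟨C, hC, rfl⟩
      rw [← hr]
      refine h3 C fun e he => ?_
      obtain ⟨v, hv, hv'⟩ := hC _ ((hH _).2 ⟨e, he, rfl⟩)
      rw [hgr] at hv'
      exact ⟨v.1, by rw [hv']; exact hv⟩

theorem isTr_galois {m : ℕ} (hm : Odd m) :
    IsTr (Algebra.trace (ZMod 2) (GaloisField 2 m)).toAddMonoidHom := by
  have h0 : m ≠ 0 := by rintro rfl; simp at hm
  constructor
  · intro x
    have := Algebra.trace_eq_of_algEquiv
      (FiniteField.frobeniusAlgEquivOfAlgebraic (ZMod 2) (GaloisField 2 m)) x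
    simpa using this
  · have := Algebra.trace_algebraMap (R := ZMod 2) (S := GaloisField 2 m) 1
    rw [map_one, GaloisField.finrank 2 h0] at this
    simp only [LinearMap.toAddMonoidHom_coe, this, nsmul_eq_mul, mul_one]
    exact (ZMod.natCast_eq_one_iff_odd).2 hm

theorem family : ∃ n0 : ℕ, ∀ n ≥ n0, Odd n → ∃ (V : Type) (_ : Fintype V)
    (part : V → Fin (8 ^ n + 1)) (H : Finset (Finset V)),
    IsPartite part H ∧ nu H = 1 ∧ tau H = 8 ^ n + 1 := by
  obtain ⟨q0, h⟩ := ctr_exists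
  refine ⟨q0, fun n hn ho => ?_⟩
  have h0 : 3 * n ≠ 0 := by rintro e; obtain rfl : n = 0 := by omega
                            simp at ho
  let _ : Fintype (GaloisField 2 3) := Fintype.ofFinite _
  let _ : Fintype (GaloisField 2 (3 * n)) := Fintype.ofFinite _
  obtain ⟨ι⟩ := FiniteField.nonempty_algHom_of_finrank_dvd (F := ZMod 2) (K := GaloisField 2 3)
    (L := GaloisField 2 (3 * n)) (by
      rw [GaloisField.finrank 2 h0, GaloisField.finrank 2 (by norm_num)]
      exact dvd_mul_right _ _)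
  have hq : Fintype.card (GaloisField 2 (3 * n)) = 8 ^ n := by
    rw [Fintype.card_eq_nat_card, GaloisField.card 2 _ h0, pow_mul]; norm_num
  obtain ⟨D, Y, _, _, E, hD, hE⟩ := h ι.toRingHom (isTr_galois (Odd.mul (by decide) ho))
    (by rw [Fintype.card_eq_nat_card, GaloisField.card 2 _ (by norm_num)]; norm_num)
    (by rw [hq]; exact hn.trans (Nat.lt_pow_self (by norm_num)).le)
  exact hyper_of_ctr hE (hD.trans (by rw [hq]))

end Vale.Agent.P045
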