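import Vale.Agent.P045.Gad_A

/-! The gadget (finite check).

Points `y = (x, y')` of AG(2,9), `F9 = {a0 + 3 a1}` with `i ^ 2 = -1`; `lab y s` is the `b` with
`y' = s x + b`; `cc = [0,0,5,3,5,4,5,3,5]`; `Y` is the union of the lines `y' = s x + cc s`.
Third claim: `Y` is not covered by 8 lines, nor by 9 lines including a vertical one and a line
`(s, cc s)`. -/

namespace Vale.Agent.P045

theorem gL_mem : ∀ s b : Fin 9, gL (s, b) ∈ gcms := by decide +kernel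
theorem gV_mem : ∀ x : Fin 9, gV x ∈ gcms := by decide +kernel
theorem gL_bit : ∀ x y s b : Fin 9,
    (gL (s, b)).testBit (9 * x.1 + y.1) = true → glab (x, y) s ≠ b := by decide +kernel
theorem gV_bit : ∀ x y x' : Fin 9, (gV x').testBit (9 * x.1 + y.1) = true → x ≠ x' := by
  decide +kernel
theorem gY_bit : ∀ x y : Fin 9, gY.testBit (9 * x.1 + y.1) = true →
    ∃ s, glab (x, y) s = gcc s := by decide +kernel
theorem gY_lt : gY < 2 ^ 81 := by decide +kernel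

theorem gad_aux (n rem : ℕ) (h : nocov n rem = true) (hr : ∀ i, rem.testBit i = true →
    gY.testBit i = true) (Lb : Finset (Fin 9 × Fin 9)) (Vt : Finset (Fin 9))
    (hc : Lb.card + Vt.card ≤ n) : ∃ x y : Fin 9, rem.testBit (9 * x.1 + y.1) = true ∧
      (∃ s, glab (x, y) s = gcc s) ∧ x ∉ Vt ∧ ∀ s, (s, glab (x, y) s) ∉ Lb := by
  obtain ⟨i, h1, h2⟩ := nocov_sound n rem h (Lb.image gL ∪ Vt.image gV) (by
    intro c hc
    simp only [Finset.mem_union, Finset.mem_image] at hc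
    rcases hc with ⟨l, -, rfl⟩ | ⟨x, -, rfl⟩
    · exact gL_mem l.1 l.2
    · exact gV_mem x) (by
    have h3 := Finset.card_union_le (Lb.image gL) (Vt.image gV)
    have h4 := Finset.card_image_le (s := Lb) (f := gL)
    have h5 := Finset.card_image_le (s := Vt) (f := gV)
    omega)
  have hi : i < 81 := by
    by_contra hi
    have := Nat.testBit_lt_two_pow (lt_of_lt_of_le gY_lt
      (Nat.pow_le_pow_right (by norm_num) (not_lt.1 hi)))
    rw [hr i h1] at this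
    cases this
  obtain ⟨x, y, rfl⟩ : ∃ x y : Fin 9, i = 9 * x.1 + y.1 :=
    ⟨⟨i / 9, by omega⟩, ⟨i % 9, by omega⟩, by simp only; omega⟩
  refine ⟨x, y, h1, gY_bit x y (hr _ h1), fun hx => ?_, fun s hs => ?_⟩
  · exact gV_bit x y x (h2 _ (Finset.mem_union_right _ (Finset.mem_image_of_mem _ hx))) rfl
  · exact gL_bit x y s _ (h2 _ (Finset.mem_union_left _ (Finset.mem_image_of_mem _ hs))) rfl

theorem gad : ∃ (lab : Fin 9 × Fin 9 → Fin 9 → Fin 9) (cc : Fin 9 → Fin 9),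
    (∀ y y' : Fin 9 × Fin 9, y.1 ≠ y'.1 → ∃ s, lab y s = lab y' s) ∧
    (∀ x : Fin 9, ∃ y : Fin 9 × Fin 9, y.1 = x ∧ ∃ s, lab y s = cc s) ∧
    ∀ (Lb : Finset (Fin 9 × Fin 9)) (Vt : Finset (Fin 9)),
      (Lb.card + Vt.card ≤ 8 ∨ (Lb.card + Vt.card ≤ 9 ∧ Vt.Nonempty ∧ ∃ s, (s, cc s) ∈ Lb)) →
      ∃ y : Fin 9 × Fin 9, (∃ s, lab y s = cc s) ∧ y.1 ∉ Vt ∧ ∀ s, (s, lab y s) ∉ Lb := by
  refine ⟨glab, gcc, ?_, ?_, ?_⟩
  · have : ∀ a b c d : Fin 9, a ≠ c → ∃ s, glab (a, b) s = glab (c, d) s := by decide +kernel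
    exact fun y y' => this y.1 y.2 y'.1 y'.2
  · have : ∀ x : Fin 9, glab (x, 0) 0 = gcc 0 := by decide +kernel
    exact fun x => ⟨(x, 0), rfl, 0, this x⟩
  · rintro Lb Vt (h | ⟨h, ⟨x0, hx⟩, s0, hs⟩)
    · obtain ⟨x, y, -, h⟩ := gad_aux 8 gY gc1 (fun _ h => h) Lb Vt h
      exact ⟨(x, y), h⟩
    · obtain ⟨x, y, h1, h2, h3, h4⟩ := gad_aux 7 _ (gc2 x0 s0) (fun i hi => by
        simp only [Nat.testBit_and, Bool.and_eq_true] at hi
        exact hi.1.1) (Lb.erase (s0, gcc s0)) (Vt.erase x0) (by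
        rw [Finset.card_erase_of_mem hs, Finset.card_erase_of_mem hx]
        have := Finset.card_pos.2 ⟨_, hs⟩
        have := Finset.card_pos.2 ⟨_, hx⟩
        omega)
      simp only [Nat.testBit_and, Bool.and_eq_true] at h1
      refine ⟨(x, y), h2, fun hx' => h3 (Finset.mem_erase.2 ⟨gV_bit x y x0 h1.1.2, hx'⟩),
        fun s hs' => h4 s (Finset.mem_erase.2 ⟨fun e => ?_, hs'⟩)⟩
      obtain ⟨rfl, e2⟩ := Prod.mk.inj e
      exact gL_bit x y s _ h1.2 e2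

end Vale.Agent.P045
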