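import Mathlib

/-! The gadget (finite check): the checker and its soundness.  A line is given by the bit mask of
the points which are not on it. -/

namespace Vale.Agent.P045

def gcms : List ℕ :=
  [2413120031324700113894910, 2408388423420141878377469, 2398925207611025407342587,
   2379998775992792465272823, 2342145912756326581133295, 2266440186283394812854239,
   2115028733337531276296127, 1812205827445804203179903, 1206560015662350056947455,
   1207744073945406663293950, 2113256694957480871720957, 1812793821362062624292347,
   2398943699523303603429367, 2413092340960035084419055, 2408397606325856128462815,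
   2266588193568776821604287, 2379777271195286147825535, 2342219411995858850250495,
   2341998478961776193435646, 2266661827559144230485501, 2379924554692328941157371,
   1811026393188360572092407, 1208333217820454770700271, 2114434980983542867025887,
   2408369994195823046295487, 2398952912770494017535871, 2413110753662142156570367,
   1813241110431158235033598, 1208630597399506046672893, 2115546374830208233488379,
   2407226026254091526307831, 2396600413556009149595631, 2412538832741674936827871,
   2342273021790051956161983, 2266694406321711565765503, 2380062330509655145445119,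
   2380033507960373402132478, 2342279940295754071916541, 2266716312059072647000059,
   2115324999828571650195447, 1813314869262008949800943, 1208778227365873953767391,
   2410767796770427801435071, 2407816024984109147223935, 2397781435307875171826943,
   2398371588975398102220798, 2411948104101685501095933, 2406045577780910337548283,
   2266724380309483771265015, 2380049644430410264838127, 2342255720085942720724959,
   1208851996565552553260991, 2115472538227455329041791, 1813093563357228215302911,
   2264374655906654525030398, 2379482392398051338551293, 2341113147567956429766651,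
   1208888345161990221594103, 2115610807830897663933423, 1813369992195624226781151,
   2398662413635096552402879, 2413054332705618387263359, 2408257026432177449975551,
   2408328505349128945860606, 2398813441920012841254909, 2412831809990862366015483,
   2341703407597990640090103, 2265555302071360905279471, 2377711487954223722659295,
   1813378929290087171612607, 1208907228188018852216703, 2115583001472381350309631,
   2115601160979470614396926, 1813351691782290015223805, 1208916307939639808688123,
   2412977085977482345052151, 2408110605146563425598959, 2398886079897933426195423,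
   2378892034680719616229311, 2339932571995569145245567, 2266145575434398398668543,
   2417851639229258349411840, 2417851639229258349150719, 2417851639229258215456767,
   2417851639229189764153343, 2417851639194142696800255, 2417851621250044212019199,
   2417842433871620004118527, 2413138496118425558974463, 4722366482869645213695]

def gel : List (ℕ × List ℕ) :=
  [(2413120031324700113894910, [0, 9, 18, 27, 36, 45, 54, 63, 72]),
   (1207744073945406663293950, [0, 10, 20, 30, 40, 50, 60, 70, 80]),
   (2114434980983542867025887, [5, 13, 21, 29, 37, 45, 62, 70, 78]),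
   (2407226026254091526307831, [3, 15, 18, 32, 44, 47, 58, 70, 73]),
   (1208778227365873953767391, [5, 15, 19, 34, 38, 48, 54, 67, 80]),
   (2380049644430410264838127, [4, 15, 20, 27, 41, 52, 62, 64, 75]),
   (1813369992195624226781151, [5, 11, 26, 30, 36, 51, 58, 64, 79]),
   (2341703407597990640090103, [3, 10, 26, 34, 41, 45, 56, 69, 76]),
   (2398886079897933426195423, [5, 10, 24, 27, 44, 49, 61, 66, 74])]

def gY : ℕ := 2264041921446573403582009

def tb (m i : ℕ) : Bool := Nat.beq (Nat.land 1 (Nat.shiftRight m i)) 1

def gcnt (m : ℕ) (l : List ℕ) : ℕ := l.rec 0 fun i _ r => cond (tb m i) (Nat.succ r) r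

theorem tb_eq (m i : ℕ) : tb m i = m.testBit i := by
  have h : 1 &&& (m >>> i) ≤ 1 := Nat.and_le_left
  show Nat.beq (1 &&& (m >>> i)) 1 = (1 &&& (m >>> i) != 0)
  generalize 1 &&& (m >>> i) = k at h
  interval_cases k <;> rfl

theorem gcnt_eq (m : ℕ) (l : List ℕ) : gcnt m l = l.countP m.testBit := by
  induction l with
  | nil => rfl
  | cons i l ih =>
    show cond (tb m i) (Nat.succ (gcnt m l)) (gcnt m l) = _
    rw [ih, tb_eq, List.countP_cons]
    cases m.testBit i <;> rfl

def gbest (rem : ℕ) : List ℕ :=
  (gel.foldl (fun (b : ℕ × List ℕ) e =>
    cond (Nat.blt b.1 (gcnt rem e.2)) (gcnt rem e.2, e.2) b) (0, [])).2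

/-- `nocov n rem = true` certifies that `rem` is not covered by `n` lines -/
def nocov : ℕ → ℕ → Bool
  | 0, rem => rem != 0
  | n + 1, rem =>
    match gel.find? (fun e => Nat.blt (n + 1) (gcnt rem e.2)) with
    | some e => nocov n (Nat.land rem e.1)
    | none =>
      match (gbest rem).find? (tb rem) with
      | some i => gcms.all fun c => tb c i || nocov n (Nat.land rem c)
      | none => false

theorem gel_meet : ∀ e ∈ gel, ∀ c ∈ gcms, c ≠ e.1 → e.2.countP (fun i => !c.testBit i) ≤ 1 := by
  decide +kernel

theorem countP_le_card (l : List ℕ) (S : Finset ℕ) :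
    ∀ p : ℕ → Bool, (∀ c ∈ S, l.countP (fun i => !c.testBit i) ≤ 1) →
      (∀ i, p i = true → ∃ c ∈ S, c.testBit i = false) → l.countP p ≤ S.card := by
  induction S using Finset.induction_on with
  | empty =>
    intro p _ h
    simp only [Finset.card_empty, Nat.le_zero, List.countP_eq_zero]
    intro i _ hi
    simpa using h i hi
  | insert a S ha ih =>
    intro p h1 h2
    have h3 := ih (fun i => p i && a.testBit i) (fun c hc => h1 c (Finset.mem_insert_of_mem hc))
      (fun i hi => by
        simp only [Bool.and_eq_true] at hi
        obtain ⟨c, hc, hci⟩ := h2 i hi.1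
        rcases Finset.mem_insert.1 hc with rfl | hc
        · rw [hi.2] at hci; cases hci
        · exact ⟨c, hc, hci⟩)
    have h4 := h1 a (Finset.mem_insert_self _ _)
    have h5 : l.countP p ≤ l.countP (fun i => p i && a.testBit i) +
        l.countP (fun i => !a.testBit i) := by
      clear h1 h3 h4 ih
      induction l with
      | nil => simp
      | cons x l ihl =>
        simp only [List.countP_cons]
        cases p x <;> cases a.testBit x <;> simp <;> omega
    rw [Finset.card_insert_of_notMem ha]
    omega

theorem nocov_sound : ∀ (n rem : ℕ), nocov n rem = true → ∀ S : Finset ℕ, (∀ c ∈ S, c ∈ gcms) →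
    S.card ≤ n → ∃ i, rem.testBit i = true ∧ ∀ c ∈ S, c.testBit i = true := by
  intro n
  induction n with
  | zero =>
    intro rem h S _ hS
    obtain rfl : S = ∅ := Finset.card_eq_zero.1 (by omega)
    obtain ⟨i, hi⟩ := Nat.exists_testBit_of_ne_zero (x := rem) (by simpa [nocov] using h)
    exact ⟨i, hi, by simp⟩
  | succ n ih =>
    intro rem h S hm hS
    have key : ∀ c ∈ S, nocov n (rem &&& c) = true →
        ∃ i, rem.testBit i = true ∧ ∀ c ∈ S, c.testBit i = true := by
      intro c hc h'
      obtain ⟨i, h1, h2⟩ := ih _ h' (S.erase c) (fun c' hc' => hm c' (Finset.mem_of_mem_erase hc'))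
        (by rw [Finset.card_erase_of_mem hc]; omega)
      rw [Nat.testBit_and, Bool.and_eq_true] at h1
      refine ⟨i, h1.1, fun c' hc' => ?_⟩
      by_cases e : c' = c
      · rw [e]; exact h1.2
      · exact h2 c' (Finset.mem_erase.2 ⟨e, hc'⟩)
    by_contra hn
    have hn' : ∀ i, rem.testBit i = true → ∃ c ∈ S, c.testBit i = false := by
      intro i hi
      by_contra hc
      exact hn ⟨i, hi, fun c hcS => by
        by_contra e
        exact hc ⟨c, hcS, by simpa using e⟩⟩
    unfold nocov at h
    split at h
    · rename_i e he
      by_cases hc : e.1 ∈ S
      · exact hn (key _ hc h)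
      · have h1 := List.find?_some he
        have h2 := countP_le_card e.2 S rem.testBit (fun c hcS => gel_meet e
          (List.mem_of_find?_eq_some he) c (hm c hcS) fun e' => hc (e' ▸ hcS)) hn'
        rw [gcnt_eq, Nat.blt_eq] at h1
        omega
    · split at h
      · rename_i i hi
        obtain ⟨c, hc, hci⟩ := hn' i (by rw [← tb_eq]; exact List.find?_some hi)
        have := List.all_eq_true.1 h c (hm c hc)
        rw [tb_eq, hci, Bool.false_or] at this
        exact hn (key c hc this)
      · cases h

def glab (y : Fin 9 × Fin 9) (s : Fin 9) : Fin 9 :=
  ⟨(y.2.1 % 3 + 2 * (s.1 % 3) * (y.1.1 % 3) + s.1 / 3 * (y.1.1 / 3)) % 3 +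
    3 * ((y.2.1 / 3 + 2 * (s.1 % 3 * (y.1.1 / 3) + s.1 / 3 * (y.1.1 % 3))) % 3), by omega⟩

def gcc : Fin 9 → Fin 9 := ![0, 0, 5, 3, 5, 4, 5, 3, 5]

def gL (l : Fin 9 × Fin 9) : ℕ := gcms.getD (9 * l.1.1 + l.2.1) 0
def gV (x : Fin 9) : ℕ := gcms.getD (81 + x.1) 0

theorem gc1 : nocov 8 gY = true := by decide +kernel

theorem gc2 : ∀ x s : Fin 9, nocov 7 (gY &&& gV x &&& gL (s, gcc s)) = true := by decide +kernel

end Vale.Agent.P045
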