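import Vale.Agent.P045.Geo
import Vale.Agent.P045.Prob

/-! Applications of `lemP`.  `Dp w` is the image under `cls` of the directions of the lines of
`pot true ∪ pot false` through `w` (in `killB` with `cls l.1` erased);
`good w C = false` if some line of `pot true` of class `C` passes through `w`, else `true`.
Remove from the set the `Dead` points (at most `R q` in total by `card_eq_sum`, at most `R` on
`l`) and, in `killB`, the at most `R` points of `l` on other lines of the class of `l`. -/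

namespace Vale.Agent.P045

open Finset
open scoped Classical

variable {P D X 𝒞 : Type} [Fintype P] [Fintype D] [Fintype X] [Fintype 𝒞]

/-- the classes of the potential lines through `w` -/
noncomputable def killDp (G : Pl P D X) (cls : D → 𝒞) (pot : Bool → Finset (D × X)) (w : P) :
    Finset 𝒞 :=
  ((pot true ∪ pot false).filter fun l => G.On l w).image fun l => cls l.1

/-- the harmless value of the bit of the class `C` for the point `w` -/
noncomputable def killGood (G : Pl P D X) (cls : D → 𝒞) (pot : Bool → Finset (D × X)) (w : P)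
    (C : 𝒞) : Bool :=
  if ∃ l ∈ pot true, cls l.1 = C ∧ G.On l w then false else true

omit [Fintype P] [Fintype D] [Fintype X] in
theorem kill_mem_union (pot : Bool → Finset (D × X)) {β : Bool} {l : D × X} (hl : l ∈ pot β) :
    l ∈ pot true ∪ pot false := by
  cases β
  · exact mem_union_right _ hl
  · exact mem_union_left _ hl

omit [Fintype 𝒞] in
theorem kill_mem_Dp {G : Pl P D X} {cls : D → 𝒞} {pot : Bool → Finset (D × X)} {w : P} {C : 𝒞} :
    C ∈ killDp G cls pot w ↔ ∃ l ∈ pot true ∪ pot false, cls l.1 = C ∧ G.On l w := by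
  unfold killDp
  rw [mem_image]
  constructor
  · rintro ⟨l, hl, e⟩
    exact ⟨l, (mem_filter.1 hl).1, e, (mem_filter.1 hl).2⟩
  · rintro ⟨l, hl, e, h⟩
    exact ⟨l, mem_filter.2 ⟨hl, h⟩, e⟩

omit [Fintype 𝒞] in
theorem kill_ne_good {G : Pl P D X} {cls : D → 𝒞} {pot : Bool → Finset (D × X)} {w : P}
    (hw : ¬Dead G cls pot w) {β : Bool} {l : D × X} (hl : l ∈ pot β) (hon : G.On l w) :
    β ≠ killGood G cls pot w (cls l.1) := by
  unfold killGood
  cases β
  · rw [if_neg]
    · exact Bool.false_ne_true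
    · rintro ⟨l', hl', e, h'⟩
      exact hw ⟨l', hl', l, hl, e, h', hon⟩
  · rw [if_pos ⟨l, hl, rfl, hon⟩]
    exact Bool.false_ne_true.symm

omit [Fintype 𝒞] in
theorem kill_card_dead {G : Pl P D X} {cls : D → 𝒞} {pot : Bool → Finset (D × X)} {R : ℕ}
    (h : PotOK G cls pot R) : (univ.filter (Dead G cls pot)).card ≤ R * Fintype.card X := by
  have hD : 0 < Fintype.card D := by
    have := G.cardD
    omega
  obtain ⟨d⟩ := Fintype.card_pos_iff.1 hD
  rw [G.card_eq_sum d, mul_comm, ← card_univ]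
  refine sum_le_card_nsmul _ _ _ fun c _ => le_trans (card_le_card fun w hw => ?_) (h.h3 (d, c))
  exact mem_filter.2 ⟨(mem_inter.1 hw).1, (mem_filter.1 (mem_inter.1 hw).2).2⟩

omit [Fintype 𝒞] in
/-- the points of `l` on other potential lines of a given class -/
theorem kill_card_other {G : Pl P D X} {cls : D → 𝒞} {pot : Bool → Finset (D × X)} {R : ℕ}
    (h : PotOK G cls pot R) (l : D × X) (C : 𝒞) :
    ((G.pts l).filter fun w => ∃ l' ∈ pot true ∪ pot false, cls l'.1 = C ∧ l' ≠ l ∧
      G.On l' w).card ≤ R := by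
  have hsub : ((G.pts l).filter fun w => ∃ l' ∈ pot true ∪ pot false, cls l'.1 = C ∧ l' ≠ l ∧
      G.On l' w) ⊆ (((pot true ∪ pot false).filter fun l' => cls l'.1 = C).erase l).biUnion
        fun l' => G.pts l' ∩ G.pts l := by
    intro w hw
    obtain ⟨hw1, l', a, b, c, e⟩ := mem_filter.1 hw
    exact mem_biUnion.2 ⟨l', mem_erase.2 ⟨c, mem_filter.2 ⟨a, b⟩⟩,
      mem_inter.2 ⟨(G.mem_pts _ _).2 e, hw1⟩⟩
  refine (card_le_card hsub).trans ((card_biUnion_le_card_mul _ _ 1 fun l' hl' =>
    G.card_inter_le (mem_erase.1 hl').1).trans ?_)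
  rw [mul_one]
  exact card_erase_le.trans (h.h1 C)

/-- few choices of the bits kill a given large set of points -/
theorem killA (G : Pl P D X) (cls : D → 𝒞) (pot : Bool → Finset (D × X)) {R : ℕ}
    (h : PotOK G cls pot R) (U : Finset P) (g : ℕ)
    (hg : g * (R * (R * Fintype.card X) + 1) + R * Fintype.card X ≤ U.card) :
    ((univ.filter fun b : 𝒞 → Bool => ∀ w ∈ U, ∃ l ∈ pot (b (cls l.1)), G.On l w).card : ℝ) ≤
      2 ^ Fintype.card 𝒞 * (1 - 1 / 2 ^ R) ^ g := by
  refine le_trans ?_ (lemP (U \ univ.filter (Dead G cls pot)) (killDp G cls pot)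
    (killGood G cls pot) R (R * Fintype.card X) g (fun w _ => card_image_le.trans (h.h2 w))
    (fun C => ?_) ?_)
  · refine Nat.cast_le.2 (card_le_card fun b hb => ?_)
    simp only [mem_filter, mem_univ, true_and] at hb
    refine (@mem_filter _ _ (_) _ _).2 ⟨mem_univ _, fun w hw => ?_⟩
    obtain ⟨hw1, hw2⟩ := mem_sdiff.1 hw
    obtain ⟨l, hl, hon⟩ := hb w hw1
    exact ⟨cls l.1, kill_mem_Dp.2 ⟨l, kill_mem_union pot hl, rfl, hon⟩,
      kill_ne_good (fun hd => hw2 (mem_filter.2 ⟨mem_univ _, hd⟩)) hl hon⟩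
  · have hsub : ((U \ univ.filter (Dead G cls pot)).filter fun w => C ∈ killDp G cls pot w) ⊆
        ((pot true ∪ pot false).filter fun l => cls l.1 = C).biUnion fun l => G.pts l := by
      intro w hw
      obtain ⟨l, a, b, c⟩ := kill_mem_Dp.1 (mem_filter.1 hw).2
      exact mem_biUnion.2 ⟨l, mem_filter.2 ⟨a, b⟩, (G.mem_pts _ _).2 c⟩
    refine (card_le_card hsub).trans ((card_biUnion_le_card_mul _ _ (Fintype.card X)
      fun l _ => (G.card_pts l).le).trans ?_)
    exact Nat.mul_le_mul_right _ (h.h1 C)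
  · have h1 := le_card_sdiff (univ.filter (Dead G cls pot)) U
    have h2 := kill_card_dead h
    omega

/-- few choices of the bits kill most points of a line `l` by lines other than `l` -/
theorem killB (G : Pl P D X) (cls : D → 𝒞) (pot : Bool → Finset (D × X)) {R : ℕ}
    (h : PotOK G cls pot R) (l : D × X) (S : Finset P) (g : ℕ)
    (hg : g * (R * R + 1) + 2 * R + S.card ≤ Fintype.card X) :
    ((univ.filter fun b : 𝒞 → Bool => ∀ w ∈ G.pts l \ S, ∃ l' ∈ pot (b (cls l'.1)), l' ≠ l ∧
      G.On l' w).card : ℝ) ≤ 2 ^ Fintype.card 𝒞 * (1 - 1 / 2 ^ R) ^ g := by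
  set A := (G.pts l).filter (Dead G cls pot) with hA
  set B := (G.pts l).filter fun w => ∃ l' ∈ pot true ∪ pot false, cls l'.1 = cls l.1 ∧ l' ≠ l ∧
    G.On l' w with hB
  refine le_trans ?_ (lemP (((G.pts l \ S) \ A) \ B)
    (fun w => (killDp G cls pot w).erase (cls l.1)) (killGood G cls pot) R R g
    (fun w _ => card_erase_le.trans (card_image_le.trans (h.h2 w))) (fun C => ?_) ?_)
  · refine Nat.cast_le.2 (card_le_card fun b hb => ?_)
    simp only [mem_filter, mem_univ, true_and] at hb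
    refine (@mem_filter _ _ (_) _ _).2 ⟨mem_univ _, fun w hw => ?_⟩
    obtain ⟨hw0, hw3⟩ := mem_sdiff.1 hw
    obtain ⟨hw1, hw2⟩ := mem_sdiff.1 hw0
    have hwl := (mem_sdiff.1 hw1).1
    obtain ⟨l', hl, hne, hon⟩ := hb w hw1
    have hu := kill_mem_union pot hl
    refine ⟨cls l'.1, mem_erase.2 ⟨fun e => hw3 (mem_filter.2 ⟨hwl, l', hu, e, hne, hon⟩),
      kill_mem_Dp.2 ⟨l', hu, rfl, hon⟩⟩,
      kill_ne_good (fun hd => hw2 (mem_filter.2 ⟨hwl, hd⟩)) hl hon⟩
  · refine le_trans (card_le_card fun w hw => ?_) (kill_card_other h l C)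
    obtain ⟨hw, hC⟩ := mem_filter.1 hw
    obtain ⟨hC1, hC2⟩ := mem_erase.1 hC
    obtain ⟨l', a, b, c⟩ := kill_mem_Dp.1 hC2
    refine mem_filter.2 ⟨(mem_sdiff.1 (mem_sdiff.1 (mem_sdiff.1 hw).1).1).1, l', a, b, ?_, c⟩
    rintro rfl
    exact hC1 b.symm
  · have h1 := le_card_sdiff S (G.pts l)
    have h2 := le_card_sdiff A (G.pts l \ S)
    have h3 := le_card_sdiff B ((G.pts l \ S) \ A)
    have h4 : A.card ≤ R := h.h3 l
    have h5 : B.card ≤ R := kill_card_other h l (cls l.1)
    rw [G.card_pts] at h1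
    omega

end Vale.Agent.P045
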