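import Vale.Agent.P045.Circ

/-! Kloosterman sums by the fourth moment.  Let `ψ x = (-1) ^ tr x : ℝ` (or `ℤ`), an additive
character with `∑ x, ψ (a x) = 0` for `a ≠ 0` (`tr 1 = 1`), and `Kl a b = ∑ x ≠ 0, ψ (a x + b / x)`.
* `∑ a b, Kl a b ^ 4 = q ^ 2 * N` with `N` the number of `(x₁, .., x₄)`, all nonzero, with
  `∑ xᵢ = 0 = ∑ 1 / xᵢ`; `N ≤ 3 q ^ 2` (if `x₁ + x₂ = x₃ + x₄ ≠ 0` then `x₁ x₂ = x₃ x₄`, so
  `{x₃, x₄} = {x₁, x₂}`; characteristic 2).
* `Kl (a s) (b / s) = Kl a b`, so `(q - 1) Kl a b ^ 4 ≤ 3 q ^ 4` when `(a, b) ≠ 0` (the pairs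
  `(a s, b / s)` are different).
* Substitute `x ^ 2 ↦ x` (`exists_sq`, `sq_inj2`) and expand
  `∏ β ∈ B1, (1 + ψ (β x)) * ∏ β ∈ B2, (1 + ψ (β / x))` (`Finset.prod_add_one` or
  `prod_one_add`): `2 ^ (card B1 + card B2) * count = ∑ S1 ⊆ B1, ∑ S2 ⊆ B2, Kl (∑ S1) (∑ S2)`; the
  term `S1 = S2 = ∅` is `q - 1`, the others are `q - 1` or at least `-(6 q ^ 3) ^ (1 / 4)`. -/

namespace Vale.Agent.P045

open Finset
open scoped Classical

section

variable {F : Type} [Field F] {tr : F →+ ZMod 2}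

/-- the sign character -/
def klPsi (tr : F →+ ZMod 2) (x : F) : ℤ := if tr x = 0 then 1 else -1

theorem klPsi_zero : klPsi tr 0 = 1 := by simp [klPsi]

theorem klPsi_add (x y : F) : klPsi tr (x + y) = klPsi tr x * klPsi tr y := by
  unfold klPsi
  rw [map_add]
  generalize tr x = a
  generalize tr y = b
  revert a b
  decide

theorem klPsi_sum (S : Finset F) (x : F) :
    klPsi tr ((∑ β ∈ S, β) * x) = ∏ β ∈ S, klPsi tr (β * x) := by
  induction S using Finset.induction_on with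
  | empty => simp [klPsi_zero]
  | insert a S ha ih => rw [sum_insert ha, prod_insert ha, add_mul, klPsi_add, ih]

variable [Fintype F]

theorem klPsi_orth (htr : IsTr tr) (c : F) :
    ∑ a, klPsi tr (a * c) = if c = 0 then (Fintype.card F : ℤ) else 0 := by
  split_ifs with hc
  · simp [hc, klPsi_zero]
  · have h1 : klPsi tr 1 = -1 := by simp [klPsi, htr.one]
    have h2 : ∑ a, klPsi tr (a * c) = ∑ a, klPsi tr ((a + c⁻¹) * c) :=
      (Equiv.sum_comp (Equiv.addRight c⁻¹) fun a => klPsi tr (a * c)).symm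
    simp only [add_mul, inv_mul_cancel₀ hc, klPsi_add, h1, mul_neg, mul_one, sum_neg_distrib] at h2
    linarith

theorem kl_parseval [CharP F 2] (htr : IsTr tr) {ι : Type} (I : Finset ι) (u v : ι → F) :
    ∑ a, ∑ b, (∑ i ∈ I, klPsi tr (a * u i + b * v i)) ^ 2 =
      (Fintype.card F : ℤ) ^ 2 * ∑ i ∈ I, ((I.filter fun j => u i = u j ∧ v i = v j).card : ℤ) := by
  have h1 : ∀ a b, (∑ i ∈ I, klPsi tr (a * u i + b * v i)) ^ 2 =
      ∑ i ∈ I, ∑ j ∈ I, klPsi tr (a * (u i + u j)) * klPsi tr (b * (v i + v j)) := by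
    intro a b
    rw [sq, sum_mul_sum]
    refine sum_congr rfl fun i _ => sum_congr rfl fun j _ => ?_
    rw [← klPsi_add, ← klPsi_add]
    congr 1
    ring
  simp only [h1]
  have h2 : ∀ i j, ∑ a, ∑ b, klPsi tr (a * (u i + u j)) * klPsi tr (b * (v i + v j)) =
      (Fintype.card F : ℤ) ^ 2 * if u i = u j ∧ v i = v j then 1 else 0 := by
    intro i j
    rw [← sum_mul_sum, klPsi_orth htr, klPsi_orth htr]
    simp only [CharTwo.add_eq_zero]
    by_cases h1 : u i = u j <;> by_cases h2 : v i = v j <;> simp [h1, h2, sq]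
  calc _ = ∑ i ∈ I, ∑ j ∈ I, ∑ a, ∑ b,
        klPsi tr (a * (u i + u j)) * klPsi tr (b * (v i + v j)) := by
        simp only [sum_comm (s := (univ : Finset F)) (t := I)]
    _ = _ := by
        simp only [h2]
        simp only [← mul_sum, sum_boole]

/-- the Kloosterman sum -/
noncomputable def klSum (tr : F →+ ZMod 2) (a b : F) : ℤ :=
  ∑ x ∈ univ.erase 0, klPsi tr (a * x + b * x⁻¹)

theorem kl_four [CharP F 2] (htr : IsTr tr) :
    ∑ a, ∑ b, klSum tr a b ^ 4 ≤ 3 * (Fintype.card F : ℤ) ^ 4 := by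
  have h1 : ∀ a b, klSum tr a b ^ 4 = (∑ p ∈ (univ.erase (0 : F)) ×ˢ (univ.erase (0 : F)),
      klPsi tr (a * (p.1 + p.2) + b * (p.1⁻¹ + p.2⁻¹))) ^ 2 := by
    intro a b
    rw [show klSum tr a b ^ 4 = (klSum tr a b * klSum tr a b) ^ 2 by ring, klSum, sum_mul_sum,
      sum_product]
    congr 1
    refine sum_congr rfl fun x _ => sum_congr rfl fun y _ => ?_
    rw [← klPsi_add]
    congr 1
    ring
  simp only [h1]
  rw [kl_parseval htr _ (fun p : F × F => p.1 + p.2) fun p => p.1⁻¹ + p.2⁻¹]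
  have h2 : ∀ p ∈ (univ.erase (0 : F)) ×ˢ (univ.erase (0 : F)),
      (((univ.erase (0 : F)) ×ˢ (univ.erase (0 : F))).filter fun p' =>
        p.1 + p.2 = p'.1 + p'.2 ∧ p.1⁻¹ + p.2⁻¹ = p'.1⁻¹ + p'.2⁻¹).card ≤
      2 + if p.1 = p.2 then Fintype.card F else 0 := by
    rintro ⟨x, y⟩ hp
    simp only [mem_product, mem_erase, mem_univ, and_true] at hp
    split_ifs with hxy
    · refine le_trans (card_le_card_of_injOn (fun p => p.1) (fun _ _ => mem_coe.2 (mem_univ _))
        fun p hp p' hp' e => ?_) (by rw [card_univ]; omega)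
      have e1 := (mem_filter.1 (mem_coe.1 hp)).2.1
      have e2 := (mem_filter.1 (mem_coe.1 hp')).2.1
      refine Prod.ext e ?_
      simp only at e e1 e2
      linear_combination e2 - e1 - e
    · refine le_trans (card_le_card (t := {(x, y), (y, x)}) ?_) card_le_two
      rintro ⟨z, w⟩ hz
      simp only [mem_filter, mem_product, mem_erase, mem_univ, and_true] at hz
      obtain ⟨⟨hz0, hw0⟩, e1, e2⟩ := hz
      have hs : x + y ≠ 0 := fun h => hxy (CharTwo.add_eq_zero.1 h)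
      have hx0 := hp.1
      have hy0 := hp.2
      have e3 : z * w = x * y := by
        apply mul_left_cancel₀ hs
        field_simp at e2
        linear_combination e2 - x * y * e1
      have e4 : (z - x) * (z - y) = 0 := by linear_combination -e3 - z * e1
      simp only [mem_insert, mem_singleton, Prod.mk.injEq]
      rcases mul_eq_zero.1 e4 with h | h
      · exact Or.inl ⟨sub_eq_zero.1 h, by linear_combination -e1 - h⟩
      · exact Or.inr ⟨sub_eq_zero.1 h, by linear_combination -e1 - h⟩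
  have h3 := (sum_le_sum h2).trans (sum_le_sum_of_subset (subset_univ _))
  rw [sum_add_distrib, sum_const, card_univ, Fintype.card_prod, Fintype.sum_prod_type] at h3
  simp only [sum_ite_eq, mem_univ, if_true, sum_const, card_univ, smul_eq_mul] at h3
  have h4 := (Int.ofNat_le.2 h3)
  push_cast at h4
  calc _ ≤ (Fintype.card F : ℤ) ^ 2 * (3 * (Fintype.card F : ℤ) ^ 2) :=
        mul_le_mul_of_nonneg_left (by linarith) (by positivity)
    _ = _ := by ring

theorem kl_scale (a b : F) {s : F} (hs : s ≠ 0) : klSum tr (a * s) (b * s⁻¹) = klSum tr a b := by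
  unfold klSum
  refine sum_bij (fun x _ => s * x) (fun x hx => ?_) (fun x _ y _ e => mul_left_cancel₀ hs e)
    (fun y hy => ⟨s⁻¹ * y, ?_, mul_inv_cancel_left₀ hs y⟩) fun x _ => ?_
  · simp only [mem_erase, mem_univ, and_true] at hx ⊢
    exact mul_ne_zero hs hx
  · simp only [mem_erase, mem_univ, and_true] at hy ⊢
    exact mul_ne_zero (inv_ne_zero hs) hy
  · rw [mul_inv, mul_assoc, mul_assoc]

theorem kl_bound [CharP F 2] (htr : IsTr tr) {a b : F} (h : ¬(a = 0 ∧ b = 0)) :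
    ((Fintype.card F : ℤ) - 1) * klSum tr a b ^ 4 ≤ 3 * (Fintype.card F : ℤ) ^ 4 := by
  refine le_trans ?_ (kl_four htr)
  rw [← Fintype.sum_prod_type' (f := fun a b => klSum tr a b ^ 4)]
  have hinj : Set.InjOn (fun s : F => (a * s, b * s⁻¹)) (univ.erase (0 : F) : Finset F) := by
    intro s _ s' _ e
    by_cases ha : a = 0
    · exact inv_injective (mul_left_cancel₀ (fun hb => h ⟨ha, hb⟩) (congrArg Prod.snd e))
    · exact mul_left_cancel₀ ha (congrArg Prod.fst e)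
  refine le_trans (le_of_eq ?_) (sum_le_sum_of_subset_of_nonneg
    (subset_univ ((univ.erase (0 : F)).image fun s : F => (a * s, b * s⁻¹)))
    fun _ _ _ => by positivity)
  rw [sum_image hinj, sum_congr rfl fun s hs => by rw [kl_scale a b (mem_erase.1 hs).1],
    sum_const, card_erase_of_mem (mem_univ _), card_univ, nsmul_eq_mul,
    Nat.cast_pred Fintype.card_pos]

theorem kl_zero : klSum tr 0 0 = (Fintype.card F : ℤ) - 1 := by
  simp only [klSum, zero_mul, add_zero, klPsi_zero]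
  rw [sum_const, card_erase_of_mem (mem_univ _), card_univ, nsmul_eq_mul,
    Nat.cast_pred Fintype.card_pos, mul_one]

theorem kl_lower [CharP F 2] (htr : IsTr tr) {D : ℤ} (hD : 0 < D)
    (hq : 3 * D ^ 4 + 1 ≤ Fintype.card F) (a b : F) : 0 ≤ D * klSum tr a b + Fintype.card F := by
  have hD4 : 0 < D ^ 4 := by positivity
  have hq0 : (0 : ℤ) < Fintype.card F := by linarith
  by_cases h : a = 0 ∧ b = 0
  · rw [h.1, h.2, kl_zero]
    have : 0 ≤ D * ((Fintype.card F : ℤ) - 1) := mul_nonneg hD.le (by linarith)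
    linarith
  by_contra hc
  have h1 := kl_bound htr h
  have h2 : (Fintype.card F : ℤ) ^ 4 < (-(D * klSum tr a b)) ^ 4 :=
    pow_lt_pow_left₀ (by linarith) hq0.le (by norm_num)
  have h3 : (-(D * klSum tr a b)) ^ 4 = D ^ 4 * klSum tr a b ^ 4 := by ring
  rw [h3] at h2
  have h4 : (0 : ℤ) < (Fintype.card F : ℤ) ^ 4 := by positivity
  have h5 := mul_lt_mul_of_pos_left h2 (show (0 : ℤ) < (Fintype.card F : ℤ) - 1 by linarith)
  have h6 := mul_le_mul_of_nonneg_left h1 hD4.le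
  have h7 := mul_le_mul_of_nonneg_right (show 3 * D ^ 4 ≤ (Fintype.card F : ℤ) - 1 by linarith)
    h4.le
  nlinarith

theorem kl_prod (B : Finset F) (x : F) : ∏ β ∈ B, (1 + klPsi tr (β * x)) =
    if ∀ β ∈ B, tr (β * x) = 0 then 2 ^ B.card else 0 := by
  split_ifs with h
  · rw [← prod_const]
    exact prod_congr rfl fun β hβ => by simp [klPsi, h β hβ]
  · push Not at h
    obtain ⟨β, hβ, h⟩ := h
    exact prod_eq_zero hβ (by simp [klPsi, h])

end

theorem kloos (M : ℕ) : ∃ q0 : ℕ, ∀ {F : Type} [Field F] [Fintype F] [CharP F 2]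
    {tr : F →+ ZMod 2}, IsTr tr → q0 ≤ Fintype.card F → ∀ B1 B2 : Finset F, B1.card ≤ M →
    B2.card ≤ M → Fintype.card F ≤ 2 * 4 ^ M * (univ.filter fun x : F => x ≠ 0 ∧
      (∀ β ∈ B1, tr (β * x ^ 2) = 0) ∧ ∀ β ∈ B2, tr (β / x ^ 2) = 0).card := by
  refine ⟨3 * (4 * 4 ^ M) ^ 4 + 4, fun {F} _ _ _ tr htr hq B1 B2 h1 h2 => ?_⟩
  have hq' : 3 * (4 * 4 ^ M : ℤ) ^ 4 + 4 ≤ Fintype.card F := by exact_mod_cast hq
  have hD : (0 : ℤ) < 4 * 4 ^ M := by positivity
  have hq4 : (4 : ℤ) ≤ Fintype.card F := by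
    have : (0 : ℤ) ≤ 3 * (4 * 4 ^ M) ^ 4 := by positivity
    linarith
  obtain ⟨G, hG⟩ : ∃ G, G = (univ.erase (0 : F)).filter fun x =>
    (∀ β ∈ B1, tr (β * x) = 0) ∧ ∀ β ∈ B2, tr (β * x⁻¹) = 0 := ⟨_, rfl⟩
  have hGc : G.card ≤ (univ.filter fun x : F => x ≠ 0 ∧
      (∀ β ∈ B1, tr (β * x ^ 2) = 0) ∧ ∀ β ∈ B2, tr (β / x ^ 2) = 0).card := by
    refine card_le_card_of_surjOn (fun x => x ^ 2) fun y hy => ?_
    obtain ⟨x, rfl⟩ := exists_sq y
    rw [hG] at hy
    simp only [coe_filter, mem_erase, mem_univ, and_true, Set.mem_ofPred_eq] at hy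
    refine ⟨x, ?_, rfl⟩
    simp only [coe_filter, mem_univ, true_and, Set.mem_ofPred_eq, div_eq_mul_inv]
    exact ⟨fun h => hy.1 (by simp [h]), hy.2⟩
  have hT : ∑ S ∈ B1.powerset ×ˢ B2.powerset, klSum tr (∑ β ∈ S.1, β) (∑ β ∈ S.2, β) =
      2 ^ B1.card * 2 ^ B2.card * G.card := by
    simp only [klSum]
    rw [sum_comm]
    have : ∀ x : F, ∑ S ∈ B1.powerset ×ˢ B2.powerset,
        klPsi tr ((∑ β ∈ S.1, β) * x + (∑ β ∈ S.2, β) * x⁻¹) =
        2 ^ B1.card * 2 ^ B2.card * if (∀ β ∈ B1, tr (β * x) = 0) ∧ ∀ β ∈ B2, tr (β * x⁻¹) = 0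
          then 1 else 0 := by
      intro x
      simp only [klPsi_add, klPsi_sum]
      rw [sum_product, ← sum_mul_sum (f := fun S => ∏ β ∈ S, klPsi tr (β * x))
        (g := fun S => ∏ β ∈ S, klPsi tr (β * x⁻¹)), ← prod_one_add, ← prod_one_add, kl_prod,
        kl_prod]
      by_cases e1 : ∀ β ∈ B1, tr (β * x) = 0 <;> by_cases e2 : ∀ β ∈ B2, tr (β * x⁻¹) = 0
      · rw [if_pos e1, if_pos e2, if_pos ⟨e1, e2⟩, mul_one]
      · rw [if_neg e2, if_neg (not_and_of_not_right _ e2), mul_zero, mul_zero]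
      · rw [if_neg e1, if_neg (not_and_of_not_left _ e1), zero_mul, mul_zero]
      · rw [if_neg e2, if_neg (not_and_of_not_right _ e2), mul_zero, mul_zero]
    simp only [this]
    rw [← mul_sum, sum_boole, hG]
  have hS := single_le_sum (s := B1.powerset ×ˢ B2.powerset)
    (f := fun S => 4 * 4 ^ M * klSum tr (∑ β ∈ S.1, β) (∑ β ∈ S.2, β) + Fintype.card F)
    (fun S _ => kl_lower htr hD (by linarith) _ _) (a := (∅, ∅)) (by simp)
  rw [sum_add_distrib, ← mul_sum, hT, sum_const, card_product, card_powerset, card_powerset] at hS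
  simp only [sum_empty, kl_zero, nsmul_eq_mul] at hS
  push_cast at hS
  have hP : (2 : ℤ) ^ B1.card * 2 ^ B2.card ≤ 4 ^ M := by
    rw [show (4 : ℤ) = 2 * 2 by norm_num, mul_pow]
    exact mul_le_mul (pow_le_pow_right₀ (by norm_num) h1) (pow_le_pow_right₀ (by norm_num) h2)
      (by positivity) (by positivity)
  have hM : (0 : ℤ) < 4 ^ M := by positivity
  have hG0 : (0 : ℤ) ≤ G.card := by positivity
  have h5 : (4 : ℤ) ^ M * (4 * ((Fintype.card F : ℤ) - 1)) ≤
      4 ^ M * (4 * (4 ^ M * G.card) + Fintype.card F) := by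
    have e1 := mul_le_mul_of_nonneg_right hP hG0
    have e2 := mul_le_mul_of_nonneg_right hP (show (0 : ℤ) ≤ Fintype.card F by linarith)
    have e3 := mul_le_mul_of_nonneg_left e1 hD.le
    nlinarith
  have h6 := le_of_mul_le_mul_left h5 hM
  have h7 : (Fintype.card F : ℤ) ≤ 2 * 4 ^ M * G.card := by linarith
  refine le_trans ?_ (Nat.mul_le_mul_left _ hGc)
  exact_mod_cast h7

end Vale.Agent.P045
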