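import Vale.Agent.P045.Cfg

/-! `card_Lam`: fix `θ, p` (`9 * 64` choices), put `v = t + ι p`, `y = det θ v ≠ 0`.  Then
`a = det (u θ) x / y` is determined by `u`, and `u` is a unit zero of the binary quadratic form
`Q u = det (u θ) x * (u v).im - c y nm u`.  `Q` is not the zero form, so `quad_un` applies:
if `Q` vanished identically, for `c ≠ 0` evaluate at `u = star v ≠ 0` (`(u v).im = 0`,
`nm_eq_zero`); for `c = 0` we have `x ≠ 0`, and a product of two nonzero linear forms is nonzero
(look at the three coefficients).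
`card_Phi1`: for fixed `θ, p, p'` use `det_mul_right` and `line_un`. -/

namespace Vale.Agent.P045

open Finset
open scoped Classical

variable {K F : Type} [Field K] [Fintype K] [CharP K 2] [Field F] [Fintype F] [CharP F 2]
  {tr : F →+ ZMod 2} {ι : K →+* F}

theorem lam_quad (htr : IsTr tr) (θ : Un F) {v x : Pt F} {c : F} (hv : v ≠ 0) (hy : det θ.1 v ≠ 0)
    (hx : x.im ≠ c) : (univ.filter fun u : Un F =>
      det (u.1 * θ.1) x * (u.1 * v).im = c * det θ.1 v * nm u.1).card ≤ 3 := by
  set α := det θ.1 x with hα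
  set β := det (⟨0, 1⟩ * θ.1) x with hβ
  set y := det θ.1 v with hyd
  have key : ∀ w : Pt F, det (w * θ.1) x * (w * v).im - c * y * nm w =
      (α * v.im - c * y) * w.re ^ 2 + (α * (v.re - v.im) + β * v.im + c * y) * (w.re * w.im) +
        (β * (v.re - v.im) - c * y) * w.im ^ 2 := by
    intro w
    simp [hα, hβ, det, nm]
    ring
  refine le_trans (card_le_card fun u hu => ?_) (quad_un (α * v.im - c * y)
    (α * (v.re - v.im) + β * v.im + c * y) (β * (v.re - v.im) - c * y) ?_)
  · refine mem_filter.2 ⟨mem_univ _, ?_⟩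
    rw [← key, (mem_filter.1 hu).2, sub_self]
  · rintro ⟨h1, h2, h3⟩
    have h4 := key (star v)
    rw [h1, h2, h3, nm_star, show (star v * v).im = 0 by simp; ring] at h4
    have hc : c = 0 := by
      have : c * y * nm v = 0 := by linear_combination -h4
      rcases mul_eq_zero.1 this with h | h
      · exact (mul_eq_zero.1 h).resolve_right hy
      · exact absurd (htr.nm_eq_zero h) hv
    subst hc
    have hv' : ¬(v.im = 0 ∧ v.re - v.im = 0) := fun h =>
      hv (Pt.ext' (by simpa [h.1] using h.2) h.1)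
    simp only [zero_mul, sub_zero, add_zero] at h1 h2 h3
    by_cases ha : α = 0
    · by_cases hb : β = 0
      · have h5 : det θ.1 (⟨0, 1⟩ * θ.1) ≠ 0 := by
          have := nm_un θ
          simp only [nm] at this
          simp [det]
          intro h
          exact one_ne_zero (by linear_combination h - this : (1 : F) = 0)
        have : x = 0 := eq_of_det h5 (by rw [det_zero, ← hα, ha]) (by rw [det_zero, ← hβ, hb])
        exact hx (by rw [this]; rfl)
      · rw [ha, zero_mul, zero_add] at h2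
        exact hv' ⟨(mul_eq_zero.1 h2).resolve_left hb, (mul_eq_zero.1 h3).resolve_left hb⟩
    · have h5 := (mul_eq_zero.1 h1).resolve_left ha
      refine hv' ⟨h5, (mul_eq_zero.1 ?_).resolve_left ha⟩
      rw [← h2, h5, mul_zero, add_zero]

theorem card_Lam (htr : IsTr tr) (hK : Fintype.card K = 8) {t : Pt F}
    (ht : ∀ (θ : Un K) (k : K), det (mapPt ι θ.1) t ≠ ι k) (x : Pt F) (c : F) (hx : x.im ≠ c) :
    (Lam ι t x c).card ≤ 1728 := by
  have hcard : Fintype.card (Un K × Pt K) = 576 := by
    rw [Fintype.card_prod, (htr.comp ι).card_Un, card_Pt, hK]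
    rfl
  let Z : Un K × Pt K → Finset (Un F) := fun s => univ.filter fun u : Un F =>
    det (u.1 * mapPt ι s.1.1) x * (u.1 * (t + mapPt ι s.2)).im =
      c * det (mapPt ι s.1.1) (t + mapPt ι s.2) * nm u.1
  have hZ : ∀ s, (Z s).card ≤ 3 := fun s =>
    lam_quad htr (mapUn ι s.1) (shift_ne ht s.2) (det_shift_ne ht s.1 s.2) hx
  have hsub : Lam ι t x c ⊆ univ.biUnion fun s : Un K × Pt K => (Z s).image fun u =>
      det (u.1 * mapPt ι s.1.1) x / det (mapPt ι s.1.1) (t + mapPt ι s.2) := by
    intro a ha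
    simp only [Lam, mem_filter, mem_univ, true_and] at ha
    obtain ⟨u, θ, p, h1, h2⟩ := ha
    refine mem_biUnion.2 ⟨(θ, p), mem_univ _, mem_image.2 ⟨u, mem_filter.2 ⟨mem_univ _, ?_⟩, ?_⟩⟩
    · rw [h2, nm_un, ← h1, QuadraticAlgebra.im_smul, smul_eq_mul]
      ring
    · rw [h2, mul_div_cancel_right₀ _ (det_shift_ne ht θ p)]
  refine (card_le_card hsub).trans ((card_biUnion_le_card_mul _ _ 3 fun s _ =>
    card_image_le.trans (hZ s)).trans ?_)
  rw [card_univ, hcard]

theorem card_Phi1 (htr : IsTr tr) (hK : Fintype.card K = 8) {t : Pt F}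
    (ht : ∀ (θ : Un K) (k : K), det (mapPt ι θ.1) t ≠ ι k) : (Phi1 ι t).card ≤ 73728 := by
  have hcard : Fintype.card (Un K × Pt K × Pt K) = 36864 := by
    rw [Fintype.card_prod, Fintype.card_prod, (htr.comp ι).card_Un, card_Pt, hK]
    rfl
  have hsub : Phi1 ι t ⊆ univ.biUnion fun s : Un K × Pt K × Pt K => univ.filter fun ρ : Un F =>
      det (mapPt ι s.1.1 * star (t + mapPt ι s.2.2)) ρ.1 = det (mapPt ι s.1.1) (t + mapPt ι s.2.1) := by
    intro ρ hρ
    simp only [Phi1, mem_filter, mem_univ, true_and] at hρ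
    obtain ⟨θ, p, p', h⟩ := hρ
    refine mem_biUnion.2 ⟨(θ, p, p'), mem_univ _, mem_filter.2 ⟨mem_univ _, ?_⟩⟩
    rw [← det_mul_right]
    exact h
  refine (card_le_card hsub).trans ((card_biUnion_le_card_mul _ _ 2 fun s _ =>
    htr.line_un (fun h => ?_) _).trans ?_)
  · exact shift_ne ht s.2.2 (star_eq_zero.1 (un_mul_eq_zero (mapUn ι s.1) h))
  · rw [card_univ, hcard]

end Vale.Agent.P045
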