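import Vale.Agent.P045.Cfg
import Vale.Agent.P045.Arc

/-! Bounds for the potential lines.  Offsets of potential lines lie in
`Cs = {lam τ * det θ (t + p)}`, nonzero, `card Cs ≤ m = 2 N * 576`; `R = 2 ^ m + 2 N * 576 ^ 2 +
2 m + 1152` (or anything larger).
`h1`: a line of class `C` is determined by `(β, θ, p)` (`π_loc`).  `h2`: for each `c ∈ Cs` at most
two unit vectors `v` have `det v w = c` (`line_un`, `det_comm`, `w ≠ 0`).
`h3`: a dead `w` is on `((C, θ), lam (k, true) * y)` and `((C, θ'), lam (k, false) * y')`.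
`θ = θ'` is impossible (`not_on`: the location defining the first line would be on the second).
Otherwise `w' = C.out⁻¹ w` is determined by `(k, θ, p, θ', p')` (`eq_of_det`, `un_eq_of_det`) and
`nm w = nm w'` takes at most `N * 576 ^ 2` values; a line meets each circle `nm = const` in at most
two points (`line_circle`).  `arc`: `arc`. -/

namespace Vale.Agent.P045

open Finset
open scoped Classical

section
variable {K F : Type} [Field K] [Fintype K] [Field F] [Fintype F] [CharP F 2] {tr : F →+ ZMod 2}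
  {ι : K →+* F} {N : ℕ}

/-- the possible offsets of potential lines -/
noncomputable def Cfg.offP (g : Cfg tr ι N) (x : (Fin N × Bool) × Un K × Pt K) : F :=
  g.lam x.1 * det (mapPt ι x.2.1.1) (g.t + mapPt ι x.2.2)

theorem Cfg.mem_potP (g : Cfg tr ι N) (htr : IsTr tr) {β : Bool} {l : (Cl ι × Un K) × F}
    (h : l ∈ g.pot htr β) : ∃ p, l.2 = (plane htr (vec ι)).π l.1 (g.loc β l.1.1 p) ∧
      l.2 = g.offP ((g.χ l.1.1, β), l.1.2, p) := by
  obtain ⟨p, hp⟩ := (mem_filter.1 h).2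
  exact ⟨p, hp.symm, hp.symm.trans (g.π_loc htr β l.1.1 l.1.2 p)⟩

theorem Cfg.mem_potP' (g : Cfg tr ι N) (htr : IsTr tr) {l : (Cl ι × Un K) × F}
    (h : l ∈ g.pot htr true ∨ l ∈ g.pot htr false) :
    ∃ β p, l.2 = g.offP ((g.χ l.1.1, β), l.1.2, p) := by
  rcases h with h | h <;> obtain ⟨p, -, hp⟩ := g.mem_potP htr h <;> exact ⟨_, p, hp⟩

omit [Fintype K] [CharP F 2] in
theorem Cfg.offP_ne (g : Cfg tr ι N) (x : (Fin N × Bool) × Un K × Pt K) : g.offP x ≠ 0 :=
  mul_ne_zero (g.lam0 _) (det_shift_ne g.ht _ _)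

theorem Cfg.potP_h1 (g : Cfg tr ι N) (htr : IsTr tr) (C : Cl ι) (L : Finset ((Cl ι × Un K) × F))
    (hL : ∀ l ∈ L, (l ∈ g.pot htr true ∨ l ∈ g.pot htr false) ∧ l.1.1 = C) :
    L.card ≤ 2 * Fintype.card (Un K × Pt K) := by
  refine le_trans (card_le_card (t := univ.image fun x : Bool × Un K × Pt K =>
    ((C, x.2.1), g.offP ((g.χ C, x.1), x.2))) fun l hl => ?_) (card_image_le.trans ?_)
  · obtain ⟨h1, rfl⟩ := hL l hl
    obtain ⟨β, p, hp⟩ := g.mem_potP' htr h1
    exact mem_image.2 ⟨(β, l.1.2, p), mem_univ _, Prod.ext rfl hp.symm⟩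
  · rw [card_univ, Fintype.card_prod, Fintype.card_bool]

theorem Cfg.potP_h2 (g : Cfg tr ι N) (htr : IsTr tr) (w : Pt F) (L : Finset ((Cl ι × Un K) × F))
    (hL : ∀ l ∈ L, (l ∈ g.pot htr true ∨ l ∈ g.pot htr false) ∧ (plane htr (vec ι)).On l w) :
    L.card ≤ Fintype.card ((Fin N × Bool) × Un K × Pt K) * 2 := by
  by_cases hw : w = 0
  · rw [eq_empty_of_forall_notMem (s := L), card_empty]
    · exact Nat.zero_le _
    · intro l hl
      obtain ⟨β, p, hp⟩ := g.mem_potP' htr (hL l hl).1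
      refine g.offP_ne _ (hp.symm.trans (Eq.trans (Eq.symm (hL l hl).2) ?_))
      rw [plane_π, hw, det_zero]
  · refine le_trans (card_le_card_of_injOn (t := univ.biUnion fun x =>
      univ.filter fun u : Un F => det w u.1 = -g.offP x) (fun l => vec ι l.1) (fun l hl => ?_) ?_)
      (card_biUnion_le_card_mul _ _ _ fun x _ => htr.line_un hw _)
    · obtain ⟨h1, h2⟩ := hL l hl
      obtain ⟨β, p, hp⟩ := g.mem_potP' htr h1
      refine mem_coe.2 (mem_biUnion.2 ⟨((g.χ l.1.1, β), l.1.2, p), mem_univ _,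
        mem_filter.2 ⟨mem_univ _, ?_⟩⟩)
      rw [det_comm, ← hp]
      exact congrArg Neg.neg h2
    · intro l hl l' hl' e
      exact (plane htr (vec ι)).eq_of_dir ((vec ι).injective e) (hL l hl).2 (hL l' hl').2

theorem Cfg.potP_h3 (g : Cfg tr ι N) (htr : IsTr tr) (l : (Cl ι × Un K) × F) :
    (((plane htr (vec ι)).pts l).filter (Dead (plane htr (vec ι)) Prod.fst (g.pot htr))).card ≤
      Fintype.card ((Fin N × Bool) × Un K × Pt K) ^ 2 * 2 := by
  set S : Finset (Pt F) := univ.biUnion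
    fun x : ((Fin N × Bool) × Un K × Pt K) × ((Fin N × Bool) × Un K × Pt K) =>
      univ.filter fun w => x.1.2.1 ≠ x.2.2.1 ∧ det (mapPt ι x.1.2.1.1) w = g.offP x.1 ∧
        det (mapPt ι x.2.2.1.1) w = g.offP x.2 with hS
  have h1 : S.card ≤ Fintype.card ((Fin N × Bool) × Un K × Pt K) ^ 2 := by
    refine (card_biUnion_le_card_mul _ _ 1 fun x _ => card_le_one.2 fun w hw w' hw' => ?_).trans ?_
    · obtain ⟨k1, k2, k3⟩ := (mem_filter.1 hw).2
      obtain ⟨-, k4, k5⟩ := (mem_filter.1 hw').2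
      exact eq_of_det (fun e => k1 (mapUn_inj ι (un_eq_of_det e))) (k2.trans k4.symm)
        (k3.trans k5.symm)
    · rw [card_univ, Fintype.card_prod, mul_one, sq]
  refine le_trans (card_le_card (t := S.biUnion fun w' => univ.filter fun w : Pt F =>
    1 * nm w + det 0 w + -nm w' = 0 ∧ det (vec ι l.1).1 w = l.2) fun w hw => ?_)
    ((card_biUnion_le_card_mul _ _ _ fun w' _ =>
      htr.line_circle one_ne_zero 0 _ (un_ne_zero _) _).trans (Nat.mul_le_mul_right 2 h1))
  obtain ⟨k1, ⟨⟨C, θ⟩, c⟩, m1, ⟨⟨C', θ'⟩, c'⟩, m2, rfl, o1, o2⟩ := mem_filter.1 hw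
  obtain ⟨p, e1, e2⟩ := g.mem_potP htr m1
  obtain ⟨p', -, e3⟩ := g.mem_potP htr m2
  rw [Pl.on_mk, plane_π, vec_val, det_un_left] at o1 o2
  refine mem_biUnion.2 ⟨(C.out⁻¹).1 * w, mem_biUnion.2
    ⟨(((g.χ C, true), θ, p), ((g.χ C, false), θ', p')), mem_univ _,
      mem_filter.2 ⟨mem_univ _, ?_, o1.trans e2, o2.trans e3⟩⟩,
    mem_filter.2 ⟨mem_univ _, ?_, (Pl.mem_pts _ _ _).1 k1⟩⟩
  · rintro (rfl : θ = θ')
    exact g.not_on htr (vec ι (C, θ)) (τ := (g.χ C, false)) (β := true) (C := C) (by simp) θ p' p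
      (e1.symm.trans (o1.symm.trans (o2.trans e3)))
  · rw [nm_mul, nm_un, zero_det]
    ring

end

theorem potOK (N : ℕ) : ∃ R : ℕ, 0 < R ∧ ∀ {K F : Type} [Field K] [Fintype K] [CharP K 2]
    [Field F] [Fintype F] [CharP F 2] {tr : F →+ ZMod 2} {ι : K →+* F} (g : Cfg tr ι N)
    (htr : IsTr tr), Fintype.card K = 8 → PotOK (plane htr (vec ι)) Prod.fst (g.pot htr) R := by
  refine ⟨2 ^ (N * 2 * 576) + (N * 2 * 576) ^ 2 * 2 + N * 2 * 576 * 2 + 2 * 576, by positivity, ?_⟩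
  intro K F _ _ _ _ _ _ tr ι g htr hK
  have c1 : Fintype.card (Un K × Pt K) = 576 := by
    rw [Fintype.card_prod, (htr.comp ι).card_Un, card_Pt, hK]
    norm_num
  have c2 : Fintype.card ((Fin N × Bool) × Un K × Pt K) = N * 2 * 576 := by
    rw [Fintype.card_prod, c1, Fintype.card_prod, Fintype.card_fin, Fintype.card_bool]
  refine ⟨fun C => (g.potP_h1 htr C _ fun l hl => by simpa only [mem_filter, mem_union] using hl).trans ?_,
    fun w => (g.potP_h2 htr w _ fun l hl => by simpa only [mem_filter, mem_union] using hl).trans ?_,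
    fun l => (g.potP_h3 htr l).trans ?_, ?_⟩
  · rw [c1]
    exact Nat.le_add_left _ _
  · rw [c2]
    exact (Nat.le_add_left _ _).trans (Nat.le_add_right _ _)
  · rw [c2]
    exact ((Nat.le_add_left _ _).trans (Nat.le_add_right _ _)).trans (Nat.le_add_right _ _)
  · obtain ⟨A, n, h1, h2⟩ := arc htr (vec ι) (univ.image g.offP)
      (fun c hc => by
        obtain ⟨x, -, rfl⟩ := mem_image.1 hc
        exact g.offP_ne x)
      (2 ^ (N * 2 * 576) + (N * 2 * 576) ^ 2 * 2 + N * 2 * 576 * 2 + 2 * 576)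
      ((Nat.pow_le_pow_right two_pos (card_image_le.trans (by rw [card_univ, c2]))).trans
        (((Nat.le_add_right _ _).trans (Nat.le_add_right _ _)).trans (Nat.le_add_right _ _)))
    refine ⟨A, n, h1, fun w hw l hl h => h2 w hw l.1 ?_⟩
    obtain ⟨β, p, hp⟩ := g.mem_potP' htr (by simpa only [mem_union] using hl)
    exact mem_image.2 ⟨_, mem_univ _, hp.symm.trans (Eq.symm h)⟩

end Vale.Agent.P045
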