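import Vale.Agent.P045.Cfg

/-! The geometry of the locations.  `cardI`: `card_Un` for `IsTr.comp`.  `two`: `card (Cl ι) * 9 =
q + 1` (`vec`).  `sub`: `exists_un` in `K`, `π_loc`.  `few`: `π_loc`, `det θ (t + p) = det θ t +
ι (det θ p)`.  `avoid`: different types `(χ C, b C)` by `not_on`, equal types by `prop` (`Phi1`,
`det_un_left`).  `rich`: map a class `C` in the set to its type `(χ C, b C)`.  With
`v = vec s.1`, `x' = v⁻¹ x`, `c = s.2` (`x'.im ≠ c` by `det_un_im`) the scale of the type is in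
`Lam ι t x' c` (take `u = v⁻¹ * C.out`), so at most 3 types occur (`few`).  Three different classes
`C₁, C₂, C₃` of one type give `C₁.out⁻¹ * C₂.out ∈ Phi3` (take `ρ₃ = C₁.out⁻¹ * C₃.out`,
`g = C₁.out⁻¹ v`, `c / lam`, `lam⁻¹ • C₁.out⁻¹ x`; `ρ₂ θ₂ ≠ θ₁` by injectivity of `vec`), against
`prop`.  So the card is at most `3 * 2` (`Finset.card_le_mul_card_image`). -/

namespace Vale.Agent.P045

open Finset
open scoped Classical

section

variable {K F : Type} [Field K] [Fintype K] [CharP K 2] [Field F] [Fintype F]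
  [CharP F 2] {tr : F →+ ZMod 2} {ι : K →+* F} {N : ℕ}

omit [Fintype K] [CharP K 2] [Fintype F] [CharP F 2] in
theorem plS_out_inj {C C' : Cl ι} (h : C.out = C'.out) : C = C' := by
  rw [← QuotientGroup.out_eq' C, h, QuotientGroup.out_eq']

omit [Fintype K] [CharP K 2] [Fintype F] [CharP F 2] in
theorem plS_rot (u u' v : Un F) {a c : F} (ha : a ≠ 0) {y θ x : Pt F}
    (h1 : det v.1 (a • (u'.1 * y)) = c) (h2 : a * det θ y = det (u'.1 * θ) x) :
    det (u⁻¹ * v).1 ((u⁻¹ * u').1 * y) = c / a ∧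
      det ((u⁻¹ * u').1 * θ) (a⁻¹ • ((u⁻¹).1 * x)) = det θ y := by
  constructor
  · rw [Submonoid.coe_mul, Submonoid.coe_mul, mul_assoc, det_un, ← h1, det_smul]
    field_simp
  · rw [Submonoid.coe_mul, mul_assoc, det_smul, det_un, ← h2]
    field_simp

omit [CharP K 2] in
theorem Cfg.plS_avoid (g : Cfg tr ι N) (htr : IsTr tr) (b : Cl ι → Bool) (C C' : Cl ι) (θ : Un K)
    (p p' : Pt K) (h : C ≠ C') : (plane htr (vec ι)).π (C, θ) (g.loc (b C') C' p') ≠
      (plane htr (vec ι)).π (C, θ) (g.loc (b C) C p) := by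
  rw [g.π_loc, plane_π]
  by_cases e : (g.χ C, b C) = (g.χ C', b C')
  · intro h1
    refine g.prop C C' h (congrArg Prod.fst e) (mem_union_left _ ?_)
    simp only [Phi1, mem_filter, mem_univ, true_and]
    refine ⟨θ, p, p', ?_⟩
    rw [vec_val, Cfg.loc, ← e, det_smul, det_un_left] at h1
    rw [Submonoid.coe_mul, mul_assoc]
    exact mul_left_cancel₀ (g.lam0 _) h1
  · exact g.not_on htr _ e θ p p'

omit [CharP K 2] in
theorem Cfg.plS_rich (g : Cfg tr ι N) (htr : IsTr tr) (b : Cl ι → Bool) (x : Pt F)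
    (s : (Cl ι × Un K) × F) (hs : ¬(plane htr (vec ι)).On s x) :
    (univ.filter fun C => ∃ p θ, (plane htr (vec ι)).On s (g.loc (b C) C p) ∧
      (plane htr (vec ι)).π (C, θ) (g.loc (b C) C p) = (plane htr (vec ι)).π (C, θ) x).card ≤
        8 := by
  set S := univ.filter fun C => ∃ p θ, (plane htr (vec ι)).On s (g.loc (b C) C p) ∧
    (plane htr (vec ι)).π (C, θ) (g.loc (b C) C p) = (plane htr (vec ι)).π (C, θ) x with hS
  set v : Un F := vec ι s.1 with hv
  have mem : ∀ C ∈ S, ∃ (p : Pt K) (θ : Un K),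
      det v.1 (g.lam (g.χ C, b C) • (C.out.1 * (g.t + mapPt ι p))) = s.2 ∧
      g.lam (g.χ C, b C) * det (mapPt ι θ.1) (g.t + mapPt ι p) =
        det (C.out.1 * mapPt ι θ.1) x := by
    intro C hC
    obtain ⟨p, θ, h1, h2⟩ := (mem_filter.1 hC).2
    rw [g.π_loc, plane_π, vec_val] at h2
    exact ⟨p, θ, h1, h2⟩
  have hx : ((v⁻¹).1 * x).im ≠ s.2 := by
    rw [← det_un_im]
    exact hs
  have h3 : (S.image fun C => (g.χ C, b C)).card ≤ 3 := by
    refine le_trans (card_le_card fun τ hτ => ?_) (g.few _ _ hx)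
    obtain ⟨C, hC, rfl⟩ := mem_image.1 hτ
    obtain ⟨p, θ, h1, h2⟩ := mem C hC
    simp only [Lam, mem_filter, mem_univ, true_and]
    refine ⟨v⁻¹ * C.out, θ, p, ?_, ?_⟩
    · rw [← h1, det_un_im, Submonoid.coe_mul, mul_assoc, mul_smul_comm]
    · rw [Submonoid.coe_mul, mul_assoc, det_un, h2]
  have h2 : ∀ τ ∈ S.image fun C => (g.χ C, b C),
      (S.filter fun C => (g.χ C, b C) = τ).card ≤ 2 := by
    intro τ _
    by_contra hc
    obtain ⟨C₁, C₂, C₃, m1, m2, m3, n12, n13, n23⟩ := two_lt_card_iff.1 (not_le.1 hc)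
    obtain ⟨m1, t1⟩ := mem_filter.1 m1
    obtain ⟨m2, t2⟩ := mem_filter.1 m2
    obtain ⟨m3, t3⟩ := mem_filter.1 m3
    obtain ⟨p₁, θ₁, a1, b1⟩ := mem C₁ m1
    obtain ⟨p₂, θ₂, a2, b2⟩ := mem C₂ m2
    obtain ⟨p₃, θ₃, a3, b3⟩ := mem C₃ m3
    rw [t1] at a1 b1
    rw [t2] at a2 b2
    rw [t3] at a3 b3
    obtain ⟨c1, d1⟩ := plS_rot C₁.out C₁.out v (g.lam0 τ) a1 b1
    obtain ⟨c2, d2⟩ := plS_rot C₁.out C₂.out v (g.lam0 τ) a2 b2
    obtain ⟨c3, d3⟩ := plS_rot C₁.out C₃.out v (g.lam0 τ) a3 b3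
    rw [inv_mul_cancel, OneMemClass.coe_one, one_mul] at c1 d1
    refine g.prop C₁ C₂ n12 (congrArg Prod.fst (t1.trans t2.symm)) (mem_union_right _ ?_)
    simp only [Phi3, mem_filter, mem_univ, true_and]
    refine ⟨C₁.out⁻¹ * C₃.out, θ₁, θ₂, θ₃, p₁, p₂, p₃, _, _, _,
      fun e => n12 (plS_out_inj (inv_mul_eq_one.1 e)),
      fun e => n13 (plS_out_inj (inv_mul_eq_one.1 e)),
      fun e => n23 (plS_out_inj (mul_left_cancel e)), fun e => n12 ?_,
      un_ne_zero _, c1, c2, c3, d1, d2, d3⟩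
    have e2 : vec ι (C₁, θ₁) = vec ι (C₂, θ₂) := by
      apply Subtype.ext
      rw [vec_val, vec_val, ← e, Submonoid.coe_mul, mul_assoc, un_mul_inv]
    exact congrArg Prod.fst ((vec ι).injective e2)
  have := card_le_mul_card_image S 2 h2
  omega

end

theorem Cfg.surgOK {K F : Type} [Field K] [Fintype K] [CharP K 2] [Field F] [Fintype F]
    [CharP F 2] {tr : F →+ ZMod 2} {ι : K →+* F} {N : ℕ} (g : Cfg tr ι N) (htr : IsTr tr)
    (hK : Fintype.card K = 8) (hq : 17 ≤ Fintype.card F) (b : Cl ι → Bool) :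
    SurgOK (plane htr (vec ι)) fun C => g.loc (b C) C := by
  have hI : Fintype.card (Un K) = 9 := by rw [(htr.comp ι).card_Un, hK]
  refine ⟨hI, by rw [card_Pt, hK]; norm_num, ?_, ?_, ?_, ?_, g.plS_avoid htr b, g.plS_rich htr b⟩
  · have h := Fintype.card_congr (vec ι)
    rw [Fintype.card_prod, hI, htr.card_Un] at h
    omega
  · intro C p p' h
    have h1 := smul_right_injective _ (g.lam0 (g.χ C, b C)) h
    have h2 := congrArg (fun w => (C.out⁻¹).1 * w) h1
    simp only [un_inv_mul] at h2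
    exact mapPt_inj ι (add_left_cancel h2)
  · intro C p p'
    obtain ⟨θ, hθ⟩ := (htr.comp ι).exists_un (p - p')
    refine ⟨θ, ?_⟩
    rw [det_sub, sub_eq_zero] at hθ
    rw [g.π_loc, g.π_loc, det_add, det_add, det_mapPt, det_mapPt, hθ]
  · intro C θ
    refine le_trans (card_le_card (t := univ.image fun k : K =>
      g.lam (g.χ C, b C) * (det (mapPt ι θ.1) g.t + ι k)) fun y hy => ?_)
      (card_image_le.trans (by rw [card_univ, hK]))
    obtain ⟨p, -, rfl⟩ := mem_image.1 hy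
    refine mem_image.2 ⟨det θ.1 p, mem_univ _, ?_⟩
    rw [g.π_loc, det_add, det_mapPt]

end Vale.Agent.P045
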