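import Vale.Agent.P045.Cand
import Vale.Agent.P045.Bruen
import Vale.Agent.P045.Asym
import Vale.Agent.P045.Kill

/-! Random bits give a stable set of deleted lines.  See `notes/P045.md`, section Stability. -/

namespace Vale.Agent.P045

open Finset
open scoped Classical

theorem stab_union {α β : Type} [DecidableEq α] (T : Finset β) (f : β → Finset α) (c : ℝ) (N : ℕ) (hc : 0 ≤ c)
    (hT : T.card ≤ N) (hf : ∀ t ∈ T, ((f t).card : ℝ) ≤ c) :
    ((T.biUnion f).card : ℝ) ≤ N * c := by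
  calc ((T.biUnion f).card : ℝ) ≤ ((∑ t ∈ T, (f t).card : ℕ) : ℝ) := by
        exact_mod_cast card_biUnion_le
    _ = ∑ t ∈ T, ((f t).card : ℝ) := by push_cast; rfl
    _ ≤ ∑ _t ∈ T, c := sum_le_sum hf
    _ = T.card * c := by rw [sum_const, nsmul_eq_mul]
    _ ≤ N * c := mul_le_mul_of_nonneg_right (by exact_mod_cast hT) hc

theorem stab_alive {P D X : Type} [Fintype P] [Fintype D] [Fintype X] (G : Pl P D X)
    (L : Finset (D × X)) (x : P ⊕ D) (l : D × X) (hx : G.Inc l x) (hl : l ∉ L) (S : Finset P)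
    (hS : ∀ w ∈ S, G.On l w ∧ ∃ l' ∈ L, G.On l' w) :
    S.card ≤ (L.filter fun l' => ¬G.Inc l' x).card + 1 := by
  have hsub : S ⊆ ((L.filter fun l' => ¬G.Inc l' x).biUnion fun l' => G.pts l ∩ G.pts l') ∪
      univ.filter fun w => x = Sum.inl w := by
    intro w hw
    obtain ⟨h1, l', hl', h2⟩ := hS w hw
    have hne : l ≠ l' := fun e => hl (e ▸ hl')
    by_cases hi : G.Inc l' x
    · exact mem_union_right _ (mem_filter.2 ⟨mem_univ _, G.eq_of_inc hne hx hi h1 h2⟩)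
    · refine mem_union_left _ (mem_biUnion.2 ⟨l', mem_filter.2 ⟨hl', hi⟩, ?_⟩)
      simp only [mem_inter, Pl.mem_pts]
      exact ⟨h1, h2⟩
  refine (card_le_card hsub).trans ((card_union_le _ _).trans (add_le_add ?_ ?_))
  · refine card_biUnion_le.trans ?_
    rw [card_eq_sum_ones (L.filter fun l' => ¬G.Inc l' x)]
    refine sum_le_sum fun l' hl' => G.card_inter_le ?_
    rintro rfl
    exact hl (mem_filter.1 hl').1
  · refine card_le_one.2 fun w hw w' hw' => ?_
    have h1 := (mem_filter.1 hw).2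
    have h2 := (mem_filter.1 hw').2
    rw [h1] at h2
    exact Sum.inl_injective h2

theorem stab (R : ℕ) (hR : 0 < R) : ∃ q0 : ℕ, ∀ {P D X 𝒞 : Type} [Fintype P] [Fintype D]
    [Fintype X] [Fintype 𝒞] (G : Pl P D X) (cls : D → 𝒞) (pot : Bool → Finset (D × X)),
    q0 ≤ Fintype.card X → PotOK G cls pot R →
    ∃ b : 𝒞 → Bool, Stable G fun l => l ∈ pot (b (cls l.1)) := by
  obtain ⟨q0, hq0⟩ := asym R hR
  refine ⟨q0, fun {P D X 𝒞} _ _ _ _ G cls pot hq h => ?_⟩
  obtain ⟨z, g, g', h16, hz, hz1, hz2, hg, hg', hA, hB⟩ := hq0 _ hq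
  obtain ⟨K, n, hK, hKp⟩ := h.arc
  have hρ : (0 : ℝ) ≤ 1 - 1 / 2 ^ R := by
    have : (1 : ℝ) ≤ 2 ^ R := one_le_pow₀ (by norm_num)
    rw [sub_nonneg, div_le_one (by positivity)]
    exact this
  let U : Finset (D × X) → Finset P := fun L => univ.filter fun w => ∀ l ∈ L, ¬G.On l w
  let Cd : Finset (Finset (D × X)) := (univ.filter fun L : Finset (D × X) =>
    L.card ≤ Fintype.card X ∧ ∀ w ∈ K, ∃ l ∈ L, G.On l w).filter fun L =>
      Fintype.card X * Nat.sqrt (Fintype.card X) ≤ 8 * (U L).card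
  let BA : Finset (𝒞 → Bool) := Cd.biUnion fun L =>
    univ.filter fun b : 𝒞 → Bool => ∀ w ∈ U L, ∃ l ∈ pot (b (cls l.1)), G.On l w
  let Sm : Finset ((D × X) × Finset P) := univ ×ˢ
    (univ.filter fun S : Finset P => S.card ≤ 3 * Nat.sqrt (Fintype.card X) + 1)
  let BB : Finset (𝒞 → Bool) := Sm.biUnion fun t =>
    univ.filter fun b : 𝒞 → Bool => ∀ w ∈ G.pts t.1 \ t.2, ∃ l' ∈ pot (b (cls l'.1)), l' ≠ t.1 ∧
      G.On l' w
  have hpow : (0 : ℝ) < 2 ^ Fintype.card 𝒞 := by positivity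
  have hBA : (BA.card : ℝ) < 2 ^ Fintype.card 𝒞 / 2 := by
    have h1 := stab_union Cd (fun L =>
      univ.filter fun b : 𝒞 → Bool => ∀ w ∈ U L, ∃ l ∈ pot (b (cls l.1)), G.On l w)
      (2 ^ Fintype.card 𝒞 * (1 - 1 / 2 ^ R) ^ g) ((4 * Fintype.card X ^ 2) ^ (38 * R ^ 2 * z))
      (by positivity) ((card_filter_le _ _).trans (cand G hK z hR hz hz1 hz2))
      (fun L hL => killA G cls pot h (U L) g (by
        have := (mem_filter.1 hL).2
        omega))
    refine h1.trans_lt ?_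
    nlinarith [mul_lt_mul_of_pos_left hA hpow]
  have hBB : (BB.card : ℝ) < 2 ^ Fintype.card 𝒞 / 2 := by
    have h1 := stab_union Sm (fun t =>
      univ.filter fun b : 𝒞 → Bool => ∀ w ∈ G.pts t.1 \ t.2, ∃ l' ∈ pot (b (cls l'.1)),
        l' ≠ t.1 ∧ G.On l' w)
      (2 ^ Fintype.card 𝒞 * (1 - 1 / 2 ^ R) ^ g')
      ((Fintype.card X ^ 2 + Fintype.card X) *
        (Fintype.card X ^ 2 + 1) ^ (3 * Nat.sqrt (Fintype.card X) + 1))
      (by positivity) (by
        rw [card_product, card_univ, G.card_lines, ← G.card_P (by omega)]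
        exact Nat.mul_le_mul_left _ (card_small _))
      (fun t ht => killB G cls pot h t.1 t.2 g' (by
        have := (mem_filter.1 (mem_product.1 ht).2).2
        omega))
    refine h1.trans_lt ?_
    nlinarith [mul_lt_mul_of_pos_left hB hpow]
  have hex : ∃ b, b ∉ BA ∪ BB := by
    by_contra hc
    push Not at hc
    have h1 : (univ : Finset (𝒞 → Bool)).card ≤ (BA ∪ BB).card := card_le_card fun b _ => hc b
    have h2 := h1.trans (card_union_le _ _)
    rw [card_univ, Fintype.card_fun, Fintype.card_bool] at h2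
    have h3 : (2 : ℝ) ^ Fintype.card 𝒞 ≤ BA.card + BB.card := by exact_mod_cast h2
    linarith
  obtain ⟨b, hb⟩ := hex
  rw [mem_union, not_or] at hb
  refine ⟨b, fun L hL hcov => ?_⟩
  have hKL : ∀ w ∈ K, ∃ l ∈ L, G.On l w := by
    intro w hw
    refine hcov w fun l (hl : l ∈ pot (b (cls l.1))) => hKp w hw l ?_
    cases hbl : b (cls l.1)
    · rw [hbl] at hl
      exact mem_union_right _ hl
    · rw [hbl] at hl
      exact mem_union_left _ hl
  rcases bruen G h16 L hL with ⟨x, hx⟩ | hU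
  · refine ⟨x, fun l hl hch => ?_⟩
    by_contra hlL
    let S : Finset P := (G.pts l).filter fun w => ∀ l', l' ∈ pot (b (cls l'.1)) → ¬G.On l' w
    have hS := stab_alive G L x l hl hlL S fun w hw =>
      ⟨(G.mem_pts l w).1 (mem_filter.1 hw).1, hcov w (mem_filter.1 hw).2⟩
    have hc := card_filter_add_card_filter_not (s := L) fun l' => G.Inc l' x
    refine hb.2 (mem_biUnion.2 ⟨(l, S), mem_product.2 ⟨mem_univ _,
      mem_filter.2 ⟨mem_univ _, by change S.card ≤ _; omega⟩⟩, mem_filter.2 ⟨mem_univ _, ?_⟩⟩)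
    intro w hw
    obtain ⟨h1, h2⟩ := mem_sdiff.1 hw
    have h3 : ¬∀ l', l' ∈ pot (b (cls l'.1)) → ¬G.On l' w := fun h4 => h2 (mem_filter.2 ⟨h1, h4⟩)
    push Not at h3
    obtain ⟨l', h4, h5⟩ := h3
    refine ⟨l', h4, ?_, h5⟩
    rintro rfl
    exact hch h4
  · exfalso
    have hLC : L ∈ Cd := mem_filter.2 ⟨mem_filter.2 ⟨mem_univ _, hL, hKL⟩, by convert hU⟩
    refine hb.1 (mem_biUnion.2 ⟨L, hLC, mem_filter.2 ⟨mem_univ _, fun w hw => ?_⟩⟩)
    by_contra hc
    push Not at hc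
    obtain ⟨l, h1, h2⟩ := hcov w hc
    exact (mem_filter.1 hw).2 l h1 h2

end Vale.Agent.P045
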