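import Vale.Agent.P045.Geo
import Vale.Agent.P045.Gad

/-! The surgery.  Vertices of the part `d` are the lines of direction `d` (`inl c`) and nine labels
(`inr b`).  Fix `e : I ≃ Fin 9` and an injection `v : Fin 9 → J` (the other 55 locations carry the
word `cc`).  Edges:
* ordinary, for `w` on no deleted line: `fun d => inl (π d w)`;
* special, for a class `C`, a location `p` and a word `γ : Fin 9 → Fin 9` allowed at `p`
  (`γ = lab y` with `y ∈ Y`, `p = v y.1`, or `γ = cc` with `p ∉ range v`):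
  `fun d => if d.1 = C then inr (γ (e d.2)) else inl (π d (loc C p))`.
See `notes/P045.md`, section Surgery, for the proof. -/

namespace Vale.Agent.P045

open Finset
open scoped Classical

theorem surg_gad {J : Type} [Fintype J] (hJ : Fintype.card J = 64) :
    ∃ Al : J → (Fin 9 → Fin 9) → Prop,
      (∀ p p' γ γ', p ≠ p' → Al p γ → Al p' γ' → ∃ s, γ s = γ' s) ∧ (∀ p, ∃ γ, Al p γ) ∧
      ∀ (Lb : Finset (Fin 9 × Fin 9)) (N : Finset J) (p0 : J), Lb.card + N.card ≤ 8 →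
        ∃ p γ, Al p γ ∧ p ∉ N ∧ p ≠ p0 ∧ ∀ s, (s, γ s) ∉ Lb := by
  obtain ⟨lab, cc, g1, g2, g3⟩ := gad
  obtain ⟨v⟩ : Nonempty (Fin 9 ↪ J) := Function.Embedding.nonempty_of_card_le (by simp [hJ])
  refine ⟨fun p γ => (∃ y : Fin 9 × Fin 9, (∃ s, lab y s = cc s) ∧ p = v y.1 ∧ γ = lab y) ∨
    ((∀ x, v x ≠ p) ∧ γ = cc), ?_, fun p => ?_, fun Lb N p0 hc => ?_⟩
  · rintro p p' γ γ' hne (⟨y, hy, rfl, rfl⟩ | ⟨_, rfl⟩) (⟨y', hy', rfl, rfl⟩ | ⟨_, rfl⟩)
    · exact g1 y y' fun h => hne (by rw [h])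
    · exact hy
    · exact hy'.imp fun s hs => hs.symm
    · exact ⟨0, rfl⟩
  · by_cases hp : ∃ x, v x = p
    · obtain ⟨x, rfl⟩ := hp
      obtain ⟨y, rfl, hy⟩ := g2 x
      exact ⟨lab y, Or.inl ⟨y, hy, rfl, rfl⟩⟩
    · exact ⟨cc, Or.inr ⟨fun x hx => hp ⟨x, hx⟩, rfl⟩⟩
  · have hV : (univ.filter fun x => v x ∈ N).card ≤ N.card :=
      card_le_card_of_injOn v (fun x hx => by simpa using hx) v.injective.injOn
    by_cases hp : ∃ x, v x = p0
    · obtain ⟨x0, rfl⟩ := hp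
      by_cases hs : ∃ s, (s, cc s) ∈ Lb
      · have h1 := card_insert_le x0 (univ.filter fun x => v x ∈ N)
        obtain ⟨y, hy, hy1, hy2⟩ := g3 Lb (insert x0 (univ.filter fun x => v x ∈ N))
          (Or.inr ⟨by omega, insert_nonempty _ _, hs⟩)
        simp only [mem_insert, mem_filter, mem_univ, true_and, not_or] at hy1
        exact ⟨v y.1, lab y, Or.inl ⟨y, hy, rfl, rfl⟩, hy1.2,
          fun h => hy1.1 (v.injective h), hy2⟩
      · have h1 : (N ∪ univ.image v).card < (univ : Finset J).card := by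
          have h2 := card_union_le N (univ.image v)
          have h3 : (univ.image v).card ≤ 9 := card_image_le.trans (by simp)
          rw [card_univ, hJ]
          omega
        obtain ⟨p, _, hp⟩ := exists_mem_notMem_of_card_lt_card h1
        simp only [mem_union, mem_image, mem_univ, true_and, not_or, not_exists] at hp
        exact ⟨p, cc, Or.inr ⟨hp.2, rfl⟩, hp.1, fun h => hp.2 x0 h.symm,
          fun s h => hs ⟨s, h⟩⟩
    · obtain ⟨y, hy, hy1, hy2⟩ := g3 Lb (univ.filter fun x => v x ∈ N) (Or.inl (by omega))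
      simp only [mem_filter, mem_univ, true_and] at hy1
      exact ⟨v y.1, lab y, Or.inl ⟨y, hy, rfl, rfl⟩, hy1, fun h => hp ⟨_, h⟩, hy2⟩

section

variable {P X 𝒞 I J : Type} [Fintype P] [Fintype X] [Fintype 𝒞] [Fintype I] [Fintype J]
  {G : Pl P (𝒞 × I) X} {loc : 𝒞 → J → P}

theorem SurgOK.s1 (h : SurgOK G loc) {d : 𝒞 × I} {C : 𝒞} (hd : d.1 ≠ C) {p p' : J}
    (e : G.π d (loc C p) = G.π d (loc C p')) : p = p' := by
  obtain ⟨i, hi⟩ := h.sub C p p'
  exact h.inj C (G.eq_of_two (d := d) (d' := (C, i)) (fun e => hd (by rw [e])) e hi)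

theorem SurgOK.s2 (h : SurgOK G loc) (C : 𝒞) {i j : I} (hij : i ≠ j) :
    (univ.image fun p => (G.π (C, i) (loc C p), G.π (C, j) (loc C p))) =
      (univ.image fun p => G.π (C, i) (loc C p)) ×ˢ (univ.image fun p => G.π (C, j) (loc C p)) ∧
    8 ≤ (univ.image fun p => G.π (C, j) (loc C p)).card := by
  have hne : ((C, i) : 𝒞 × I) ≠ (C, j) := fun e => hij (congrArg Prod.snd e)
  have h1 : (univ.image fun p => (G.π (C, i) (loc C p), G.π (C, j) (loc C p))).card = 64 := by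
    rw [card_image_of_injective _ fun p p' e => h.inj C ((G.bij _ _ hne).1 e), card_univ, h.cardJ]
  have h2 : (univ.image fun p => (G.π (C, i) (loc C p), G.π (C, j) (loc C p))) ⊆
      (univ.image fun p => G.π (C, i) (loc C p)) ×ˢ
        (univ.image fun p => G.π (C, j) (loc C p)) := by
    intro x hx
    obtain ⟨p, _, rfl⟩ := mem_image.1 hx
    exact mem_product.2 ⟨mem_image_of_mem _ (mem_univ p), mem_image_of_mem _ (mem_univ p)⟩
  have h3 := h.few C i
  have h4 := h.few C j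
  have h5 := card_le_card h2
  rw [h1, card_product] at h5
  refine ⟨eq_of_subset_of_card_le h2 ?_, ?_⟩
  · rw [h1, card_product]
    exact Nat.mul_le_mul h3 h4
  · by_contra hc
    have := Nat.mul_le_mul h3 (show (univ.image fun p => G.π (C, j) (loc C p)).card ≤ 7 by omega)
    omega

theorem SurgOK.s2a (h : SurgOK G loc) (C : 𝒞) {i j : I} (hij : i ≠ j) (p p' : J) :
    ∃ p'', G.π (C, i) (loc C p'') = G.π (C, i) (loc C p) ∧
      G.π (C, j) (loc C p'') = G.π (C, j) (loc C p') := by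
  have : (G.π (C, i) (loc C p), G.π (C, j) (loc C p')) ∈
      univ.image fun p => (G.π (C, i) (loc C p), G.π (C, j) (loc C p)) := by
    rw [(h.s2 C hij).1]
    exact mem_product.2 ⟨mem_image_of_mem _ (mem_univ p), mem_image_of_mem _ (mem_univ p')⟩
  obtain ⟨p'', _, e⟩ := mem_image.1 this
  exact ⟨p'', congrArg Prod.fst e, congrArg Prod.snd e⟩

theorem SurgOK.s2b (h : SurgOK G loc) {l : (𝒞 × I) × X} (hl : ChL G loc l) :
    (univ.filter fun p => G.On l (loc l.1.1 p)).card = 8 := by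
  obtain ⟨⟨C, i⟩, c⟩ := l
  obtain ⟨p0, hp0⟩ := hl
  simp only [Pl.on_mk] at hp0 ⊢
  obtain ⟨j, hj⟩ := Fintype.exists_ne_of_one_lt_card (by rw [h.cardI]; norm_num) i
  have hne : ((C, i) : 𝒞 × I) ≠ (C, j) := fun e => hj (congrArg Prod.snd e).symm
  have h1 : (univ.filter fun p => G.π (C, i) (loc C p) = c).card =
      (univ.image fun p => G.π (C, j) (loc C p)).card := by
    refine card_bij (fun p _ => G.π (C, j) (loc C p))
      (fun p _ => mem_image_of_mem _ (mem_univ p)) (fun p hp p' hp' e => ?_) fun b hb => ?_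
    · exact h.inj C (G.eq_of_two hne ((mem_filter.1 hp).2.trans (mem_filter.1 hp').2.symm) e)
    · obtain ⟨p', _, rfl⟩ := mem_image.1 hb
      obtain ⟨p'', e1, e2⟩ := h.s2a C hj.symm p0 p'
      exact ⟨p'', mem_filter.2 ⟨mem_univ _, e1.trans hp0⟩, e2⟩
  rw [h1]
  exact le_antisymm (h.few C j) (h.s2 C hj.symm).2

theorem SurgOK.s3 (h : SurgOK G loc) {w : P} (hw : ∀ C p, loc C p ≠ w) {l l' : (𝒞 × I) × X}
    (hl : ChL G loc l) (hl' : ChL G loc l') (h1 : G.On l w) (h2 : G.On l' w)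
    (e : l.1.1 = l'.1.1) : l = l' := by
  by_contra hne
  obtain ⟨⟨C, i⟩, c⟩ := l
  obtain ⟨⟨C', j⟩, c'⟩ := l'
  obtain rfl : C = C' := e
  obtain ⟨p, hp⟩ := hl
  obtain ⟨p', hp'⟩ := hl'
  have hij : i ≠ j := fun e => hne (G.eq_of_dir (by rw [e]) h1 h2)
  obtain ⟨p'', e1, e2⟩ := h.s2a C hij p p'
  exact hw C p'' (G.eq_of_lines hne (e1.trans hp) (e2.trans hp') h1 h2)

/-- the count when at most 8 vertices are left -/
theorem SurgOK.key (h : SurgOK G loc) (e : I ≃ Fin 9) (T : Finset ((𝒞 × I) × (X ⊕ Fin 9)))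
    (C : 𝒞) :
    (univ.filter fun y : Fin 9 × Fin 9 => ((C, e.symm y.1), Sum.inr y.2) ∈ T).card +
      (univ.filter fun p => ∃ d : 𝒞 × I, d.1 ≠ C ∧ (d, Sum.inl (G.π d (loc C p))) ∈ T).card ≤
      T.card := by
  rw [← card_filter_add_card_filter_not (s := T) fun t => t.2.isRight = true]
  refine Nat.add_le_add ?_ ?_
  · refine card_le_card_of_injOn (fun y => ((C, e.symm y.1), Sum.inr y.2)) (fun y hy => ?_)
      fun y _ y' _ hyy => ?_
    · simpa using hy
    · simp only [Prod.mk.injEq, true_and, EmbeddingLike.apply_eq_iff_eq, Sum.inr.injEq] at hyy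
      exact Prod.ext hyy.1 hyy.2
  · have h1 : (univ.filter fun p => ∃ d : 𝒞 × I, d.1 ≠ C ∧ (d, Sum.inl (G.π d (loc C p))) ∈ T) ⊆
        (T.filter fun t => ¬t.2.isRight = true).biUnion fun t =>
          univ.filter fun p => t.1.1 ≠ C ∧ t.2 = Sum.inl (G.π t.1 (loc C p)) := by
      intro p hp
      obtain ⟨d, hd, hT⟩ := (mem_filter.1 hp).2
      exact mem_biUnion.2 ⟨_, mem_filter.2 ⟨hT, by simp⟩, mem_filter.2 ⟨mem_univ _, hd, rfl⟩⟩
    refine (card_le_card h1).trans ((card_biUnion_le_card_mul _ _ 1 fun t _ => ?_).trans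
      (by rw [mul_one]))
    refine card_le_one.2 fun p hp p' hp' => ?_
    obtain ⟨hd, e1⟩ := (mem_filter.1 hp).2
    obtain ⟨_, e2⟩ := (mem_filter.1 hp').2
    exact h.s1 hd (Sum.inl.inj (e1.symm.trans e2))

end

theorem surg {P X 𝒞 I J : Type} [Fintype P] [Fintype X] [Fintype 𝒞] [Fintype I] [Fintype J]
    (G : Pl P (𝒞 × I) X) (loc : 𝒞 → J → P) (h : SurgOK G loc) (hS : Stable G (ChL G loc)) :
    ∃ E : Set (𝒞 × I → X ⊕ Fin 9), Ctr E := by
  obtain ⟨Al, A1, A2, A3⟩ := surg_gad h.cardJ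
  let e : I ≃ Fin 9 := Fintype.equivFinOfCardEq h.cardI
  let sp : 𝒞 → J → (Fin 9 → Fin 9) → 𝒞 × I → X ⊕ Fin 9 := fun C p γ d =>
    if d.1 = C then Sum.inr (γ (e d.2)) else Sum.inl (G.π d (loc C p))
  have spL : ∀ {C p γ} {d : 𝒞 × I}, d.1 ≠ C → sp C p γ d = Sum.inl (G.π d (loc C p)) :=
    fun hd => if_neg hd
  have spR : ∀ {C p γ} {d : 𝒞 × I}, d.1 = C → sp C p γ d = Sum.inr (γ (e d.2)) :=
    fun hd => if_pos hd
  obtain ⟨C0⟩ : Nonempty 𝒞 := Fintype.card_pos_iff.1 (by have := h.two; omega)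
  obtain ⟨p0⟩ : Nonempty J := Fintype.card_pos_iff.1 (by have := h.cardJ; omega)
  have os : ∀ w, (∀ l, ChL G loc l → ¬G.On l w) → ∀ C p γ,
      ∃ d, Sum.inl (G.π d w) = sp C p γ d := by
    intro w hw C p γ
    obtain ⟨d, hd⟩ := G.join w (loc C p)
    have : d.1 ≠ C := fun hc => hw (d, G.π d w) ⟨p, by rw [hc]; exact hd.symm⟩ rfl
    exact ⟨d, by rw [spL this, hd]⟩
  refine ⟨{f | (∃ w, (∀ l, ChL G loc l → ¬G.On l w) ∧ f = fun d => Sum.inl (G.π d w)) ∨
    ∃ C p γ, Al p γ ∧ f = sp C p γ}, ?_, ?_, fun T hT => ?_⟩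
  · obtain ⟨γ, hγ⟩ := A2 p0
    exact ⟨_, Or.inr ⟨C0, p0, γ, hγ, rfl⟩⟩
  · rintro f (⟨w, hw, rfl⟩ | ⟨C, p, γ, hγ, rfl⟩) f' (⟨w', hw', rfl⟩ | ⟨C', p', γ', hγ', rfl⟩)
    · obtain ⟨d, hd⟩ := G.join w w'
      exact ⟨d, congrArg _ hd⟩
    · exact os w hw C' p' γ'
    · exact (os w' hw' C p γ).imp fun d hd => hd.symm
    · by_cases hC : C = C'
      · subst hC
        by_cases hp : p = p'
        · subst hp
          obtain ⟨C', hC'⟩ := Fintype.exists_ne_of_one_lt_card (by have := h.two; omega) C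
          exact ⟨(C', e.symm 0), by rw [spL hC', spL hC']⟩
        · obtain ⟨s, hs⟩ := A1 p p' γ γ' hp hγ hγ'
          exact ⟨(C, e.symm s), by rw [spR rfl, spR rfl, e.apply_symm_apply, hs]⟩
      · obtain ⟨⟨C1, i⟩, hd⟩ := G.join (loc C p) (loc C' p')
        have h1 : C1 ≠ C := by
          rintro rfl
          exact h.avoid C1 C' i p p' hC hd.symm
        have h2 : C1 ≠ C' := by
          rintro rfl
          exact h.avoid C1 C i p' p (Ne.symm hC) hd
        exact ⟨(C1, i), by rw [spL h1, spL h2, hd]⟩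
  by_contra hlt
  have hTq : T.card ≤ Fintype.card X := by have := G.cardD; omega
  let ln : (𝒞 × I) × X → (𝒞 × I) × (X ⊕ Fin 9) := fun l => (l.1, Sum.inl l.2)
  have lninj : Function.Injective ln := fun l l' hl =>
    Prod.ext (Prod.ext_iff.1 hl).1 (Sum.inl.inj (Prod.ext_iff.1 hl).2)
  obtain ⟨x, hx⟩ := hS (univ.filter fun l => ln l ∈ T)
    ((card_le_card_of_injOn ln (fun l hl => by simpa using hl) lninj.injOn).trans hTq)
    (fun w hw => by
      obtain ⟨d, hd⟩ := hT _ (Or.inl ⟨w, hw, rfl⟩)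
      exact ⟨(d, G.π d w), mem_filter.2 ⟨mem_univ _, hd⟩, rfl⟩)
  obtain ⟨L1, hL1⟩ : ∃ L1 : Finset ((𝒞 × I) × X), ∀ l, l ∈ L1 ↔ G.Inc l x ∧ ¬ChL G loc l :=
    ⟨univ.filter fun l => G.Inc l x ∧ ¬ChL G loc l, fun l => by simp⟩
  have hsub : L1.image ln ⊆ T := by
    intro t ht
    obtain ⟨l, hl, rfl⟩ := mem_image.1 ht
    exact (mem_filter.1 (hx l ((hL1 l).1 hl).1 ((hL1 l).1 hl).2)).2
  obtain ⟨T', hT'⟩ : ∃ T', T' = T \ L1.image ln := ⟨_, rfl⟩
  have hcard : T'.card + L1.card ≤ Fintype.card X := by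
    rw [hT', ← card_image_of_injective L1 lninj, card_sdiff_add_card_eq_card hsub]
    exact hTq
  have cov : ∀ C p γ, Al p γ → (∃ i, ((C, i), Sum.inr (γ (e i))) ∈ T') ∨
      (∃ d : 𝒞 × I, d.1 ≠ C ∧ (d, Sum.inl (G.π d (loc C p))) ∈ T') ∨
      ∃ l ∈ L1, l.1.1 ≠ C ∧ G.On l (loc C p) := by
    intro C p γ hγ
    obtain ⟨d, hd⟩ := hT _ (Or.inr ⟨C, p, γ, hγ, rfl⟩)
    by_cases hc : d.1 = C
    · rw [spR hc] at hd
      obtain ⟨C1, i⟩ := d
      obtain rfl : C1 = C := hc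
      refine Or.inl ⟨i, ?_⟩
      rw [hT', mem_sdiff]
      refine ⟨hd, fun hm => ?_⟩
      obtain ⟨l, _, hl⟩ := mem_image.1 hm
      exact Sum.inl_ne_inr (congrArg Prod.snd hl)
    · rw [spL hc] at hd
      by_cases hm : (d, G.π d (loc C p)) ∈ L1
      · exact Or.inr (Or.inr ⟨_, hm, hc, rfl⟩)
      · refine Or.inr (Or.inl ⟨d, hc, ?_⟩)
        rw [hT', mem_sdiff]
        refine ⟨hd, fun hm' => ?_⟩
        obtain ⟨l, hl, hl'⟩ := mem_image.1 hm'
        exact hm (lninj (a₂ := (d, G.π d (loc C p))) hl' ▸ hl)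
  have K : T'.card ≤ 8 → ∀ C p0, ∃ p, p ≠ p0 ∧ ∃ l ∈ L1, l.1.1 ≠ C ∧ G.On l (loc C p) := by
    intro h8 C p0
    obtain ⟨p, γ, hγ, hN, hp, hLb⟩ := A3 _ _ p0 ((h.key e T' C).trans h8)
    refine ⟨p, hp, ?_⟩
    rcases cov C p γ hγ with ⟨i, hi⟩ | hd | hl
    · exact absurd (mem_filter.2 ⟨mem_univ _, by rwa [e.symm_apply_apply]⟩) (hLb (e i))
    · exact absurd (mem_filter.2 ⟨mem_univ p, hd⟩) hN
    · exact hl
  rcases x with w | ⟨C, i⟩
  swap
  · have h1 : (univ \ univ.image fun p => G.π (C, i) (loc C p)).card ≤ L1.card := by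
      refine card_le_card_of_injOn (fun c => ((C, i), c)) (fun c hc => ?_)
        fun c _ c' _ hc => congrArg Prod.snd hc
      refine mem_coe.2 ((hL1 _).2 ⟨rfl, fun ⟨p, hp⟩ => ?_⟩)
      exact (mem_sdiff.1 (mem_coe.1 hc)).2 (mem_image.2 ⟨p, mem_univ _, hp⟩)
    have h2 := card_sdiff_add_card_eq_card
      (subset_univ (univ.image fun p => G.π (C, i) (loc C p)))
    have h3 := h.few C i
    rw [card_univ] at h2
    obtain ⟨p, _, l, hl, hc, _⟩ := K (by omega) C p0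
    exact hc (congrArg Prod.fst (show l.1 = (C, i) from ((hL1 l).1 hl).1))
  obtain ⟨De, hDe⟩ : ∃ De : Finset ((𝒞 × I) × X), ∀ l, l ∈ De ↔ G.On l w ∧ ChL G loc l :=
    ⟨univ.filter fun l => G.On l w ∧ ChL G loc l, fun l => by simp⟩
  have hsum : Fintype.card X + 1 ≤ L1.card + De.card := by
    rw [← G.card_through w]
    refine le_trans (card_le_card fun l hl => ?_) (card_union_le _ _)
    rw [mem_union, hL1, hDe]
    have : G.On l w := (mem_filter.1 hl).2
    by_cases hc : ChL G loc l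
    · exact Or.inr ⟨this, hc⟩
    · exact Or.inl ⟨this, hc⟩
  by_cases hw : ∃ C p, loc C p = w
  · obtain ⟨C, p1, rfl⟩ := hw
    have hcl : ∀ l ∈ De, l.1.1 = C := by
      intro l hl
      obtain ⟨h1, p, hp⟩ := (hDe l).1 hl
      by_contra hne
      exact h.avoid l.1.1 C l.1.2 p p1 hne (h1.trans hp.symm)
    have h9 : De.card ≤ 9 := by
      rw [← h.cardI, ← card_univ]
      refine card_le_card_of_injOn (fun l => l.1.2) (fun _ _ => mem_coe.2 (mem_univ _))
        fun l hl l' hl' hi => ?_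
      exact G.eq_of_dir (Prod.ext ((hcl l hl).trans (hcl l' hl').symm) hi)
        ((hDe l).1 hl).1 ((hDe l').1 hl').1
    obtain ⟨p, hp, l, hl, hc, hon⟩ := K (by omega) C p1
    exact hp (h.s1 hc (hon.trans (show G.On l (loc C p1) from ((hL1 l).1 hl).1).symm))
  have hw' : ∀ C p, loc C p ≠ w := fun C p hp => hw ⟨C, p, hp⟩
  let Z := De.sigma fun l => univ.filter fun p => G.On l (loc l.1.1 p)
  have hZ : Z.card = De.card * 8 := by
    rw [card_sigma, sum_congr rfl fun l hl => h.s2b ((hDe l).1 hl).2, sum_const, smul_eq_mul]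
  have hZ2 : Z ⊆ T'.biUnion fun t => Z.filter fun z =>
      (t.1.1 = z.1.1.1 ∧ t.2.isRight = true) ∨
      (t.1.1 ≠ z.1.1.1 ∧ t.2 = Sum.inl (G.π t.1 (loc z.1.1.1 z.2))) := by
    intro z hz
    obtain ⟨hz1, hz2⟩ := mem_sigma.1 hz
    obtain ⟨γ, hγ⟩ := A2 z.2
    rcases cov z.1.1.1 z.2 γ hγ with ⟨i, hi⟩ | ⟨d, hd, hdT⟩ | ⟨l, hl, hc, hon⟩
    · exact mem_biUnion.2 ⟨_, hi, mem_filter.2 ⟨hz, Or.inl ⟨rfl, rfl⟩⟩⟩
    · exact mem_biUnion.2 ⟨_, hdT, mem_filter.2 ⟨hz, Or.inr ⟨hd, rfl⟩⟩⟩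
    · exact absurd (G.eq_of_lines (l := l) (l' := z.1) (fun e => hc (by rw [e])) hon
        (mem_filter.1 hz2).2 ((hL1 l).1 hl).1 ((hDe _).1 hz1).1) (hw' _ _)
  have hZ3 : Z.card ≤ T'.card * 8 := by
    refine (card_le_card hZ2).trans (card_biUnion_le_card_mul _ _ 8 fun t _ => ?_)
    obtain ⟨d, c | b⟩ := t
    · simp only [Sum.isRight_inl, Bool.false_eq_true, and_false, false_or, Sum.inl.injEq]
      by_cases hon : G.On (d, c) w
      · refine le_trans (le_of_eq (card_eq_zero.2 (filter_eq_empty_iff.2 fun z hz hc => ?_)))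
          (Nat.zero_le _)
        obtain ⟨hz1, hz2⟩ := mem_sigma.1 hz
        exact hw' _ _ (G.eq_of_lines (l := (d, c)) (l' := z.1) (fun e => hc.1 (by rw [← e]))
          hc.2.symm (mem_filter.1 hz2).2 hon ((hDe _).1 hz1).1)
      · refine le_trans ?_ (h.rich w (d, c) hon)
        refine card_le_card_of_injOn (fun z => z.1.1.1) (fun z hz => ?_) fun z hz z' hz' hc => ?_
        · obtain ⟨hz, hc⟩ := mem_filter.1 (mem_coe.1 hz)
          obtain ⟨hz1, hz2⟩ := mem_sigma.1 hz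
          exact mem_coe.2 (mem_filter.2 ⟨mem_univ _, z.2, z.1.1.2, hc.2.symm,
            (mem_filter.1 hz2).2.trans ((hDe _).1 hz1).1.symm⟩)
        · obtain ⟨hz, h1⟩ := mem_filter.1 (mem_coe.1 hz)
          obtain ⟨hz', h2⟩ := mem_filter.1 (mem_coe.1 hz')
          obtain ⟨l, p⟩ := z
          obtain ⟨l', p'⟩ := z'
          have hz1 := (hDe _).1 (mem_sigma.1 hz).1
          have hz2 := (hDe _).1 (mem_sigma.1 hz').1
          obtain rfl : l = l' := h.s3 hw' hz1.2 hz2.2 hz1.1 hz2.1 hc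
          obtain rfl : p = p' := h.s1 h1.1 (h1.2.symm.trans h2.2)
          rfl
    · simp only [Sum.isRight_inr, and_true, reduceCtorEq, and_false, or_false]
      rcases (Z.filter fun z => d.1 = z.1.1.1).eq_empty_or_nonempty with h0 | ⟨z0, hz0⟩
      · rw [h0]; exact Nat.zero_le _
      obtain ⟨hz0, hc0⟩ := mem_filter.1 hz0
      have hl0 := (hDe _).1 (mem_sigma.1 hz0).1
      have hl : ∀ z ∈ Z.filter fun z => d.1 = z.1.1.1, z.1 = z0.1 := fun z hz => by
        obtain ⟨hz, hc⟩ := mem_filter.1 hz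
        have hz1 := (hDe _).1 (mem_sigma.1 hz).1
        exact h.s3 hw' hz1.2 hl0.2 hz1.1 hl0.1 (hc.symm.trans hc0)
      rw [← h.s2b hl0.2]
      refine card_le_card_of_injOn (fun z => z.2) (fun z hz => ?_) fun z hz z' hz' hc => ?_
      · have := (mem_sigma.1 (mem_filter.1 (mem_coe.1 hz)).1).2
        rw [hl z hz] at this
        exact this
      · obtain ⟨l, p⟩ := z
        obtain ⟨l', p'⟩ := z'
        obtain rfl : l = l' := (hl _ hz).trans (hl _ hz').symm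
        obtain rfl : p = p' := hc
        rfl
  omega

end Vale.Agent.P045
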