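import Vale.Agent.P045.PlaceE
import Vale.Agent.P045.PlaceS
import Vale.Agent.P045.PlaceP
import Vale.Agent.P045.Stab
import Vale.Agent.P045.Surg

/-! Assembly. -/

namespace Vale.Agent.P045

open Finset
open scoped Classical

theorem ctr_exists : ∃ q0 : ℕ, ∀ {K F : Type} [Field K] [Fintype K] [CharP K 2] [Field F]
    [Fintype F] [CharP F 2] {tr : F →+ ZMod 2} (_ : K →+* F), IsTr tr → Fintype.card K = 8 →
    q0 ≤ Fintype.card F → ∃ (D Y : Type) (_ : Fintype D) (_ : Fintype Y) (E : Set (D → Y)),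
      Fintype.card D = Fintype.card F + 1 ∧ Ctr E := by
  obtain ⟨N, q1, h1⟩ := cfg_exists
  obtain ⟨R, hR, h2⟩ := potOK N
  obtain ⟨q2, h3⟩ := stab R hR
  refine ⟨q1 + q2 + 17, fun {K F} _ _ _ _ _ _ {tr} ι htr hK hq => ?_⟩
  obtain ⟨g⟩ := h1 ι htr hK (by omega)
  obtain ⟨b, hb⟩ := h3 (plane htr (vec ι)) Prod.fst (g.pot htr) (by omega) (h2 g htr hK)
  obtain ⟨E, hE⟩ := surg _ _ (g.surgOK htr hK (by omega) b) (by
    convert hb using 2 with l
    simp [ChL, Cfg.pot])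
  exact ⟨_, _, inferInstance, inferInstance, E, (plane htr (vec ι)).cardD, hE⟩

end Vale.Agent.P045
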