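import Vale.Agent.P045.Circ
import Vale.Agent.P045.Geo

/-! A generic translation `t`.  Fix `θᵢ, pᵢ` (`576 ^ 3` choices, `card_Un` with `IsTr.comp`,
`card_Pt`) and count triples `(t, ρ₂, ρ₃)` satisfying the conditions of `Phi3`.
* Collinearity (`det_eq_zero_of`): `det (v₂ - v₁) (v₃ - v₁) = 0` for `v₁ = t + p₁`,
  `v₂ = ρ₂ (t + p₂)`, `v₃ = ρ₃ (t + p₃)`; this is `Δ * nm t + det g' t + h = 0` with
  `Δ = det (ρ₂ - 1) (ρ₃ - 1) ≠ 0` (three different unit vectors are not on a line: `line_un`;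
  `det_mul_self`, `det_mul_right`).
* Concurrency (`det_three`) with `a₁ = θ₁`, `a₂ = ρ₂ θ₂`, `a₃ = ρ₃ θ₃`, `A₁ = det a₂ a₃`,
  `A₂ = det a₃ a₁`, `A₃ = det a₁ a₂ ≠ 0` (`un_eq_of_det`): `det (∑ Aᵢ • θᵢ) t = const`.
* If `∑ Aᵢ • θᵢ ≠ 0` there are at most 2 values of `t` (`line_circle`): `2 (q + 1) ^ 2` triples.
  Otherwise, for fixed `ρ₂`, apply `det θ₃'` for any `θ₃'` with `det θ₃' θ₃ ≠ 0`: `a₃` satisfies an
  equation `det v a₃ = c ≠ 0`, so at most 2 values of `ρ₃` (`line_un`), and at most `2 q` values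
  of `t` (`card_circle`): `4 q (q + 1)` triples.
So `∑ t, card (Phi3 ι t) ≤ 24 * 576 ^ 3 * q ^ 2`; at most `q ^ 2 / 4` values of `t` exceed
`B = 96 * 576 ^ 3`, and at most `72 q` values of `t` violate the first condition. -/

namespace Vale.Agent.P045

open Finset
open scoped Classical

section

variable {F : Type} [Field F]

/-- the collinearity and concurrency conditions -/
def TripC (θ : Fin 3 → Un F) (p : Fin 3 → Pt F) (ρ₂ ρ₃ : Un F) (t : Pt F) : Prop :=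
  ρ₂ ≠ 1 ∧ ρ₃ ≠ 1 ∧ ρ₂ ≠ ρ₃ ∧ ρ₂.1 * (θ 1).1 ≠ (θ 0).1 ∧
    det (ρ₂.1 * (t + p 1) - (t + p 0)) (ρ₃.1 * (t + p 2) - (t + p 0)) = 0 ∧
    ∃ x, det (θ 0).1 x = det (θ 0).1 (t + p 0) ∧ det (ρ₂.1 * (θ 1).1) x = det (θ 1).1 (t + p 1) ∧
      det (ρ₃.1 * (θ 2).1) x = det (θ 2).1 (t + p 2)

variable [Fintype F] [CharP F 2] {tr : F →+ ZMod 2}

theorem trip_delta (htr : IsTr tr) {ρ₂ ρ₃ : Un F} (h1 : ρ₂ ≠ 1) (h2 : ρ₃ ≠ 1) (h3 : ρ₂ ≠ ρ₃) :
    det (ρ₂.1 - 1) (ρ₃.1 - 1) ≠ 0 := by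
  intro h
  have hv : ρ₂.1 - 1 ≠ 0 := fun e => h1 (Subtype.ext (sub_eq_zero.1 e))
  have h4 := htr.line_un hv (det (ρ₂.1 - 1) 1)
  have h5 : ({1, ρ₂, ρ₃} : Finset (Un F)) ⊆
      univ.filter fun u : Un F => det (ρ₂.1 - 1) u.1 = det (ρ₂.1 - 1) 1 := by
    intro u hu
    simp only [mem_insert, mem_singleton] at hu
    refine mem_filter.2 ⟨mem_univ _, ?_⟩
    rcases hu with rfl | rfl | rfl
    · rfl
    · rw [← sub_eq_zero, ← det_sub, det_self]
    · rw [← sub_eq_zero, ← det_sub, h]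
  have h6 := card_le_card h5
  rw [card_eq_three.2 ⟨1, ρ₂, ρ₃, h1.symm, h2.symm, h3, rfl⟩] at h6
  omega

theorem trip_count (htr : IsTr tr) (θ : Fin 3 → Un F) (p : Fin 3 → Pt F) :
    ∑ ρ₂ : Un F, ∑ ρ₃ : Un F, (univ.filter fun t => TripC θ p ρ₂ ρ₃ t).card ≤
      16 * Fintype.card F ^ 2 := by
  have hq : 0 < Fintype.card F := Fintype.card_pos
  have key : ∀ ρ₂ : Un F, ∑ ρ₃ : Un F, (univ.filter fun t => TripC θ p ρ₂ ρ₃ t).card ≤
      8 * Fintype.card F := by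
    intro ρ₂
    by_cases h0 : ρ₂.1 * (θ 1).1 = (θ 0).1
    · rw [sum_eq_zero fun ρ₃ _ => card_eq_zero.2 (filter_eq_empty_iff.2 fun t _ h => h.2.2.2.1 h0)]
      exact Nat.zero_le _
    have hA : det (θ 0).1 (ρ₂.1 * (θ 1).1) ≠ 0 := fun h =>
      h0 (congrArg Subtype.val (un_eq_of_det (v := ρ₂ * θ 1) h)).symm
    set θ' : Pt F := ⟨0, 1⟩ * (θ 2).1 with hθ'
    set w : Pt F := (det θ' (θ 0).1 • (ρ₂.1 * (θ 1).1) - det θ' (θ 1).1 • (θ 0).1) * star (θ 2).1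
      with hw
    set Z := univ.filter fun u : Un F => det w u.1 = det (θ 0).1 (ρ₂.1 * (θ 1).1) with hZ
    have hZ2 : Z.card ≤ 2 := by
      by_cases h : w = 0
      · rw [hZ, filter_eq_empty_iff.2 fun u _ e => hA (by rw [← e, h, zero_det])]
        simp
      · exact htr.line_un h _
    have h1 : ∀ ρ₃ : Un F, (univ.filter fun t => TripC θ p ρ₂ ρ₃ t).card ≤
        2 + if ρ₃ ∈ Z then 2 * Fintype.card F else 0 := by
      intro ρ₃
      by_cases hne : ρ₂ ≠ 1 ∧ ρ₃ ≠ 1 ∧ ρ₂ ≠ ρ₃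
      swap
      · rw [filter_eq_empty_iff.2 fun t _ h => hne ⟨h.1, h.2.1, h.2.2.1⟩]
        simp
      have hΔ := trip_delta htr hne.1 hne.2.1 hne.2.2
      set g : Pt F := (ρ₂.1 * p 1 - p 0) * star (ρ₃.1 - 1) - (ρ₃.1 * p 2 - p 0) * star (ρ₂.1 - 1)
        with hg
      have hc : ∀ t, TripC θ p ρ₂ ρ₃ t → det (ρ₂.1 - 1) (ρ₃.1 - 1) * nm t + det g t +
          det (ρ₂.1 * p 1 - p 0) (ρ₃.1 * p 2 - p 0) = 0 := by
        intro t h
        rw [← h.2.2.2.2.1]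
        simp [hg, det, nm]
        ring
      set V : Pt F := det (ρ₂.1 * (θ 1).1) (ρ₃.1 * (θ 2).1) • (θ 0).1 +
        det (ρ₃.1 * (θ 2).1) (θ 0).1 • (θ 1).1 + det (θ 0).1 (ρ₂.1 * (θ 1).1) • (θ 2).1 with hV
      by_cases hV0 : V = 0
      · have hz : ρ₃ ∈ Z := by
          refine mem_filter.2 ⟨mem_univ _, ?_⟩
          have e1 : det θ' (θ 2).1 = -1 := by
            have e0 := nm_un (θ 2)
            simp only [nm] at e0
            simp [hθ', det]
            linear_combination -e0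
          have e2 := congrArg (det θ') hV0
          rw [hV, det_add, det_add, det_smul, det_smul, det_smul, det_zero, e1,
            det_comm (ρ₃.1 * (θ 2).1) (θ 0).1] at e2
          rw [hw, ← det_mul_right, sub_det, smul_det, smul_det]
          linear_combination e2
        rw [if_pos hz]
        refine le_trans (card_le_card fun t ht => ?_) ((htr.card_circle hΔ g
          (det (ρ₂.1 * p 1 - p 0) (ρ₃.1 * p 2 - p 0))).trans (Nat.le_add_left _ _))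
        exact mem_filter.2 ⟨mem_univ _, hc t (mem_filter.1 ht).2⟩
      · refine le_trans (card_le_card fun t ht => ?_) ((htr.line_circle hΔ g
          (det (ρ₂.1 * p 1 - p 0) (ρ₃.1 * p 2 - p 0)) hV0
          (-(det (ρ₂.1 * (θ 1).1) (ρ₃.1 * (θ 2).1) * det (θ 0).1 (p 0) +
            det (ρ₃.1 * (θ 2).1) (θ 0).1 * det (θ 1).1 (p 1) +
            det (θ 0).1 (ρ₂.1 * (θ 1).1) * det (θ 2).1 (p 2)))).trans (Nat.le_add_right _ _))
        have ht' := (mem_filter.1 ht).2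
        refine mem_filter.2 ⟨mem_univ _, hc t ht', ?_⟩
        obtain ⟨x, c1, c2, c3⟩ := ht'.2.2.2.2.2
        have e := det_three (θ 0).1 (ρ₂.1 * (θ 1).1) (ρ₃.1 * (θ 2).1) x
        rw [c1, c2, c3, det_add, det_add, det_add] at e
        rw [hV, add_det, add_det, smul_det, smul_det, smul_det]
        linear_combination e
    refine (sum_le_sum fun ρ₃ _ => h1 ρ₃).trans ?_
    rw [sum_add_distrib, sum_ite_mem, univ_inter, sum_const, sum_const, card_univ, htr.card_Un,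
      smul_eq_mul, smul_eq_mul]
    have := Nat.mul_le_mul_right (2 * Fintype.card F) hZ2
    omega
  refine (sum_le_sum fun ρ₂ _ => key ρ₂).trans ?_
  rw [sum_const, card_univ, htr.card_Un, smul_eq_mul]
  nlinarith

end

theorem trip : ∃ B q0 : ℕ, ∀ {K F : Type} [Field K] [Fintype K] [CharP K 2] [Field F] [Fintype F]
    [CharP F 2] {tr : F →+ ZMod 2} (ι : K →+* F), IsTr tr → Fintype.card K = 8 →
    q0 ≤ Fintype.card F → ∃ t : Pt F, (∀ (θ : Un K) (k : K), det (mapPt ι θ.1) t ≠ ι k) ∧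
      (Phi3 ι t).card ≤ B := by
  refine ⟨64 * 576 ^ 3, 100, fun {K F} _ _ _ _ _ _ {tr} ι htr hK hq => ?_⟩
  have hU : Fintype.card (Un K) = 9 := by rw [(htr.comp ι).card_Un, hK]
  have hcard : Fintype.card (Fin 3 → Un K × Pt K) = 576 ^ 3 := by
    rw [Fintype.card_fun, Fintype.card_prod, hU, card_Pt, hK]
    rfl
  have h1 : ∀ t, (Phi3 ι t).card ≤ ∑ s : Fin 3 → Un K × Pt K, ∑ ρ₂ : Un F, ∑ ρ₃ : Un F,
      if TripC (fun i => mapUn ι (s i).1) (fun i => mapPt ι (s i).2) ρ₂ ρ₃ t then 1 else 0 := by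
    intro t
    rw [Phi3, card_filter, sum_comm]
    refine sum_le_sum fun ρ₂ _ => ?_
    split_ifs with h
    · obtain ⟨ρ₃, θ₁, θ₂, θ₃, p₁, p₂, p₃, x, g, c, a1, a2, a3, a4, a5, b1, b2, b3, c1, c2, c3⟩ := h
      have : TripC (fun i => mapUn ι (![(θ₁, p₁), (θ₂, p₂), (θ₃, p₃)] i).1)
          (fun i => mapPt ι (![(θ₁, p₁), (θ₂, p₂), (θ₃, p₃)] i).2) ρ₂ ρ₃ t := by
        refine ⟨a1, a2, a3, a4, det_eq_zero_of a5 ?_ ?_, x, c1, c2, c3⟩
        · rw [det_sub]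
          exact sub_eq_zero.2 (b2.trans b1.symm)
        · rw [det_sub]
          exact sub_eq_zero.2 (b3.trans b1.symm)
      refine le_trans ?_ (single_le_sum (fun _ _ => Nat.zero_le _)
        (mem_univ ![(θ₁, p₁), (θ₂, p₂), (θ₃, p₃)]))
      refine le_trans ?_ (single_le_sum (fun _ _ => Nat.zero_le _) (mem_univ ρ₃))
      rw [if_pos this]
    · exact Nat.zero_le _
  have h2 : ∑ t, (Phi3 ι t).card ≤ 576 ^ 3 * (16 * Fintype.card F ^ 2) := by
    refine (sum_le_sum fun t _ => h1 t).trans ?_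
    rw [sum_comm, ← hcard, ← card_univ, ← smul_eq_mul, ← sum_const]
    refine sum_le_sum fun s _ => le_trans (le_of_eq ?_) (trip_count htr (fun i => mapUn ι (s i).1)
      fun i => mapPt ι (s i).2)
    rw [sum_comm]
    refine sum_congr rfl fun ρ₂ _ => ?_
    rw [sum_comm]
    exact sum_congr rfl fun ρ₃ _ => (card_filter _ _).symm
  have h3 : (univ.filter fun t : Pt F => 64 * 576 ^ 3 ≤ (Phi3 ι t).card).card * (64 * 576 ^ 3) ≤
      ∑ t, (Phi3 ι t).card := by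
    rw [← smul_eq_mul, ← sum_const]
    exact (sum_le_sum fun t ht => (mem_filter.1 ht).2).trans
      (sum_le_sum_of_subset (filter_subset _ _))
  have h4 : (univ.biUnion fun s : Un K × K =>
      (plane htr (Equiv.refl _)).pts (mapUn ι s.1, ι s.2)).card ≤ 72 * Fintype.card F := by
    refine (card_biUnion_le_card_mul _ _ _ fun s _ => (Pl.card_pts _ _).le).trans ?_
    rw [card_univ, Fintype.card_prod, hU, hK]
  by_contra hcon
  push Not at hcon
  have h5 : (univ : Finset (Pt F)) ⊆ (univ.filter fun t : Pt F => 64 * 576 ^ 3 ≤ (Phi3 ι t).card) ∪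
      univ.biUnion fun s : Un K × K => (plane htr (Equiv.refl _)).pts (mapUn ι s.1, ι s.2) := by
    intro t _
    by_cases h : ∀ (θ : Un K) (k : K), det (mapPt ι θ.1) t ≠ ι k
    · exact mem_union_left _ (mem_filter.2 ⟨mem_univ _, (hcon t h).le⟩)
    · push Not at h
      obtain ⟨θ, k, h⟩ := h
      exact mem_union_right _ (mem_biUnion.2 ⟨(θ, k), mem_univ _, (Pl.mem_pts _ _ _).2 h⟩)
  have h6 := (card_le_card h5).trans (card_union_le _ _)
  rw [card_univ, card_Pt] at h6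
  have h7 := Nat.mul_le_mul_right (Fintype.card F) hq
  rw [sq] at h2 h6
  omega

end Vale.Agent.P045
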