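import Vale.Agent.P045.Lam
import Vale.Agent.P045.Trip
import Vale.Agent.P045.Clique
import Vale.Agent.P045.Kloos

/-! Existence of the data.  `B` from `trip`, `Dg = 73728 + B`, `N = 2 Dg + 1`; `colour` for
`rel C C' = (C.out⁻¹ * C'.out ∈ Phi1 ∪ Phi3)` (`C' ↦ C.out⁻¹ * C'.out` and `C' ↦ C'.out⁻¹ * C.out`
are injective); `clique (2 N) 1728 (2 * 4 ^ M)` with `T = Fin N × Bool`, `J = Pt F × F`,
`Λ (x, c) = if x.im ≠ c then Lam ι t x c else ∅`, `ok x = (x ≠ 0)`,
`rel x y = ∀ θ p p', tr (nm (t + p') / det θ (t + p) ^ 2 * (y / x) ^ 2) = 0`; the extension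
hypothesis is `kloos M` with `M = 2 N * (9 * 64 * 64)`, `B1 = {β / y ^ 2}`, `B2 = {β * y ^ 2}`. -/

namespace Vale.Agent.P045

open Finset
open scoped Classical

theorem cfg_exists : ∃ N q0 : ℕ, ∀ {K F : Type} [Field K] [Fintype K] [CharP K 2] [Field F]
    [Fintype F] [CharP F 2] {tr : F →+ ZMod 2} (ι : K →+* F), IsTr tr → Fintype.card K = 8 →
    q0 ≤ Fintype.card F → Nonempty (Cfg tr ι N) := by
  obtain ⟨B, q1, h1⟩ := trip
  obtain ⟨N, hN⟩ : ∃ N, N = 2 * (73728 + B) + 1 := ⟨_, rfl⟩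
  obtain ⟨M, hM⟩ : ∃ M, M = 2 * N * 36864 := ⟨_, rfl⟩
  obtain ⟨q2, h2⟩ := kloos M
  obtain ⟨q3, h3⟩ := clique (2 * N) 1728 (2 * 4 ^ M)
  refine ⟨N, q1 + q2 + q3, fun {K F} _ _ _ _ _ _ {tr} ι htr hK hq => ?_⟩
  obtain ⟨t, ht, hB⟩ := h1 ι htr hK (by omega)
  have hΦ : (Phi1 ι t ∪ Phi3 ι t).card ≤ 73728 + B :=
    (card_union_le _ _).trans (add_le_add (card_Phi1 htr hK ht) hB)
  obtain ⟨χ, hχ⟩ := colour (fun C C' : Cl ι => C.out⁻¹ * C'.out ∈ Phi1 ι t ∪ Phi3 ι t) (73728 + B)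
    (fun C => le_trans (card_le_card_of_injOn (fun C' => C.out⁻¹ * C'.out)
      (fun C' h => by simpa using h)
      fun _ _ _ _ h => Quotient.out_injective (mul_left_cancel h)) hΦ)
    (fun C => le_trans (card_le_card_of_injOn (fun C' => C'.out⁻¹ * C.out)
      (fun C' h => by simpa using h)
      fun _ _ _ _ h => Quotient.out_injective (inv_injective (mul_right_cancel h))) hΦ)
  let β : Un K × Pt K × Pt K → F := fun s =>
    nm (t + mapPt ι s.2.2) / det (mapPt ι s.1.1) (t + mapPt ι s.2.1) ^ 2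
  have hcard : Fintype.card (Un K × Pt K × Pt K) = 36864 := by
    rw [Fintype.card_prod, Fintype.card_prod, (htr.comp ι).card_Un, card_Pt, hK]
    rfl
  obtain ⟨f, hf1, hf2, hf3⟩ := h3 (T := Fin N × Bool) (J := Pt F × F) (fun x : F => x ≠ 0)
    (fun x y => ∀ s, tr (β s * (y / x) ^ 2) = 0)
    (fun j => if j.1.im ≠ j.2 then Lam ι t j.1 j.2 else ∅) (by omega)
    (by simp [mul_comm]) (by rw [Fintype.card_prod, card_Pt, ← pow_succ])
    (fun j => by
      split_ifs with h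
      · exact card_Lam htr hK ht _ _ h
      · simp)
    (fun S hS _ => by
      have hc : ∀ g : F × (Un K × Pt K × Pt K) → F, ((S ×ˢ univ).image g).card ≤ M := fun g =>
        card_image_le.trans (by
          rw [card_product, card_univ, hcard, hM]
          exact Nat.mul_le_mul_right _ hS)
      refine (h2 htr (by omega) _ _ (hc fun p => β p.2 / p.1 ^ 2)
        (hc fun p => β p.2 * p.1 ^ 2)).trans (Nat.mul_le_mul_left _ (card_le_card fun x hx => ?_))
      simp only [mem_filter, mem_univ, true_and] at hx ⊢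
      refine ⟨hx.1, fun y hy => ⟨fun s => ?_, fun s => ?_⟩⟩
      · rw [← hx.2.2 _ (mem_image.2 ⟨(y, s), mem_product.2 ⟨hy, mem_univ _⟩, rfl⟩), div_pow,
          mul_div_assoc]
      · rw [← hx.2.1 _ (mem_image.2 ⟨(y, s), mem_product.2 ⟨hy, mem_univ _⟩, rfl⟩), div_pow,
          div_mul_eq_mul_div (β s), mul_div_assoc])
  subst hN
  refine ⟨⟨t, f, χ, ht, hf1, fun τ τ' h θ p p' => hf2 τ τ' h (θ, p, p'), hχ, fun x c h => ?_⟩⟩
  have := hf3 (x, c)
  simp only [if_pos h] at this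
  exact this

end Vale.Agent.P045
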